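import Crest.Agent.R123.CoreGlue

/-!
# Row 123: the glued map is `C¹` and has no small bounded orbits
-/

set_option autoImplicit false

noncomputable section

namespace Crest.Agent.R123

open Real Set Filter Topology

variable {E : Type} [NormedAddCommGroup E] [InnerProductSpace ℝ E]

/-- The derivative along the zero section. -/
def Lz (c : ℝ) : ℝ × E →L[ℝ] E := c • ContinuousLinearMap.snd ℝ ℝ E

@[simp] lemma Lz_apply (c : ℝ) (p : ℝ × E) : Lz c p = c • p.2 := rfl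

lemma norm_Lz_sub_le (c d : ℝ) : ‖(Lz c - Lz d : ℝ × E →L[ℝ] E)‖ ≤ |c - d| := by
  refine ContinuousLinearMap.opNorm_le_bound _ (abs_nonneg _) fun p => ?_
  rw [sub_apply, Lz_apply, Lz_apply, ← sub_smul, norm_smul, Real.norm_eq_abs]
  exact mul_le_mul_of_nonneg_left (norm_snd_le p) (abs_nonneg _)

namespace Sys

variable (S : Sys E) {η ρ M : ℕ → ℝ}

section

variable (hη : ∀ k, 0 < η k ∧ η k ≤ 1) (hρ : ∀ k, 0 < ρ k) (hρd : ∀ k, ρ (k + 1) ≤ ρ k / 4)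

include hη hρ hρd

lemma Phi_smoothAt (p : ℝ × E) (hp : p.2 ≠ 0) : ContDiffAt ℝ 1 (S.Phi η ρ) p := by
  have h := inLev_lev hρ hρd (norm_pos_iff.mpr hp)
  refine (S.mix_smooth hη (ρ := ρ) (lev ρ ‖p.2‖) p hp).congr_of_eventuallyEq ?_
  filter_upwards [inLev_eventually h] with p' hp' using S.Phi_eq hρ hρd η hp'

lemma fderiv_Phi_le
    (hM : ∀ k, 0 ≤ M k ∧ ∀ η t t' z, ‖S.G k η t z - S.G k η t' z‖ ≤ M k * |t - t'| * ‖z‖)
    (p : ℝ × E) (hp : p.2 ≠ 0) {e : ℝ} (he : 0 < e) :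
    ‖fderiv ℝ (S.Phi η ρ) p - Lz (S.a p.1)‖ ≤
      (M (lev ρ ‖p.2‖) + M (lev ρ ‖p.2‖ + 1)) * ‖p.2‖ +
        (2 + 2 * cutK) * (S.ε (lev ρ ‖p.2‖) + S.ε (lev ρ ‖p.2‖ + 1)) + e := by
  obtain ⟨t, z⟩ := p
  simp only at hp ⊢
  have h := inLev_lev hρ hρd (norm_pos_iff.mpr hp)
  set k := lev ρ ‖z‖
  have hd : HasFDerivAt (fun p => S.Phi η ρ p - Lz (S.a t) p)
      (fderiv ℝ (S.Phi η ρ) (t, z) - Lz (S.a t)) (t, z) :=
    ((S.Phi_smoothAt hη hρ hρd (t, z) hp).differentiableAt one_ne_zero).hasFDerivAt.sub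
      (Lz (S.a t) : ℝ × E →L[ℝ] E).hasFDerivAt
  have hK := cutK_nonneg
  have e0 := S.ε_nonneg k
  have e1 := S.ε_nonneg (k + 1)
  have m0 := (hM k).1
  have m1 := (hM (k + 1)).1
  refine hd.le_of_lip' (by positivity) ?_
  have ha : ∀ᶠ p' : ℝ × E in 𝓝 (t, z), |S.a p'.1 - S.a t| < e := by
    have hc : ContinuousAt (fun p' : ℝ × E => |S.a p'.1 - S.a t|) (t, z) := by
      have := S.a_cont
      fun_prop
    exact hc.eventually_lt continuousAt_const (by simpa using he)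
  filter_upwards [inLev_eventually (p := (t, z)) h, ha] with p' hp' ha'
  obtain ⟨t', z'⟩ := p'
  rw [S.Phi_eq hρ hρd η hp', S.Phi_eq hρ hρd η (p := (t, z)) h]
  simp only [Lz_apply] at ha' ⊢
  have h1 := S.mix_lip hη hρ k t' z' z
  have h2 := S.mix_tlip (η := η) (ρ := ρ) hM k t' t z
  have h3 : ‖(S.a t' - S.a t) • (z' - z)‖ ≤ e * ‖z' - z‖ := by
    rw [norm_smul, Real.norm_eq_abs]
    exact mul_le_mul_of_nonneg_right ha'.le (norm_nonneg _)
  have hz : ‖z' - z‖ ≤ ‖((t', z') : ℝ × E) - (t, z)‖ := norm_snd_le ((t', z') - (t, z) : ℝ × E)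
  have ht : |t' - t| ≤ ‖((t', z') : ℝ × E) - (t, z)‖ := norm_fst_le ((t', z') - (t, z) : ℝ × E)
  set D := ‖((t', z') : ℝ × E) - (t, z)‖
  have eq1 : S.mix η ρ k (t', z') - S.a t • z' - (S.mix η ρ k (t, z) - S.a t • z) =
      (S.mix η ρ k (t', z') - S.mix η ρ k (t', z) - S.a t' • (z' - z)) +
        (S.mix η ρ k (t', z) - S.mix η ρ k (t, z)) + (S.a t' - S.a t) • (z' - z) := by
    simp only [smul_sub, sub_smul]
    abel
  rw [eq1]
  calc _ ≤ _ := norm_add₃_le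
    _ ≤ (2 + 2 * cutK) * (S.ε k + S.ε (k + 1)) * D + (M k + M (k + 1)) * D * ‖z‖ + e * D := by
        refine add_le_add (add_le_add (h1.trans ?_) (h2.trans ?_)) (h3.trans ?_) <;> gcongr
    _ = _ := by ring

omit [InnerProductSpace ℝ E] hη in
/-- Near the zero section only high levels are used. -/
lemma small_level {K : ℕ} (t₀ : ℝ) :
    ∀ᶠ p : ℝ × E in 𝓝 (t₀, 0), p.2 ≠ 0 → K ≤ lev ρ ‖p.2‖ := by
  have hc : ContinuousAt (fun p : ℝ × E => ‖p.2‖) (t₀, 0) := by fun_prop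
  have h := hc.eventually_lt continuousAt_const (show ‖((t₀, 0) : ℝ × E).2‖ < 2 * ρ K by
    simpa using hρ K)
  filter_upwards [h] with p hp hp0 using le_lev hρ hρd (norm_pos_iff.mpr hp0) hp.le

omit hη hρ hρd in
lemma eps_small {e : ℝ} (he : 0 < e) :
    ∃ K, ∀ k, K ≤ k → (2 + 2 * cutK) * (S.ε k + S.ε (k + 1)) < e := by
  have h : Tendsto (fun k => (2 + 2 * cutK) * (S.ε k + S.ε (k + 1))) atTop (𝓝 0) := by
    simpa using (S.ε_tendsto.add (S.ε_tendsto.comp (tendsto_add_atTop_nat 1))).const_mul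
      (2 + 2 * cutK)
  exact eventually_atTop.mp (h.eventually (gt_mem_nhds he))

omit hη hρ hρd in
lemma a_near (t₀ : ℝ) {e : ℝ} (he : 0 < e) :
    ∀ᶠ p : ℝ × E in 𝓝 (t₀, 0), |S.a p.1 - S.a t₀| < e := by
  have hc : ContinuousAt (fun p' : ℝ × E => |S.a p'.1 - S.a t₀|) (t₀, 0) := by
    have := S.a_cont
    fun_prop
  exact hc.eventually_lt continuousAt_const (by simpa using he)

lemma hasFDerivAt_Phi_zero (t₀ : ℝ) : HasFDerivAt (S.Phi η ρ) (Lz (S.a t₀)) (t₀, 0) := by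
  rw [hasFDerivAt_iff_isLittleO, Asymptotics.isLittleO_iff]
  intro c hc
  obtain ⟨K, hK⟩ := S.eps_small (half_pos hc)
  filter_upwards [small_level hρ hρd (K := K) t₀, S.a_near t₀ (half_pos hc)] with p hp ha
  obtain ⟨t, z⟩ := p
  rw [S.Phi_zero]
  simp only [Lz_apply, Prod.snd_sub, sub_zero] at hp ha ⊢
  rcases eq_or_ne z 0 with rfl | hz
  · rw [S.Phi_zero]
    simp only [smul_zero, sub_zero, norm_zero]
    positivity
  · have h1 := S.mix_lip hη hρ (lev ρ ‖z‖) t z 0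
    rw [S.mix_zero, sub_zero, sub_zero] at h1
    have h2 := hK _ (hp hz)
    have hz' : ‖z‖ ≤ ‖((t, z) : ℝ × E) - (t₀, 0)‖ := by
      simp
    have e : S.Phi η ρ (t, z) - S.a t₀ • z =
        (S.mix η ρ (lev ρ ‖z‖) (t, z) - S.a t • z) + (S.a t - S.a t₀) • z := by
      simp only [Phi, sub_smul]
      abel
    rw [e]
    calc _ ≤ _ := norm_add_le _ _
      _ ≤ c / 2 * ‖z‖ + c / 2 * ‖z‖ := by
          refine add_le_add (h1.trans ?_) ?_
          · gcongr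
          · rw [norm_smul, Real.norm_eq_abs]
            gcongr
      _ = c * ‖z‖ := by ring
      _ ≤ _ := by gcongr

lemma Phi_contDiff
    (hM : ∀ k, 0 ≤ M k ∧ ∀ η t t' z, ‖S.G k η t z - S.G k η t' z‖ ≤ M k * |t - t'| * ‖z‖)
    (hρM : Tendsto (fun k => (M (k + 1) + M (k + 1 + 1)) * ρ (k + 1)) atTop (𝓝 0)) :
    ContDiff ℝ 1 (S.Phi η ρ) := by
  rw [contDiff_one_iff_fderiv]
  refine ⟨fun p => ?_, continuous_iff_continuousAt.mpr fun p => ?_⟩
  · obtain ⟨t, z⟩ := p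
    rcases eq_or_ne z 0 with rfl | hz
    · exact (S.hasFDerivAt_Phi_zero hη hρ hρd t).differentiableAt
    · exact (S.Phi_smoothAt hη hρ hρd (t, z) hz).differentiableAt one_ne_zero
  · obtain ⟨t₀, z₀⟩ := p
    rcases eq_or_ne z₀ 0 with rfl | hz
    swap
    · exact (S.Phi_smoothAt hη hρ hρd (t₀, z₀) hz).continuousAt_fderiv one_ne_zero
    rw [ContinuousAt, (S.hasFDerivAt_Phi_zero hη hρ hρd t₀).fderiv, Metric.tendsto_nhds]
    intro c hc
    have hc4 : 0 < c / 4 := by positivity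
    obtain ⟨K, hK⟩ := S.eps_small hc4
    obtain ⟨K', hK'⟩ := eventually_atTop.mp (hρM.eventually (gt_mem_nhds (half_pos hc4)))
    filter_upwards [small_level hρ hρd (K := K + K' + 1) t₀, S.a_near t₀ hc4] with p hp ha
    obtain ⟨t, z⟩ := p
    rw [dist_eq_norm]
    simp only at hp ha
    have hL := norm_Lz_sub_le (E := E) (S.a t) (S.a t₀)
    rcases eq_or_ne z 0 with rfl | hz
    · rw [(S.hasFDerivAt_Phi_zero hη hρ hρd t).fderiv]
      linarith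
    · have h1 := S.fderiv_Phi_le hη hρ hρd hM (t, z) hz hc4
      simp only at h1
      have h2 := hp hz
      obtain ⟨j, hj⟩ : ∃ j, lev ρ ‖z‖ = j + 1 := ⟨lev ρ ‖z‖ - 1, by omega⟩
      have h3 := hK (lev ρ ‖z‖) (by omega)
      have h4 := hK' j (by omega)
      have h5 := lev_min (ρ := ρ) (x := ‖z‖) (k := j) (by omega)
      have h6 := norm_add_le (fderiv ℝ (S.Phi η ρ) (t, z) - Lz (S.a t)) (Lz (S.a t) - Lz (S.a t₀))
      rw [sub_add_sub_cancel] at h6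
      rw [hj] at h1 h3
      have m0 := (hM (j + 1)).1
      have m1 := (hM (j + 1 + 1)).1
      have h7 : (M (j + 1) + M (j + 1 + 1)) * ‖z‖ ≤ (M (j + 1) + M (j + 1 + 1)) * (2 * ρ (j + 1)) := by
        gcongr
      linarith

end

end Sys

omit [InnerProductSpace ℝ E] in
lemma pseudo_orbit {H : ℕ → E → E} {C δ : ℝ} (hC : 0 ≤ C) (hδ : 0 ≤ δ)
    (hH : ∀ j x y, ‖H j x - H j y‖ ≤ C * ‖x - y‖) {x z : ℕ → E} (h0 : x 0 = z 0)
    (hx : ∀ j, x (j + 1) = H j (x j)) {T : ℕ} (hz : ∀ j < T, ‖z (j + 1) - H j (z j)‖ ≤ δ) :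
    ∀ j ≤ T, ‖x j - z j‖ ≤ δ * (C + 1) ^ j := by
  intro j
  induction j with
  | zero => intro _; simp [h0, hδ]
  | succ j ih =>
    intro hj
    have h1 := ih (by omega)
    have h2 := hz j (by omega)
    have h3 := hH j (x j) (z j)
    have h4 := norm_sub_le (H j (x j) - H j (z j)) (z (j + 1) - H j (z j))
    rw [sub_sub_sub_cancel_right, ← hx] at h4
    rw [← hx] at h3
    have h5 : (1 : ℝ) ≤ (C + 1) ^ j := one_le_pow₀ (by linarith)
    have h6 := mul_le_mul_of_nonneg_left h1 hC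
    rw [pow_succ]
    nlinarith [mul_le_mul_of_nonneg_left h5 hδ]

omit [InnerProductSpace ℝ E] in
lemma uniform_of_local {f : ℝ → E → E} {α ε : ℝ} (hε : 0 < ε) {Ts : ℕ}
    (h : ∀ r, ε ≤ r → ∃ R T : ℕ, R ≤ T ∧ T ≤ Ts ∧ ∀ (t₀ : ℝ) (z : ℕ → E),
      (∀ j < T, z (j + 1) = f (t₀ + j * α) (z j)) → ‖z R‖ = r → ∃ j ≤ T, 2 * r < ‖z j‖)
    (B : ℝ) : ∃ N : ℕ, ∀ (t₀ : ℝ) (z : ℕ → E) (n : ℕ), (∀ j ≤ n, ‖z j‖ ≤ B) →
      (∀ j < n, z (j + 1) = f (t₀ + j * α) (z j)) → ∀ j, N ≤ j → j + N ≤ n → ‖z j‖ < ε := by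
  obtain ⟨m₀, hm₀⟩ := pow_unbounded_of_one_lt (B / ε) (one_lt_two (α := ℝ))
  refine ⟨m₀ * Ts, fun t₀ z n hB hz => ?_⟩
  have key : ∀ m j : ℕ, m * Ts ≤ j → j + m * Ts ≤ n → ε ≤ ‖z j‖ →
      ∃ j' ≤ n, 2 ^ m * ‖z j‖ ≤ ‖z j'‖ := by
    intro m
    induction m with
    | zero => intro j _ h2 _; exact ⟨j, by omega, by simp⟩
    | succ m ih =>
      intro j h1 h2 h3
      obtain ⟨R, T, hRT, hT, hloc⟩ := h _ h3
      rw [Nat.succ_mul] at h1 h2
      obtain ⟨i, hi, hi2⟩ := hloc (t₀ + (j - R : ℕ) * α) (fun i => z (j - R + i)) (fun i hi => by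
        have := hz (j - R + i) (by omega)
        simp only [← add_assoc]
        rw [this]
        congr 1
        push_cast
        ring) (by simp only [show j - R + R = j by omega])
      obtain ⟨j', hj', hj2⟩ := ih (j - R + i) (by omega) (by omega) (by linarith)
      refine ⟨j', hj', le_trans ?_ hj2⟩
      rw [pow_succ, mul_assoc]
      gcongr
  intro j h1 h2
  by_contra hlt
  obtain ⟨j', hj', h3⟩ := key m₀ j h1 h2 (not_lt.mp hlt)
  have h4 := hB j' hj'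
  rw [div_lt_iff₀ hε] at hm₀
  have h5 : 2 ^ m₀ * ε ≤ 2 ^ m₀ * ‖z j‖ := by
    gcongr
    exact not_lt.mp hlt
  linarith

namespace Sys

variable (S : Sys E) {η ρ : ℕ → ℝ}

lemma local_growth (hη : ∀ k, 0 < η k ∧ η k ≤ 1) (hρ : ∀ k, 0 < ρ k)
    (hρd : ∀ k, ρ (k + 1) ≤ ρ k / 4) {k R T : ℕ} (hRT : R ≤ T)
    (hg : ∀ (t₀ : ℝ) (σ : ℕ → ℝ) (z : ℕ → E), (∀ j, 0 ≤ σ j ∧ σ j ≤ 1) →
      (∀ j : ℕ, z (j + 1) = (1 - σ j) • S.G k 0 (t₀ + j * S.α) (z j) +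
        σ j • S.G (k + 1) 0 (t₀ + j * S.α) (z j)) → ∃ j ≤ T, 4 * ‖z R‖ ≤ ‖z j‖)
    {δ : ℝ} (hδ0 : 0 < δ) (hδ : δ * (S.C + 1) ^ T ≤ 1 / 4)
    (h1 : 2 * S.C * η k ≤ δ) (h2 : 2 * S.C * η (k + 1) ≤ δ) (h3 : 16 * S.C * ρ (k + 1) ≤ δ * ρ k)
    {r : ℝ} (hr : ρ k ≤ 4 * r) (hr' : ∀ j, j + 1 = k → 2 * r < ρ j)
    (t₀ : ℝ) (z : ℕ → E) (hz : ∀ j < T, z (j + 1) = S.Phi η ρ (t₀ + j * S.α, z j))
    (hR : ‖z R‖ = r) : ∃ j ≤ T, 2 * r < ‖z j‖ := by
  by_contra hcon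
  push Not at hcon
  have hr0 : 0 < r := by linarith [hρ k]
  have hC : 0 ≤ S.C := by linarith [S.one_le_C]
  let σ : ℕ → ℝ := fun j => cut (‖z j‖ / ρ k)
  have hσ : ∀ j, 0 ≤ σ j ∧ σ j ≤ 1 := fun j => ⟨cut_nonneg _, cut_le_one _⟩
  let H : ℕ → E → E := fun j y => (1 - σ j) • S.G k 0 (t₀ + j * S.α) y +
    σ j • S.G (k + 1) 0 (t₀ + j * S.α) y
  let x : ℕ → E := fun j => Nat.rec (z 0) (fun j y => H j y) j
  have hx : ∀ j, x (j + 1) = H j (x j) := fun j => rfl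
  have hH : ∀ j y y', ‖H j y - H j y'‖ ≤ S.C * ‖y - y'‖ := by
    intro j y y'
    have e : H j y - H j y' =
        (1 - σ j) • (S.G k 0 (t₀ + j * S.α) y - S.G k 0 (t₀ + j * S.α) y') +
        σ j • (S.G (k + 1) 0 (t₀ + j * S.α) y - S.G (k + 1) 0 (t₀ + j * S.α) y') := by
      simp only [H, smul_sub]
      abel
    rw [e]
    exact convex_norm_le (hσ j).1 (hσ j).2 (S.lipC _ le_rfl zero_le_one _ _ _)
      (S.lipC _ le_rfl zero_le_one _ _ _)
  have herr : ∀ j < T, ‖z (j + 1) - H j (z j)‖ ≤ δ * r := by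
    intro j hj
    have hzj := hcon j hj.le
    rw [hz j hj]
    rcases lt_or_ge (2 * ρ (k + 1)) ‖z j‖ with hl | hl
    · rw [S.Phi_eq hρ hρd η (k := k) (p := (t₀ + j * S.α, z j))
        ⟨hl, fun i hi => hzj.trans_lt (hr' i hi)⟩]
      have e : S.mix η ρ k (t₀ + j * S.α, z j) - H j (z j) =
          (1 - σ j) • (S.G k (η k) (t₀ + j * S.α) (z j) - S.G k 0 (t₀ + j * S.α) (z j)) +
          σ j • (S.G (k + 1) (η (k + 1)) (t₀ + j * S.α) (z j) -
            S.G (k + 1) 0 (t₀ + j * S.α) (z j)) := by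
        simp only [H, σ, mix, smul_sub]
        abel
      rw [e]
      refine convex_norm_le (hσ j).1 (hσ j).2 ((S.eta _ _ (hη _).1.le _ _).trans ?_)
        ((S.eta _ _ (hη _).1.le _ _).trans ?_)
      · have := (hη k).1.le
        calc _ ≤ S.C * η k * (2 * r) := by gcongr
          _ = 2 * S.C * η k * r := by ring
          _ ≤ _ := by gcongr
      · have := (hη (k + 1)).1.le
        calc _ ≤ S.C * η (k + 1) * (2 * r) := by gcongr
          _ = 2 * S.C * η (k + 1) * r := by ring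
          _ ≤ _ := by gcongr
    · have a1 := S.Phi_norm (ρ := ρ) hη (t₀ + j * S.α) (z j)
      have a2 : ‖H j (z j)‖ ≤ S.C * ‖z j‖ := convex_norm_le (hσ j).1 (hσ j).2
        (S.normC _ le_rfl zero_le_one _ _) (S.normC _ le_rfl zero_le_one _ _)
      have a3 := mul_le_mul_of_nonneg_left hl hC
      have a4 := mul_le_mul_of_nonneg_left hr hδ0.le
      refine (norm_sub_le _ _).trans ?_
      linarith
  have hps := pseudo_orbit hC (by positivity) hH (x := x) (z := z) rfl hx herr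
  have hclose : ∀ j ≤ T, ‖x j - z j‖ ≤ r / 4 := by
    intro j hj
    refine (hps j hj).trans ?_
    have : (S.C + 1) ^ j ≤ (S.C + 1) ^ T := pow_le_pow_right₀ (by linarith) hj
    calc δ * r * (S.C + 1) ^ j ≤ δ * r * (S.C + 1) ^ T := by gcongr
      _ = δ * (S.C + 1) ^ T * r := by ring
      _ ≤ 1 / 4 * r := by gcongr
      _ = r / 4 := by ring
  obtain ⟨j, hj, hj2⟩ := hg t₀ σ x hσ hx
  have b1 := hclose j hj
  have b2 := hclose R hRT
  have b3 := hcon j hj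
  have b4 := norm_sub_norm_le (x j) (z j)
  have b5 := norm_sub_norm_le (z R) (x R)
  rw [norm_sub_rev] at b5
  linarith

theorem glue {r : ℝ} (hr : 0 < r) : ∃ (Φ : ℝ × E → E) (r₁ η : ℝ), 0 < r₁ ∧ r₁ ≤ r ∧ 0 < η ∧
    η ≤ 1 ∧ ContDiff ℝ 1 Φ ∧ (∀ t z, Φ (t + 1, z) = Φ (t, z)) ∧
    (∀ t z, ‖Φ (t, z)‖ ≤ S.C * ‖z‖) ∧ (∀ t z, r₁ ≤ ‖z‖ → Φ (t, z) = S.G 0 η t z) ∧
    ∀ ε : ℝ, 0 < ε → ∀ B : ℝ, ∃ N : ℕ, ∀ (t₀ : ℝ) (z : ℕ → E) (n : ℕ), (∀ j ≤ n, ‖z j‖ ≤ B) →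
      (∀ j < n, z (j + 1) = Φ (t₀ + j * S.α, z j)) → ∀ j, N ≤ j → j + N ≤ n → ‖z j‖ < ε := by
  choose R T hRT hg using S.grow
  choose M hM using S.tlip
  have hC := S.one_le_C
  let δ : ℕ → ℝ := fun k => 1 / (4 * (S.C + 1) ^ T k)
  have hδ0 : ∀ k, 0 < δ k := fun k => by positivity
  have hδ1 : ∀ k, δ k * (S.C + 1) ^ T k ≤ 1 / 4 := fun k => by
    simp only [δ]
    apply le_of_eq
    field_simp
  have hδ2 : ∀ k, δ k ≤ 1 / 4 := fun k => by
    have h5 : (1 : ℝ) ≤ (S.C + 1) ^ T k := one_le_pow₀ (by linarith)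
    nlinarith [hδ0 k, hδ1 k]
  let η : ℕ → ℝ := fun k => min (δ (k - 1)) (δ k) / (2 * S.C)
  have hη0 : ∀ k, 2 * S.C * η k = min (δ (k - 1)) (δ k) := fun k => by
    simp only [η]
    field_simp
  have hη : ∀ k, 0 < η k ∧ η k ≤ 1 := fun k => by
    have h1 : 0 < η k := div_pos (lt_min (hδ0 _) (hδ0 _)) (by positivity)
    refine ⟨h1, ?_⟩
    have := hη0 k
    have h2 := min_le_right (δ (k - 1)) (δ k)
    nlinarith [hδ2 k]
  let ρ : ℕ → ℝ := fun k => Nat.rec (r / 2) (fun k y =>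
    min (δ k * y / (16 * S.C)) (1 / ((k + 1) * (M (k + 1) + M (k + 1 + 1) + 1)))) k
  have hρs : ∀ k, ρ (k + 1) =
      min (δ k * ρ k / (16 * S.C)) (1 / ((k + 1) * (M (k + 1) + M (k + 1 + 1) + 1))) :=
    fun k => rfl
  have hρ : ∀ k, 0 < ρ k := by
    intro k
    induction k with
    | zero => exact half_pos hr
    | succ k ih =>
      rw [hρs]
      have := hδ0 k
      have := (hM (k + 1)).1
      have := (hM (k + 1 + 1)).1
      exact lt_min (by positivity) (by positivity)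
  have hρ3 : ∀ k, 16 * S.C * ρ (k + 1) ≤ δ k * ρ k := fun k => by
    have h := (hρs k).le.trans (min_le_left _ _)
    rw [le_div_iff₀ (by positivity)] at h
    linarith
  have hρd : ∀ k, ρ (k + 1) ≤ ρ k / 4 := fun k => by
    have h1 := hρ3 k
    have h2 := mul_le_mul_of_nonneg_right (hδ2 k) (hρ k).le
    have h3 := mul_le_mul_of_nonneg_right hC (hρ (k + 1)).le
    linarith [hρ k, hρ (k + 1)]
  have hρM : Tendsto (fun k => (M (k + 1) + M (k + 1 + 1)) * ρ (k + 1)) atTop (𝓝 0) := by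
    refine squeeze_zero (fun k => ?_) (fun k => ?_) tendsto_one_div_add_atTop_nhds_zero_nat
    · have := (hM (k + 1)).1
      have := (hM (k + 1 + 1)).1
      have := hρ (k + 1)
      positivity
    · have m0 := (hM (k + 1)).1
      have m1 := (hM (k + 1 + 1)).1
      have h := (hρs k).le.trans (min_le_right _ _)
      rw [le_div_iff₀ (by positivity)] at h ⊢
      have : (0 : ℝ) ≤ ρ (k + 1) * (k + 1) := by have := hρ (k + 1); positivity
      nlinarith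
  refine ⟨S.Phi η ρ, r, η 0, hr, le_rfl, (hη 0).1, (hη 0).2, S.Phi_contDiff hη hρ hρd hM hρM,
    S.Phi_per, S.Phi_norm hη, fun t z hz => ?_, fun ε hε B => ?_⟩
  · have h0 : ρ 0 = r / 2 := rfl
    clear_value ρ
    have h1 : 2 * ρ (0 + 1) < ‖z‖ := by linarith [hρd 0, hρ 0]
    have h2 : 2 * ρ 0 ≤ ‖z‖ := by linarith
    rw [S.Phi_eq hρ hρd η (k := 0) (p := (t, z)) ⟨h1, fun j hj => absurd hj (by omega)⟩]
    unfold mix
    rw [cut_zero ((le_div_iff₀ (hρ 0)).mpr h2)]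
    simp
  · classical
    obtain ⟨K, hK⟩ := rho_ex hρ hρd hε
    refine uniform_of_local (f := fun t z => S.Phi η ρ (t, z)) hε
      (Ts := ∑ k ∈ Finset.range (K + 1), T k) (fun x hx => ?_) B
    obtain ⟨k, hkK, hk1, hk2⟩ : ∃ k, k ≤ K ∧ ρ k ≤ 4 * x ∧ ∀ j < k, 4 * x < ρ j := by
      have hex : ∃ k, ρ k ≤ 4 * x := ⟨K, by linarith⟩
      exact ⟨Nat.find hex, Nat.find_min' hex (by linarith), Nat.find_spec hex,
        fun j hj => not_le.mp (Nat.find_min hex hj)⟩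
    refine ⟨R k, T k, hRT _,
      Finset.single_le_sum (f := T) (fun _ _ => Nat.zero_le _) (Finset.mem_range.mpr (by omega)),
      fun t₀ z hz hR => ?_⟩
    refine S.local_growth hη hρ hρd (hRT k) (hg k) (hδ0 k) (hδ1 k) ?_ ?_ (hρ3 k)
      hk1 (fun j hj => ?_) t₀ z hz hR
    · rw [hη0]
      exact min_le_right _ _
    · rw [hη0]
      exact min_le_left _ _
    · have := hk2 j (by omega)
      linarith

end Sys

end Crest.Agent.R123
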