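import Crest.Agent.R123.CoreGrow
import Crest.Agent.R123.CoreGlue2

/-!
# Row 123: the local construction
-/

set_option autoImplicit false

noncomputable section

namespace Crest.Agent.R123

open Real Finset Filter Topology

/-- The systems attached to the base data. -/
def Data.sys (D : Data) : Sys E4 where
  α := D.α
  G := D.F
  a := D.abar
  ε := fun k => 6 * LL * (1 / 2) ^ k
  C := 8 * LL
  one_le_C := by linarith [one_le_LL]
  a_cont := D.abar_cont
  a_bd := fun t k => by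
    have h2 : (1 / 2 : ℝ) ^ k ≤ 1 := pow_le_one₀ (by norm_num) (by norm_num)
    have hL := LL_pos
    have h5 : 6 * LL * (1 / 2) ^ k ≤ 6 * LL * 1 := by gcongr
    rw [abs_of_nonneg (D.abar_nonneg t)]
    linarith [D.abar_le t]
  ε_nonneg := fun k => by have := LL_pos; positivity
  ε_tendsto := by
    simpa using (tendsto_pow_atTop_nhds_zero_of_lt_one (r := (1 / 2 : ℝ)) (by norm_num)
      (by norm_num)).const_mul (6 * LL)
  smooth := fun k _ hη p hp => D.F_smooth k hη p hp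
  per := D.F_per
  zero := D.F_zero
  lip := fun k _ h0 h1 => D.F_lip k h0 h1
  tlip := D.F_tlip
  eta := fun k η h0 t z => (D.F_eta k h0 t z).trans (by
    have : 0 ≤ LL * η * ‖z‖ := by have := LL_pos; positivity
    linarith)
  grow := D.grow

/-- From registers to (first register, differences). -/
def toW (z : E4) : ℂ × V3 := (z 1, WithLp.toLp 2 ![z 0 - z 1, z 2 - z 1, z 3 - z 1])

/-- The inverse change of coordinates. -/
def ofW (w : ℂ × V3) : E4 := WithLp.toLp 2 ![w.1 + w.2 0, w.1, w.1 + w.2 1, w.1 + w.2 2]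

lemma toW_ofW (w : ℂ × V3) : toW (ofW w) = w := by
  refine Prod.ext rfl ?_
  ext i
  fin_cases i <;> simp [toW, ofW]

lemma ofW_toW (z : E4) : ofW (toW z) = z := by
  ext i
  fin_cases i <;> simp [toW, ofW]

lemma toW_smooth : ContDiff ℝ 1 toW := by
  have hc : ∀ i, ContDiff ℝ 1 (fun z : E4 => z i) := fun i => (contDiff_piLp 2).mp contDiff_id i
  refine (hc 1).prodMk ((contDiff_piLp 2).mpr fun i => ?_)
  fin_cases i
  · exact (hc 0).sub (hc 1)
  · exact (hc 2).sub (hc 1)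
  · exact (hc 3).sub (hc 1)

lemma ofW_smooth : ContDiff ℝ 1 ofW := by
  have hc : ∀ i, ContDiff ℝ 1 (fun w : ℂ × V3 => w.2 i) := fun i =>
    (contDiff_piLp 2).mp contDiff_snd i
  refine (contDiff_piLp 2).mpr fun i => ?_
  fin_cases i
  · exact contDiff_fst.add (hc 0)
  · exact contDiff_fst
  · exact contDiff_fst.add (hc 1)
  · exact contDiff_fst.add (hc 2)

lemma norm_ofW_le (w : ℂ × V3) : ‖ofW w‖ ≤ 4 * ‖w‖ := by
  have h1 := norm_fst_le w
  have h2 : ∀ i, ‖w.1 + w.2 i‖ ≤ 2 * ‖w‖ := fun i => by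
    have := norm_add_le w.1 (w.2 i)
    have := PiLp.norm_apply_le w.2 i
    have := norm_snd_le w
    linarith
  have h0 := norm_nonneg w
  refine (norm_le_of_comp (B := 2 * ‖w‖) (by positivity) fun i => ?_).trans (le_of_eq (by ring))
  fin_cases i
  · exact h2 0
  · exact h1.trans (by linarith)
  · exact h2 1
  · exact h2 2

lemma norm_toW_le (z : E4) : ‖toW z‖ ≤ 4 * ‖z‖ := by
  have h0 := norm_nonneg z
  have h2 : ∀ i j, ‖z i - z j‖ ≤ 2 * ‖z‖ := fun i j => by
    have := norm_sub_le (z i) (z j)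
    have := comp_le z i
    have := comp_le z j
    linarith
  refine norm_prod_le_iff.mpr ⟨(comp_le z 1).trans (by linarith), ?_⟩
  rw [EuclideanSpace.norm_eq, Real.sqrt_le_iff]
  refine ⟨by positivity, ?_⟩
  calc _ ≤ ∑ _i : Fin 3, (2 * ‖z‖) ^ 2 := sum_le_sum fun i _ => by
        gcongr
        fin_cases i
        · exact h2 0 1
        · exact h2 2 1
        · exact h2 3 1
    _ ≤ _ := by
        simp only [sum_const, card_univ, Fintype.card_fin, nsmul_eq_mul, Nat.cast_ofNat]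
        nlinarith [sq_nonneg ‖z‖]

theorem core : ∃ (α : ℝ) (Ψ : ℝ × (ℂ × V3) → ℂ × V3) (r₁ : ℝ), CoreSpec α Ψ r₁ := by
  obtain ⟨D⟩ := exists_data
  have hL := one_le_LL
  obtain ⟨Φ, r₁, η, hr0, hr1, hη0, hη1, hΦ, hper, hnorm, hmac, hdyn⟩ :=
    D.sys.glue (r := 1 / (2048 * LL)) (by positivity)
  rw [le_div_iff₀ (by positivity)] at hr1
  have hC : D.sys.C = 8 * LL := rfl
  refine ⟨D.α, fun p => toW (Φ (p.1, ofW p.2)), 4 * r₁, by positivity, by nlinarith,
    toW_smooth.comp (hΦ.comp (contDiff_fst.prodMk (ofW_smooth.comp contDiff_snd))),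
    fun t w => by simp only [hper], fun t w hw => ?_, fun t w hw => ?_, fun ε hε => ?_⟩
  · have h1 := norm_toW_le (Φ (t, ofW w))
    have h2 := hnorm t (ofW w)
    have h3 := norm_ofW_le w
    rw [hC] at h2
    have h4 : 8 * LL * ‖ofW w‖ ≤ 8 * LL * (4 * (4 * r₁)) := by
      gcongr
      linarith
    simp only
    nlinarith
  · have h1 := norm_toW_le (ofW w)
    rw [toW_ofW] at h1
    have h2 : r₁ ≤ ‖ofW w‖ := by linarith
    have h3 : 0 < η * ‖ofW w‖ := mul_pos hη0 (by linarith)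
    have hs : 0 < √(‖w.1‖ ^ 2 + (η * ‖ofW w‖) ^ 2) := Real.sqrt_pos.mpr (by positivity)
    have h4 : ∀ i, Φ (t, ofW w) i = (LL / 3 / √(‖w.1‖ ^ 2 + (η * ‖ofW w‖) ^ 2)) • w.1 ^ 2 := by
      intro i
      rw [hmac t _ h2]
      refine (D.F_zero_level η t (ofW w) i).trans ?_
      change (LL / 3) • sm w.1 _ = _
      simp only [sm, Complex.real_smul]
      push_cast
      ring
    refine ⟨LL / 3 / √(‖w.1‖ ^ 2 + (η * ‖ofW w‖) ^ 2), by positivity, ?_, fun hw2 => ?_⟩
    · refine Prod.ext (h4 1) ?_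
      ext i
      fin_cases i <;> simp [toW, h4]
    · have h5 : ‖ofW w‖ ≤ 2 * ‖w.1‖ := norm_le_of_comp (norm_nonneg _) fun i => by
        fin_cases i <;> simp [ofW, hw2]
      have h6 : η * ‖ofW w‖ ≤ 2 * ‖w.1‖ :=
        (mul_le_of_le_one_left (norm_nonneg _) hη1).trans h5
      have h7 : √(‖w.1‖ ^ 2 + (η * ‖ofW w‖) ^ 2) ≤ 3 * ‖w.1‖ := by
        rw [Real.sqrt_le_iff]
        refine ⟨by positivity, ?_⟩
        nlinarith [sq_nonneg ‖w.1‖]
      rw [div_mul_eq_mul_div, le_div_iff₀ hs]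
      have h8 : (72 : ℝ) ≤ LL := by rw [LL_eq]; norm_num
      nlinarith [norm_nonneg w.1]
  · obtain ⟨N, hN⟩ := hdyn (ε / 4) (by positivity) 2
    refine ⟨N, fun t₀ w n hB hw j h1 h2 => ?_⟩
    have h3 := hN t₀ (fun j => ofW (w j)) n
      (fun j hj => by linarith [norm_ofW_le (w j), hB j hj])
      (fun j hj => by rw [hw j hj, ofW_toW]; rfl) j h1 h2
    have h4 := norm_toW_le (ofW (w j))
    rw [toW_ofW] at h4
    linarith

end Crest.Agent.R123
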