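import Crest.Agent.R123.Defs

/-!
# Row 123: combinatorial data on the base circle (arcs, return times, weights)
-/

set_option autoImplicit false

noncomputable section

namespace Crest.Agent.R123

open Real Set Finset

/-- The data on the base needed to define the fibre maps. -/
structure Data where
  α : ℝ
  J : ℕ → ℝ → Prop
  Jp : ℕ → ℝ → Prop
  b : ℕ → ℝ → ℝ
  R : ℕ → ℕ
  q : ℕ → Fin 2 → ℕ → ℝ → ℝ
  b_smooth : ∀ g, ContDiff ℝ 1 (b g)
  b_per : ∀ g, Function.Periodic (b g) 1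
  b_nonneg : ∀ g t, 0 ≤ b g t
  b_le_one : ∀ g t, b g t ≤ 1
  b_J : ∀ g t, J g t → b g t = 0
  b_Jp : ∀ g t, ¬ Jp g t → b g t = 1
  J_sub : ∀ g t, J g t → Jp g t
  nest : ∀ g t, Jp (g + 1) t → J g t
  triv : ∀ g t, g ≤ 3 → J g t
  minret : ∀ g t (n : ℕ), Jp g t → Jp g (t - n * α) → 1 ≤ n → 2 ^ (g - 4) ≤ n
  maxret : ∀ g, ∃ R₀ : ℕ, ∀ t, ∃ n : ℕ, 1 ≤ n ∧ n ≤ R₀ ∧ J g (t - n * α)
  q_smooth : ∀ k e n, ContDiff ℝ 1 (q k e n)
  q_per : ∀ k e n, Function.Periodic (q k e n) 1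
  q_nonneg : ∀ k e n t, 0 ≤ q k e n t
  q_sum : ∀ k t, ∑ e : Fin 2, ∑ n ∈ range (R k), q k e n t = 1
  q_pure : ∀ k e (n : ℕ) t, 0 < q k e n t → J (k + 1 + e) (t - (n + 1 : ℕ) * α) ∧
    ∀ j : ℕ, 1 ≤ j → j ≤ n → ¬ Jp (k + 1 + e) (t - j * α)
  q_zero : ∀ n t, q 0 1 n t = 0

/-- The basic periodic function. -/
def ph (t : ℝ) : ℝ := 1 - cos (2 * π * t)

lemma ph_smooth : ContDiff ℝ 1 ph := by
  unfold ph
  fun_prop

lemma ph_cont : Continuous ph := ph_smooth.continuous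

lemma ph_per : Function.Periodic ph 1 := fun t => by
  simp [ph, mul_add, cos_add_two_pi]

lemma ph_sub_per (c : ℝ) : Function.Periodic (fun t => ph (t - c)) 1 := fun t => by
  have := ph_per (t - c)
  simpa [add_sub_right_comm] using this

lemma ph_nonneg (t : ℝ) : 0 ≤ ph t := by
  unfold ph
  linarith [cos_le_one (2 * π * t)]

lemma ph_le_two (t : ℝ) : ph t ≤ 2 := by
  unfold ph
  linarith [neg_one_le_cos (2 * π * t)]

lemma ph_eq_ph {s t : ℝ} (h : ph s = ph t) : ∃ k : ℤ, t = k + s ∨ t = k - s := by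
  have h1 : cos (2 * π * s) = cos (2 * π * t) := by
    unfold ph at h
    linarith
  obtain ⟨k, hk⟩ := Real.cos_eq_cos_iff.mp h1
  refine ⟨k, ?_⟩
  have hpi : (2 * π) ≠ 0 := by positivity
  rcases hk with hk | hk
  · left
    apply mul_left_cancel₀ hpi
    linarith
  · right
    apply mul_left_cancel₀ hpi
    linarith

lemma ph_zero : ph 0 = 0 := by simp [ph]

lemma ph_eq_zero {t : ℝ} (h : ph t = 0) : ∃ k : ℤ, t = k := by
  obtain ⟨k, hk⟩ := ph_eq_ph (ph_zero.trans h.symm)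
  exact ⟨k, by rcases hk with hk | hk <;> simpa using hk⟩

lemma posmin {f : ℝ → ℝ} (hc : Continuous f) (hp : Function.Periodic f 1) (h : ∀ t, 0 < f t) :
    ∃ c, 0 < c ∧ ∀ t, c ≤ f t := by
  obtain ⟨y, ⟨t₀, rfl⟩, hy⟩ :=
    (hp.compact_of_continuous one_ne_zero hc).exists_isLeast (range_nonempty f)
  exact ⟨f t₀, h t₀, fun t => hy ⟨t, rfl⟩⟩

lemma posmin_finset {ι : Type*} (S : Finset ι) {f : ι → ℝ → ℝ} (hc : ∀ i ∈ S, Continuous (f i))
    (hp : ∀ i ∈ S, Function.Periodic (f i) 1) (h : ∀ i ∈ S, ∀ t, 0 < f i t) :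
    ∃ c, 0 < c ∧ ∀ i ∈ S, ∀ t, c ≤ f i t := by
  classical
  induction S using Finset.induction_on with
  | empty => exact ⟨1, one_pos, by simp⟩
  | insert a S _ ih =>
    obtain ⟨c, hc0, hc1⟩ := ih (fun i hi => hc i (mem_insert_of_mem hi))
      (fun i hi => hp i (mem_insert_of_mem hi)) (fun i hi => h i (mem_insert_of_mem hi))
    obtain ⟨d, hd0, hd1⟩ := posmin (hc a (mem_insert_self _ _)) (hp a (mem_insert_self _ _))
      (h a (mem_insert_self _ _))
    refine ⟨min c d, lt_min hc0 hd0, fun i hi t => ?_⟩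
    rcases mem_insert.mp hi with rfl | hi
    · exact (min_le_right _ _).trans (hd1 t)
    · exact (min_le_left _ _).trans (hc1 i hi t)

lemma int_mul_irr {α : ℝ} (hα : Irrational α) {m : ℤ} {x : ℚ} (h : (m : ℝ) * α = x) : m = 0 := by
  by_contra hm
  exact (hα.intCast_mul hm) ⟨x, h.symm⟩

lemma minret_ex {α : ℝ} (hα : Irrational α) (m : ℕ) : ∃ c, 0 < c ∧ ∀ (t : ℝ) (n : ℕ), 1 ≤ n →
    ph t < c → ph (t - n * α) < c → m ≤ n := by
  obtain ⟨c, hc0, hc⟩ := posmin_finset (Finset.Icc 1 m)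
    (f := fun (n : ℕ) t => ph t + ph (t - n * α))
    (fun n _ => ph_cont.add (ph_cont.comp (by fun_prop)))
    (fun n _ => ph_per.add (ph_sub_per _))
    (fun n hn t => by
      rcases (add_nonneg (ph_nonneg t) (ph_nonneg (t - n * α))).eq_or_lt with h | h
      · exfalso
        have h1 : ph t = 0 := by linarith [ph_nonneg t, ph_nonneg (t - n * α)]
        have h2 : ph (t - n * α) = 0 := by linarith [ph_nonneg t, ph_nonneg (t - n * α)]
        obtain ⟨k, hk⟩ := ph_eq_zero h1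
        obtain ⟨l, hl⟩ := ph_eq_zero h2
        have : ((n : ℤ) : ℝ) * α = ((k - l : ℤ) : ℚ) := by
          push_cast
          linarith
        have := int_mul_irr hα this
        have := (Finset.mem_Icc.mp hn).1
        omega
      · exact h)
  refine ⟨c / 2, by positivity, fun t n hn h1 h2 => ?_⟩
  by_contra hlt
  have := hc n (Finset.mem_Icc.mpr ⟨hn, by omega⟩) t
  linarith

lemma maxret_pt {α : ℝ} (hα : Irrational α) {l : ℝ} (hl : 0 < l) (t : ℝ) :
    ∃ n : ℕ, ph (t - (n + 1 : ℕ) * α) < l := by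
  have hd : DenseRange (· • ((α : ℝ) : AddCircle (1 : ℝ)) : ℕ → AddCircle (1 : ℝ)) :=
    denseRange_zsmul_iff_nsmul.mp (AddCircle.denseRange_zsmul_coe_iff.mpr (by simpa using hα))
  have hO : IsOpen {s : ℝ | ph (t - α - s) < l} :=
    isOpen_lt (ph_cont.comp (by fun_prop)) continuous_const
  have hU : IsOpen (((↑) : ℝ → AddCircle (1 : ℝ)) '' {s : ℝ | ph (t - α - s) < l}) :=
    QuotientAddGroup.isOpenMap_coe _ hO
  obtain ⟨n, s, hs, hsn⟩ := hd.exists_mem_open hU ⟨_, t - α, by simpa [ph_zero] using hl, rfl⟩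
  refine ⟨n, ?_⟩
  have h1 : ((s : ℝ) : AddCircle (1 : ℝ)) = ((n • α : ℝ) : AddCircle (1 : ℝ)) := by
    rw [hsn, AddCircle.coe_nsmul]
  have h2 := QuotientAddGroup.eq.mp h1
  obtain ⟨k, hk⟩ := AddSubgroup.mem_zmultiples_iff.mp h2
  have h3 : t - (n + 1 : ℕ) * α = (t - α - s) - k * 1 := by
    simp only [zsmul_eq_mul, nsmul_eq_mul] at hk
    push_cast
    linarith
  rw [h3, ph_per.sub_int_mul_eq]
  exact hs

lemma maxret_ex {α : ℝ} (hα : Irrational α) {l : ℝ} (hl : 0 < l) :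
    ∃ R : ℕ, ∀ t, ∃ n : ℕ, n < R ∧ ph (t - (n + 1 : ℕ) * α) < l := by
  obtain ⟨S, hS⟩ := (isCompact_Icc (a := (0 : ℝ)) (b := 1)).elim_finite_subcover
    (fun n : ℕ => {t : ℝ | ph (t - (n + 1 : ℕ) * α) < l})
    (fun n => isOpen_lt (ph_cont.comp (by fun_prop)) continuous_const)
    (fun t _ => mem_iUnion.mpr (maxret_pt hα hl t))
  refine ⟨S.sup id + 1, fun t => ?_⟩
  have ht : Int.fract t ∈ Set.Icc (0 : ℝ) 1 := ⟨Int.fract_nonneg t, (Int.fract_lt_one t).le⟩
  obtain ⟨n, hn, h⟩ := mem_iUnion₂.mp (hS ht)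
  refine ⟨n, Nat.lt_succ_of_le (Finset.le_sup (f := id) hn), ?_⟩
  have h3 : Int.fract t - (n + 1 : ℕ) * α = (t - (n + 1 : ℕ) * α) - (⌊t⌋ : ℤ) * 1 := by
    rw [Int.fract]
    ring
  change ph (Int.fract t - (n + 1 : ℕ) * α) < l at h
  rwa [h3, ph_per.sub_int_mul_eq] at h

lemma small_rat {c : ℝ} (hc : 0 < c) : ∃ x : ℚ, 0 < ph x ∧ ph x < c := by
  have h : ∀ᶠ t in nhds (0 : ℝ), ph t < c :=
    ph_cont.continuousAt.eventually_lt continuousAt_const (by rwa [ph_zero])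
  obtain ⟨ε, hε, hb⟩ := Metric.eventually_nhds_iff.mp h
  obtain ⟨x, hx0, hx1⟩ := exists_rat_btwn (lt_min hε one_pos)
  refine ⟨x, ?_, hb ?_⟩
  · rcases (ph_nonneg x).eq_or_lt with h0 | h0
    · obtain ⟨k, hk⟩ := ph_eq_zero h0.symm
      have h1 : (0 : ℝ) < k := hk ▸ hx0
      have h2 : (k : ℝ) < 1 := hk ▸ (hx1.trans_le (min_le_right _ _))
      have h1' : 0 < k := by exact_mod_cast h1
      have h2' : k < 1 := by exact_mod_cast h2
      omega
    · exact h0
  · rw [Real.dist_eq, sub_zero, abs_of_pos hx0]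
    exact hx1.trans_le (min_le_left _ _)

/-- The levels of the arcs. -/
lemma exists_levels {α : ℝ} (hα : Irrational α) : ∃ l : ℕ → ℝ, (∀ g, 0 < l g) ∧
    (∀ g, g ≤ 3 → l g = 3) ∧ (∀ g, 3 ≤ g → 2 * l (g + 1) ≤ l g) ∧
    (∀ g, 4 ≤ g → ∃ x : ℚ, l g = ph x) ∧
    ∀ g, 4 ≤ g → ∀ (t : ℝ) (n : ℕ), 1 ≤ n → ph t < 2 * l g → ph (t - n * α) < 2 * l g →
      2 ^ g ≤ n := by
  have step : ∀ (j : ℕ) (y : {y : ℝ // 0 < y}), ∃ y' : {y : ℝ // 0 < y}, 2 * y'.1 ≤ y.1 ∧
      (∃ x : ℚ, y'.1 = ph x) ∧ ∀ (t : ℝ) (n : ℕ), 1 ≤ n → ph t < 2 * y'.1 →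
        ph (t - n * α) < 2 * y'.1 → 2 ^ (j + 4) ≤ n := by
    intro j y
    obtain ⟨c, hc0, hc⟩ := minret_ex hα (2 ^ (j + 4))
    obtain ⟨x, hx0, hx1⟩ := small_rat (c := min y.1 c / 2) (by have := y.2; positivity)
    have h1 := min_le_left y.1 c
    have h2 := min_le_right y.1 c
    refine ⟨⟨ph x, hx0⟩, by simp only; linarith, ⟨x, rfl⟩, fun t n hn h3 h4 => ?_⟩
    simp only at h3 h4
    exact hc t n hn (by linarith) (by linarith)
  choose st hst using step
  let u : ℕ → {y : ℝ // 0 < y} := fun j => Nat.rec ⟨3, by norm_num⟩ (fun j y => st j y) j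
  have hu : ∀ j, u (j + 1) = st j (u j) := fun j => rfl
  refine ⟨fun g => (u (g - 3)).1, fun g => (u _).2, fun g hg => ?_, fun g hg => ?_,
    fun g hg => ?_, fun g hg => ?_⟩
  · simp only [show g - 3 = 0 by omega]
    rfl
  · simp only [show g + 1 - 3 = (g - 3) + 1 by omega, hu]
    exact (hst _ _).1
  · simp only [show g - 3 = (g - 4) + 1 by omega, hu]
    exact (hst _ _).2.1
  · simp only [show g - 3 = (g - 4) + 1 by omega, hu]
    have := (hst (g - 4) (u (g - 4))).2.2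
    rwa [show g - 4 + 4 = g by omega] at this

lemma sep_pos {α : ℝ} (hα : Irrational α) {l l' : ℝ}
    (hl : l = 3 ∨ ((∃ x : ℚ, l = ph x) ∧ (∃ x : ℚ, l' = ph x) ∧ l ≠ l')) (n n' : ℕ) (t : ℝ) :
    0 < |ph (t - n * α) - l| + |ph (t - n' * α) - l'| := by
  rcases (add_nonneg (abs_nonneg (ph (t - n * α) - l))
    (abs_nonneg (ph (t - n' * α) - l'))).eq_or_lt with h | h
  · exfalso
    have a1 := abs_nonneg (ph (t - n * α) - l)
    have a2 := abs_nonneg (ph (t - n' * α) - l')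
    have h1 : ph (t - n * α) = l := sub_eq_zero.mp (abs_eq_zero.mp (by linarith))
    have h2 : ph (t - n' * α) = l' := sub_eq_zero.mp (abs_eq_zero.mp (by linarith))
    rcases hl with rfl | ⟨⟨x, rfl⟩, ⟨x', rfl⟩, hne⟩
    · linarith [ph_le_two (t - n * α)]
    · obtain ⟨k, hk⟩ := ph_eq_ph h1.symm
      obtain ⟨k', hk'⟩ := ph_eq_ph h2.symm
      have hex : ∃ y : ℚ, (((n' : ℤ) - (n : ℤ) : ℤ) : ℝ) * α = y := by
        rcases hk with hk | hk <;> rcases hk' with hk' | hk'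
        · exact ⟨k + x - (k' + x'), by push_cast; linarith⟩
        · exact ⟨k + x - (k' - x'), by push_cast; linarith⟩
        · exact ⟨k - x - (k' + x'), by push_cast; linarith⟩
        · exact ⟨k - x - (k' - x'), by push_cast; linarith⟩
      obtain ⟨y, hy⟩ := hex
      have h3 := int_mul_irr hα hy
      have h4 : n' = n := by omega
      subst h4
      exact hne (h1.symm.trans h2)
  · exact h

/-- Smooth indicator of purity of generation `g` with delay index `n`. -/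
def pw (α : ℝ) (l z : ℕ → ℝ) (g n : ℕ) (t : ℝ) : ℝ :=
  smoothTransition (l g - ph (t - (n + 1 : ℕ) * α)) *
    ∏ j ∈ range n, smoothTransition (ph (t - (j + 1 : ℕ) * α) - l g - z g)

lemma pw_nonneg (α : ℝ) (l z : ℕ → ℝ) (g n : ℕ) (t : ℝ) : 0 ≤ pw α l z g n t :=
  mul_nonneg (smoothTransition.nonneg _) (prod_nonneg fun _ _ => smoothTransition.nonneg _)

lemma pw_smooth (α : ℝ) (l z : ℕ → ℝ) (g n : ℕ) : ContDiff ℝ 1 (pw α l z g n) := by
  have h := ph_smooth
  have hs : ContDiff ℝ 1 smoothTransition := smoothTransition.contDiff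
  unfold pw
  refine ContDiff.mul (hs.comp (contDiff_const.sub (h.comp (by fun_prop)))) ?_
  exact contDiff_prod fun j _ =>
    hs.comp (((h.comp (by fun_prop)).sub contDiff_const).sub contDiff_const)

lemma pw_per (α : ℝ) (l z : ℕ → ℝ) (g n : ℕ) : Function.Periodic (pw α l z g n) 1 := fun t => by
  unfold pw
  have h : ∀ c, ph (t + 1 - c) = ph (t - c) := fun c => ph_sub_per c t
  simp only [h]

lemma pw_pos_iff (α : ℝ) (l z : ℕ → ℝ) (g n : ℕ) (t : ℝ) : 0 < pw α l z g n t ↔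
    ph (t - (n + 1 : ℕ) * α) < l g ∧ ∀ j < n, l g + z g < ph (t - (j + 1 : ℕ) * α) := by
  unfold pw
  constructor
  · intro h
    have h' := h.ne'
    rw [mul_ne_zero_iff, prod_ne_zero_iff] at h'
    refine ⟨?_, fun j hj => ?_⟩
    · have := mt smoothTransition.zero_iff_nonpos.mpr h'.1
      linarith [not_le.mp this]
    · have := mt smoothTransition.zero_iff_nonpos.mpr (h'.2 j (mem_range.mpr hj))
      linarith [not_le.mp this]
  · rintro ⟨h1, h2⟩
    refine mul_pos (smoothTransition.pos_of_pos (by linarith))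
      (prod_pos fun j hj => smoothTransition.pos_of_pos ?_)
    linarith [h2 j (mem_range.mp hj)]

lemma pw_pos_or (α : ℝ) (l z : ℕ → ℝ) (g R : ℕ) (t : ℝ) (hz : 0 ≤ z g)
    (hR : ∃ n : ℕ, n < R ∧ ph (t - (n + 1 : ℕ) * α) < l g) :
    ∃ n < R, 0 < pw α l z g n t ∨ |ph (t - (n + 1 : ℕ) * α) - l g| ≤ z g := by
  classical
  have hex : ∃ n : ℕ, ph (t - (n + 1 : ℕ) * α) ≤ l g + z g := by
    obtain ⟨n, _, h⟩ := hR
    exact ⟨n, by linarith⟩
  refine ⟨Nat.find hex, ?_, ?_⟩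
  · obtain ⟨n, hn, h⟩ := hR
    exact lt_of_le_of_lt (Nat.find_min' hex (by linarith)) hn
  · by_cases h : ph (t - (Nat.find hex + 1 : ℕ) * α) < l g
    · left
      exact (pw_pos_iff _ _ _ _ _ _).mpr ⟨h, fun j hj => not_le.mp (Nat.find_min hex hj)⟩
    · right
      have := Nat.find_spec hex
      rw [abs_le]
      constructor <;> linarith [not_lt.mp h]

theorem exists_data : Nonempty Data := by
  have hα : Irrational (√2) := irrational_sqrt_two
  set α := √2
  obtain ⟨l, hl0, hl3, hlh, hlr, hlm⟩ := exists_levels hα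
  choose Rr hRr using fun g => maxret_ex hα (hl0 g)
  have hsep : ∀ g, ∃ c, 0 < c ∧ ∀ p ∈ range (Rr g) ×ˢ range (Rr (g + 1)), ∀ t,
      c ≤ |ph (t - (p.1 + 1 : ℕ) * α) - l g| + |ph (t - (p.2 + 1 : ℕ) * α) - l (g + 1)| := by
    intro g
    refine posmin_finset _ (f := fun (p : ℕ × ℕ) t =>
      |ph (t - (p.1 + 1 : ℕ) * α) - l g| + |ph (t - (p.2 + 1 : ℕ) * α) - l (g + 1)|)
      (fun p _ => ?_) (fun p _ t => ?_) (fun p _ t => sep_pos hα ?_ _ _ t)
    · have := ph_cont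
      fun_prop
    · have h : ∀ c, ph (t + 1 - c) = ph (t - c) := fun c => ph_sub_per c t
      simp only [h]
    · rcases le_or_gt g 3 with h | h
      · exact Or.inl (hl3 g h)
      · refine Or.inr ⟨hlr g h, hlr (g + 1) (by omega), ?_⟩
        have := hlh g h.le
        have := hl0 (g + 1)
        linarith
  choose δ hδ0 hδ using hsep
  let z : ℕ → ℝ := fun g => min (l g) (min (δ g / 3) (δ (g - 1) / 3))
  have hz0 : ∀ g, 0 < z g := fun g =>
    lt_min (hl0 g) (lt_min (by have := hδ0 g; positivity) (by have := hδ0 (g - 1); positivity))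
  have hzl : ∀ g, z g ≤ l g := fun g => min_le_left _ _
  have hz1 : ∀ g, z g ≤ δ g / 3 := fun g => (min_le_right _ _).trans (min_le_left _ _)
  have hz2 : ∀ g, z (g + 1) ≤ δ g / 3 := fun g => (min_le_right _ _).trans (min_le_right _ _)
  have cover : ∀ g t, (∃ n < Rr g, 0 < pw α l z g n t) ∨
      ∃ n < Rr (g + 1), 0 < pw α l z (g + 1) n t := by
    intro g t
    obtain ⟨n, hn, h | h⟩ := pw_pos_or α l z g (Rr g) t (hz0 g).le (hRr g t)
    · exact Or.inl ⟨n, hn, h⟩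
    obtain ⟨n', hn', h' | h'⟩ := pw_pos_or α l z (g + 1) (Rr (g + 1)) t (hz0 _).le (hRr (g + 1) t)
    · exact Or.inr ⟨n', hn', h'⟩
    exfalso
    have := hδ g (n, n') (mem_product.mpr ⟨mem_range.mpr hn, mem_range.mpr hn'⟩) t
    simp only at this
    linarith [hz1 g, hz2 g, hδ0 g]
  let RR : ℕ → ℕ := fun k => Rr (k + 1) + Rr (k + 1 + 1)
  let wt : ℕ → Fin 2 → ℝ := fun k e => if e = 0 then 1 else k
  have hwt : ∀ k e, 0 ≤ wt k e := fun k e => by
    simp only [wt]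
    split_ifs <;> positivity
  let Z : ℕ → ℝ → ℝ := fun k t =>
    ∑ e : Fin 2, ∑ n ∈ range (RR k), wt k e * pw α l z (k + 1 + e) n t
  have hZ : ∀ k t, 0 < Z k t := by
    intro k t
    have hnn : ∀ e : Fin 2, ∀ n, 0 ≤ wt k e * pw α l z (k + 1 + e) n t := fun e n =>
      mul_nonneg (hwt k e) (pw_nonneg _ _ _ _ _ _)
    suffices h : ∃ e : Fin 2, ∃ n < RR k, 0 < wt k e * pw α l z (k + 1 + e) n t by
      obtain ⟨e, n, hn, h⟩ := h
      refine sum_pos' (fun e _ => sum_nonneg fun n _ => hnn e n) ⟨e, mem_univ _, ?_⟩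
      exact sum_pos' (fun n _ => hnn e n) ⟨n, mem_range.mpr hn, h⟩
    rcases Nat.eq_zero_or_pos k with rfl | hk
    · obtain ⟨n, hn, -⟩ := hRr (0 + 1) t
      refine ⟨0, 0, by simp only [RR]; omega, ?_⟩
      simp only [wt, if_true, one_mul]
      refine (pw_pos_iff _ _ _ _ _ _).mpr ⟨?_, fun j hj => absurd hj (by omega)⟩
      rw [hl3 _ (by simp)]
      linarith [ph_le_two (t - (0 + 1 : ℕ) * α)]
    · rcases cover (k + 1) t with ⟨n, hn, h⟩ | ⟨n, hn, h⟩
      · exact ⟨0, n, by simp only [RR]; omega, by simpa [wt] using h⟩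
      · refine ⟨1, n, by simp only [RR]; omega, ?_⟩
        have : (0 : ℝ) < k := by exact_mod_cast hk
        simp only [wt, one_ne_zero, if_false]
        exact mul_pos this h
  have hZs : ∀ k, ContDiff ℝ 1 (Z k) := fun k =>
    ContDiff.sum fun e _ => ContDiff.sum fun n _ => contDiff_const.mul (pw_smooth _ _ _ _ _)
  have hZp : ∀ k, Function.Periodic (Z k) 1 := fun k t => by
    simp only [Z, pw_per α l z _ _ t]
  have hs : ContDiff ℝ 1 smoothTransition := smoothTransition.contDiff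
  refine ⟨{
    α := α
    J := fun g t => ph t ≤ l g
    Jp := fun g t => ph t < l g + z g
    b := fun g t => smoothTransition ((ph t - l g) / z g)
    R := RR
    q := fun k e n t => wt k e * pw α l z (k + 1 + e) n t / Z k t
    b_smooth := fun g => hs.comp ((ph_smooth.sub contDiff_const).div_const _)
    b_per := fun g t => by simp only [ph_per t]
    b_nonneg := fun g t => smoothTransition.nonneg _
    b_le_one := fun g t => smoothTransition.le_one _
    b_J := fun g t h => smoothTransition.zero_of_nonpos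
      (div_nonpos_of_nonpos_of_nonneg (by linarith) (hz0 g).le)
    b_Jp := fun g t h => smoothTransition.one_of_one_le
      ((one_le_div (hz0 g)).mpr (by linarith [not_lt.mp h]))
    J_sub := fun g t h => by linarith [hz0 g]
    nest := fun g t h => ?_
    triv := fun g t h => by rw [hl3 g h]; linarith [ph_le_two t]
    minret := fun g t n h1 h2 hn => ?_
    maxret := fun g => ⟨Rr g, fun t => ?_⟩
    q_smooth := fun k e n =>
      (contDiff_const.mul (pw_smooth _ _ _ _ _)).div (hZs k) fun t => (hZ k t).ne'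
    q_per := fun k e n t => by simp only [pw_per α l z _ _ t, hZp k t]
    q_nonneg := fun k e n t => div_nonneg (mul_nonneg (hwt k e) (pw_nonneg _ _ _ _ _ _)) (hZ k t).le
    q_sum := fun k t => ?_
    q_pure := fun k e n t h => ?_
    q_zero := fun n t => by simp [wt] }⟩
  · rcases le_or_gt 3 g with hg | hg
    · linarith [hlh g hg, hzl (g + 1)]
    · rw [hl3 g hg.le]
      linarith [ph_le_two t]
  · rcases le_or_gt 4 g with hg | hg
    · refine le_trans (Nat.pow_le_pow_right two_pos (Nat.sub_le g 4)) ?_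
      exact hlm g hg t n hn (by linarith [hzl g]) (by linarith [hzl g])
    · rw [show g - 4 = 0 by omega]
      simpa using hn
  · obtain ⟨n, hn, h⟩ := hRr g t
    exact ⟨n + 1, by omega, hn, h.le⟩
  · simp only [← sum_div]
    exact div_self (hZ k t).ne'
  · have h1 : 0 < pw α l z (k + 1 + e) n t := by
      rcases (pw_nonneg α l z (k + 1 + e) n t).eq_or_lt with h0 | h0
      · rw [← h0] at h
        simp at h
      · exact h0
    obtain ⟨h2, h3⟩ := (pw_pos_iff _ _ _ _ _ _).mp h1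
    refine ⟨h2.le, fun j hj1 hjn => ?_⟩
    have := h3 (j - 1) (by omega)
    rw [show j - 1 + 1 = j by omega] at this
    exact not_lt.mpr this.le

end Crest.Agent.R123
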