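import Crest.Agent.R123.Defs

/-!
# Row 123: gluing homogeneous systems scale by scale into one `C¹` map
-/

set_option autoImplicit false

noncomputable section

namespace Crest.Agent.R123

open Real Set Filter Topology

/-- A sequence of fibre maps with the estimates needed for the gluing. -/
structure Sys (E : Type) [NormedAddCommGroup E] [InnerProductSpace ℝ E] where
  α : ℝ
  G : ℕ → ℝ → ℝ → E → E
  a : ℝ → ℝ
  ε : ℕ → ℝ
  C : ℝ
  one_le_C : 1 ≤ C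
  a_cont : Continuous a
  a_bd : ∀ t k, |a t| + ε k ≤ C
  ε_nonneg : ∀ k, 0 ≤ ε k
  ε_tendsto : Tendsto ε atTop (𝓝 0)
  smooth : ∀ k η, 0 < η → ∀ p : ℝ × E, p.2 ≠ 0 →
    ContDiffAt ℝ 1 (fun p : ℝ × E => G k η p.1 p.2) p
  per : ∀ k η t z, G k η (t + 1) z = G k η t z
  zero : ∀ k η t, G k η t 0 = 0
  lip : ∀ k η, 0 ≤ η → η ≤ 1 → ∀ t z z',
    ‖G k η t z - G k η t z' - a t • (z - z')‖ ≤ ε k * ‖z - z'‖
  tlip : ∀ k, ∃ M, 0 ≤ M ∧ ∀ η t t' z, ‖G k η t z - G k η t' z‖ ≤ M * |t - t'| * ‖z‖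
  eta : ∀ k η, 0 ≤ η → ∀ t z, ‖G k η t z - G k 0 t z‖ ≤ C * η * ‖z‖
  grow : ∀ k, ∃ R T : ℕ, R ≤ T ∧ ∀ (t₀ : ℝ) (σ : ℕ → ℝ) (z : ℕ → E), (∀ j, 0 ≤ σ j ∧ σ j ≤ 1) →
    (∀ j : ℕ, z (j + 1) = (1 - σ j) • G k 0 (t₀ + j * α) (z j) +
      σ j • G (k + 1) 0 (t₀ + j * α) (z j)) → ∃ j ≤ T, 4 * ‖z R‖ ≤ ‖z j‖

/-- The cut-off: `1` below `1`, `0` above `2`. -/
def cut (x : ℝ) : ℝ := smoothTransition (2 - x)

lemma cut_nonneg (x : ℝ) : 0 ≤ cut x := smoothTransition.nonneg _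

lemma cut_le_one (x : ℝ) : cut x ≤ 1 := smoothTransition.le_one _

lemma cut_one {x : ℝ} (h : x ≤ 1) : cut x = 1 := smoothTransition.one_of_one_le (by linarith)

lemma cut_zero {x : ℝ} (h : 2 ≤ x) : cut x = 0 := smoothTransition.zero_of_nonpos (by linarith)

lemma cut_smooth : ContDiff ℝ 1 cut :=
  (smoothTransition.contDiff (n := 1)).comp (contDiff_const.sub contDiff_id)

lemma cut_lip : ∃ K : ℝ, 0 ≤ K ∧ ∀ x y, |cut x - cut y| ≤ K * |x - y| := by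
  obtain ⟨K, hK⟩ := ((smoothTransition.contDiff (n := 1)).contDiffOn
    (s := Icc (0 : ℝ) 1)).exists_lipschitzOnWith one_ne_zero (convex_Icc _ _) isCompact_Icc
  refine ⟨K, K.2, fun x y => ?_⟩
  unfold cut
  rw [← smoothTransition.projIcc (x := 2 - x), ← smoothTransition.projIcc (x := 2 - y)]
  have h := hK.dist_le_mul _ (projIcc (0 : ℝ) 1 zero_le_one (2 - x)).2 _
    (projIcc (0 : ℝ) 1 zero_le_one (2 - y)).2
  rw [Real.dist_eq, Real.dist_eq] at h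
  refine h.trans (mul_le_mul_of_nonneg_left ((abs_projIcc_sub_projIcc _).trans ?_) K.2)
  rw [show 2 - x - (2 - y) = -(x - y) by ring, abs_neg]

/-- A Lipschitz constant of the cut-off. -/
def cutK : ℝ := cut_lip.choose

lemma cutK_nonneg : 0 ≤ cutK := cut_lip.choose_spec.1

lemma cut_sub_le (x y : ℝ) : |cut x - cut y| ≤ cutK * |x - y| := cut_lip.choose_spec.2 x y

variable {E : Type} [NormedAddCommGroup E] [InnerProductSpace ℝ E]

lemma cut_smul_lip_aux {H : E → E} {e ρ : ℝ} (he : 0 ≤ e) (hρ : 0 < ρ) (h0 : H 0 = 0)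
    (hH : ∀ z z', ‖H z - H z'‖ ≤ e * ‖z - z'‖) (z z' : E) (hz' : ‖z'‖ ≤ 2 * ρ) :
    ‖cut (‖z‖ / ρ) • H z - cut (‖z'‖ / ρ) • H z'‖ ≤ (1 + 2 * cutK) * e * ‖z - z'‖ := by
  have e1 : cut (‖z‖ / ρ) • H z - cut (‖z'‖ / ρ) • H z' =
      cut (‖z‖ / ρ) • (H z - H z') + (cut (‖z‖ / ρ) - cut (‖z'‖ / ρ)) • H z' := by
    rw [smul_sub, sub_smul]
    abel
  have h1 : ‖H z'‖ ≤ e * (2 * ρ) := by
    have := hH z' 0
    rw [h0, sub_zero, sub_zero] at this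
    exact this.trans (mul_le_mul_of_nonneg_left hz' he)
  have h2 : |cut (‖z‖ / ρ) - cut (‖z'‖ / ρ)| ≤ cutK * (‖z - z'‖ / ρ) := by
    refine (cut_sub_le _ _).trans (mul_le_mul_of_nonneg_left ?_ cutK_nonneg)
    rw [← sub_div, abs_div, abs_of_pos hρ]
    exact div_le_div_of_nonneg_right (abs_norm_sub_norm_le _ _) hρ.le
  have hK := cutK_nonneg
  rw [e1]
  calc _ ≤ ‖cut (‖z‖ / ρ) • (H z - H z')‖ + ‖(cut (‖z‖ / ρ) - cut (‖z'‖ / ρ)) • H z'‖ :=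
        norm_add_le _ _
    _ ≤ 1 * (e * ‖z - z'‖) + cutK * (‖z - z'‖ / ρ) * (e * (2 * ρ)) := by
        rw [norm_smul, norm_smul, Real.norm_eq_abs, Real.norm_eq_abs,
          abs_of_nonneg (cut_nonneg _)]
        gcongr
        · exact cut_le_one _
        · exact hH z z'
    _ = _ := by field_simp

lemma cut_smul_lip {H : E → E} {e ρ : ℝ} (he : 0 ≤ e) (hρ : 0 < ρ) (h0 : H 0 = 0)
    (hH : ∀ z z', ‖H z - H z'‖ ≤ e * ‖z - z'‖) (z z' : E) :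
    ‖cut (‖z‖ / ρ) • H z - cut (‖z'‖ / ρ) • H z'‖ ≤ (1 + 2 * cutK) * e * ‖z - z'‖ := by
  rcases le_or_gt ‖z'‖ (2 * ρ) with h | h
  · exact cut_smul_lip_aux he hρ h0 hH z z' h
  rcases le_or_gt ‖z‖ (2 * ρ) with h' | h'
  · rw [norm_sub_rev, norm_sub_rev z z']
    exact cut_smul_lip_aux he hρ h0 hH z' z h'
  rw [cut_zero ((le_div_iff₀ hρ).mpr h.le), cut_zero ((le_div_iff₀ hρ).mpr h'.le)]
  have hK := cutK_nonneg
  simp only [zero_smul, sub_zero, norm_zero]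
  positivity

lemma convex_norm_le {σ B : ℝ} (h0 : 0 ≤ σ) (h1 : σ ≤ 1) {x y : E} (hx : ‖x‖ ≤ B) (hy : ‖y‖ ≤ B) :
    ‖(1 - σ) • x + σ • y‖ ≤ B := by
  calc _ ≤ ‖(1 - σ) • x‖ + ‖σ • y‖ := norm_add_le _ _
    _ = (1 - σ) * ‖x‖ + σ * ‖y‖ := by
      rw [norm_smul, norm_smul, Real.norm_of_nonneg h0, Real.norm_of_nonneg (by linarith)]
    _ ≤ (1 - σ) * B + σ * B := by gcongr
    _ = B := by ring

namespace Sys

variable (S : Sys E)

lemma lipC (k : ℕ) {η : ℝ} (h0 : 0 ≤ η) (h1 : η ≤ 1) (t : ℝ) (z z' : E) :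
    ‖S.G k η t z - S.G k η t z'‖ ≤ S.C * ‖z - z'‖ := by
  have h := S.lip k η h0 h1 t z z'
  have h2 : ‖S.a t • (z - z')‖ = |S.a t| * ‖z - z'‖ := by rw [norm_smul, Real.norm_eq_abs]
  have h3 := norm_add_le (S.G k η t z - S.G k η t z' - S.a t • (z - z')) (S.a t • (z - z'))
  rw [sub_add_cancel] at h3
  have h4 := mul_le_mul_of_nonneg_right (S.a_bd t k) (norm_nonneg (z - z'))
  linarith

lemma normC (k : ℕ) {η : ℝ} (h0 : 0 ≤ η) (h1 : η ≤ 1) (t : ℝ) (z : E) :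
    ‖S.G k η t z‖ ≤ S.C * ‖z‖ := by
  simpa [S.zero] using S.lipC k h0 h1 t z 0

/-- The interpolation between levels `k` and `k + 1`. -/
def mix (η ρ : ℕ → ℝ) (k : ℕ) (p : ℝ × E) : E :=
  (1 - cut (‖p.2‖ / ρ k)) • S.G k (η k) p.1 p.2 +
    cut (‖p.2‖ / ρ k) • S.G (k + 1) (η (k + 1)) p.1 p.2

end Sys

/-- The level used at norm `x`. -/
def lev (ρ : ℕ → ℝ) (x : ℝ) : ℕ := sInf {k | 2 * ρ (k + 1) < x}

/-- The glued map. -/
def Sys.Phi (S : Sys E) (η ρ : ℕ → ℝ) (p : ℝ × E) : E := S.mix η ρ (lev ρ ‖p.2‖) p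

/-- The range of norms where level `k` may be used. -/
def InLev (ρ : ℕ → ℝ) (k : ℕ) (x : ℝ) : Prop := 2 * ρ (k + 1) < x ∧ ∀ j, j + 1 = k → x < ρ j

section Scales

variable {ρ : ℕ → ℝ} (hρ : ∀ k, 0 < ρ k) (hρd : ∀ k, ρ (k + 1) ≤ ρ k / 4)

include hρ hρd

lemma rho_anti : Antitone ρ :=
  antitone_nat_of_succ_le fun k => by linarith [hρd k, hρ k]

lemma rho_tendsto : Tendsto ρ atTop (𝓝 0) := by
  have h : ∀ k, ρ k ≤ ρ 0 * (1 / 4) ^ k := by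
    intro k
    induction k with
    | zero => simp
    | succ k ih => rw [pow_succ]; linarith [hρd k]
  refine squeeze_zero (fun k => (hρ k).le) h ?_
  simpa using (tendsto_pow_atTop_nhds_zero_of_lt_one (r := (1 / 4 : ℝ)) (by norm_num)
    (by norm_num)).const_mul (ρ 0)

lemma rho_ex {x : ℝ} (hx : 0 < x) : ∃ k, ρ k < x :=
  ((rho_tendsto hρ hρd).eventually (gt_mem_nhds hx)).exists

lemma lev_spec {x : ℝ} (hx : 0 < x) : 2 * ρ (lev ρ x + 1) < x := by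
  obtain ⟨k, hk⟩ := rho_ex hρ hρd hx
  exact Nat.sInf_mem (s := {k | 2 * ρ (k + 1) < x}) ⟨k, by
    change 2 * ρ (k + 1) < x
    linarith [hρd k, hρ k]⟩

omit hρ hρd in
lemma lev_min {x : ℝ} {k : ℕ} (h : k < lev ρ x) : x ≤ 2 * ρ (k + 1) :=
  not_lt.mp (Nat.notMem_of_lt_sInf h)

omit hρ hρd in
lemma lev_le {x : ℝ} {k : ℕ} (h : 2 * ρ (k + 1) < x) : lev ρ x ≤ k := Nat.sInf_le h

lemma inLev_lev {x : ℝ} (hx : 0 < x) : InLev ρ (lev ρ x) x := by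
  refine ⟨lev_spec hρ hρd hx, fun j hj => ?_⟩
  have := lev_min (ρ := ρ) (x := x) (k := j) (by omega)
  linarith [hρd j, hρ j]

lemma le_lev {x : ℝ} (hx : 0 < x) {K : ℕ} (h : x ≤ 2 * ρ K) : K ≤ lev ρ x := by
  by_contra hlt
  have h1 := lev_spec hρ hρd hx
  have h2 := rho_anti hρ hρd (show lev ρ x + 1 ≤ K by omega)
  linarith

lemma Sys.Phi_eq (S : Sys E) (η : ℕ → ℝ) {k : ℕ} {p : ℝ × E} (h : InLev ρ k ‖p.2‖) :
    S.Phi η ρ p = S.mix η ρ k p := by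
  have hx : 0 < ‖p.2‖ := lt_trans (by linarith [hρ (k + 1)]) h.1
  have h1 := lev_le h.1
  have h2 := lev_spec hρ hρd hx
  unfold Sys.Phi
  rcases h1.eq_or_lt with h1 | h1
  · rw [h1]
  · obtain ⟨j, rfl⟩ : ∃ j, k = j + 1 := ⟨k - 1, by omega⟩
    have h3 := h.2 j rfl
    have h4 : lev ρ ‖p.2‖ = j := by
      by_contra hne
      have := rho_anti hρ hρd (show lev ρ ‖p.2‖ + 1 ≤ j by omega)
      linarith [hρ j]
    rw [h4] at h2 ⊢
    unfold Sys.mix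
    rw [cut_one ((div_le_one (hρ j)).mpr h3.le), cut_zero ((le_div_iff₀ (hρ _)).mpr h2.le)]
    simp

omit hρ hρd [InnerProductSpace ℝ E] in
lemma inLev_eventually {k : ℕ} {p : ℝ × E} (h : InLev ρ k ‖p.2‖) :
    ∀ᶠ p' in 𝓝 p, InLev ρ k ‖p'.2‖ := by
  have hc : ContinuousAt (fun p : ℝ × E => ‖p.2‖) p := by fun_prop
  have h1 := continuousAt_const.eventually_lt hc h.1
  rcases k with _ | j
  · filter_upwards [h1] with p' hp' using ⟨hp', fun j hj => absurd hj (by omega)⟩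
  · have h2 := hc.eventually_lt continuousAt_const (h.2 j rfl)
    filter_upwards [h1, h2] with p' hp' hp''
    refine ⟨hp', fun i hi => ?_⟩
    obtain rfl : i = j := by omega
    exact hp''

end Scales

namespace Sys

variable (S : Sys E) {η ρ : ℕ → ℝ}

lemma mix_zero (k : ℕ) (t : ℝ) : S.mix η ρ k (t, 0) = 0 := by simp [mix, S.zero]

lemma Phi_zero (t : ℝ) : S.Phi η ρ (t, 0) = 0 := S.mix_zero _ t

lemma Phi_per (t : ℝ) (z : E) : S.Phi η ρ (t + 1, z) = S.Phi η ρ (t, z) := by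
  simp [Phi, mix, S.per]

lemma Phi_norm (hη : ∀ k, 0 < η k ∧ η k ≤ 1) (t : ℝ) (z : E) :
    ‖S.Phi η ρ (t, z)‖ ≤ S.C * ‖z‖ :=
  convex_norm_le (cut_nonneg _) (cut_le_one _) (S.normC _ (hη _).1.le (hη _).2 _ _)
    (S.normC _ (hη _).1.le (hη _).2 _ _)

lemma mix_smooth (hη : ∀ k, 0 < η k ∧ η k ≤ 1) (k : ℕ) (p : ℝ × E) (hp : p.2 ≠ 0) :
    ContDiffAt ℝ 1 (S.mix η ρ k) p := by
  have h1 : ContDiffAt ℝ 1 (fun p : ℝ × E => cut (‖p.2‖ / ρ k)) p :=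
    cut_smooth.contDiffAt.comp p ((contDiffAt_snd.norm ℝ hp).div_const _)
  exact ((contDiffAt_const.sub h1).smul (S.smooth k _ (hη k).1 p hp)).add
    (h1.smul (S.smooth (k + 1) _ (hη (k + 1)).1 p hp))

lemma mix_lip (hη : ∀ k, 0 < η k ∧ η k ≤ 1) (hρ : ∀ k, 0 < ρ k) (k : ℕ) (t : ℝ) (z z' : E) :
    ‖S.mix η ρ k (t, z) - S.mix η ρ k (t, z') - S.a t • (z - z')‖ ≤
      (2 + 2 * cutK) * (S.ε k + S.ε (k + 1)) * ‖z - z'‖ := by
  have h1 := S.lip k _ (hη k).1.le (hη k).2 t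
  have h2 := S.lip (k + 1) _ (hη (k + 1)).1.le (hη (k + 1)).2 t
  have e0 := S.ε_nonneg k
  have e1 := S.ε_nonneg (k + 1)
  have h3 := cut_smul_lip (H := fun z => S.G (k + 1) (η (k + 1)) t z - S.G k (η k) t z)
    (e := S.ε k + S.ε (k + 1)) (by positivity) (hρ k) (by simp [S.zero]) (fun z z' => by
      have := norm_sub_le (S.G (k + 1) (η (k + 1)) t z - S.G (k + 1) (η (k + 1)) t z' -
        S.a t • (z - z')) (S.G k (η k) t z - S.G k (η k) t z' - S.a t • (z - z'))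
      have e : S.G (k + 1) (η (k + 1)) t z - S.G (k + 1) (η (k + 1)) t z' - S.a t • (z - z') -
          (S.G k (η k) t z - S.G k (η k) t z' - S.a t • (z - z')) =
          S.G (k + 1) (η (k + 1)) t z - S.G k (η k) t z -
            (S.G (k + 1) (η (k + 1)) t z' - S.G k (η k) t z') := by abel
      rw [e] at this
      linarith [h1 z z', h2 z z']) z z'
  have e : S.mix η ρ k (t, z) - S.mix η ρ k (t, z') - S.a t • (z - z') =
      (S.G k (η k) t z - S.G k (η k) t z' - S.a t • (z - z')) +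
      (cut (‖z‖ / ρ k) • (S.G (k + 1) (η (k + 1)) t z - S.G k (η k) t z) -
        cut (‖z'‖ / ρ k) • (S.G (k + 1) (η (k + 1)) t z' - S.G k (η k) t z')) := by
    simp only [mix, sub_smul, one_smul, smul_sub]
    abel
  rw [e]
  refine (norm_add_le _ _).trans ?_
  have := h1 z z'
  have hn := norm_nonneg (z - z')
  nlinarith [mul_nonneg e1 hn]

lemma mix_tlip {M : ℕ → ℝ}
    (hM : ∀ k, 0 ≤ M k ∧ ∀ η t t' z, ‖S.G k η t z - S.G k η t' z‖ ≤ M k * |t - t'| * ‖z‖)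
    (k : ℕ) (t t' : ℝ) (z : E) :
    ‖S.mix η ρ k (t, z) - S.mix η ρ k (t', z)‖ ≤ (M k + M (k + 1)) * |t - t'| * ‖z‖ := by
  have e : S.mix η ρ k (t, z) - S.mix η ρ k (t', z) =
      (1 - cut (‖z‖ / ρ k)) • (S.G k (η k) t z - S.G k (η k) t' z) +
      cut (‖z‖ / ρ k) • (S.G (k + 1) (η (k + 1)) t z - S.G (k + 1) (η (k + 1)) t' z) := by
    simp only [mix, smul_sub]
    abel
  rw [e]
  have h0 := (hM k).1
  have h1 := (hM (k + 1)).1
  refine convex_norm_le (cut_nonneg _) (cut_le_one _) (((hM k).2 _ _ _ _).trans ?_)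
    (((hM (k + 1)).2 _ _ _ _).trans ?_)
  · gcongr
    linarith
  · gcongr
    linarith

end Sys

end Crest.Agent.R123
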