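import Crest.Agent.R123.CoreSys

/-!
# Row 123: growth along orbits of the mixed systems
-/

set_option autoImplicit false

noncomputable section

namespace Crest.Agent.R123

open Real Finset Filter Topology

lemma card_gap_le {m μ : ℕ} (hμ : 0 < μ) (s : Finset ℕ) (hs : ∀ i ∈ s, i < m)
    (hgap : ∀ i ∈ s, ∀ j ∈ s, i < j → μ ≤ j - i) : s.card ≤ m / μ + 1 := by
  have h : s.card ≤ (range (m / μ + 1)).card := by
    refine card_le_card_of_injOn (fun i => i / μ) (fun i hi => ?_) (fun i hi j hj hij => ?_)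
    · have := Nat.div_le_div_right (c := μ) (hs i hi).le
      simp only [coe_range, Set.mem_Iio]
      omega
    · have key : ∀ i ∈ s, ∀ j ∈ s, i < j → i / μ < j / μ := fun i hi j hj hlt => by
        have h1 := hgap i hi j hj hlt
        have h2 : (i + μ) / μ ≤ j / μ := Nat.div_le_div_right (by omega)
        rw [Nat.add_div_right _ hμ] at h2
        omega
      simp only at hij
      rcases lt_trichotomy i j with h | h | h
      · have := key i hi j hj h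
        omega
      · exact h
      · have := key j hj i hi h
        omega
  simpa using h

lemma sum_div_pow_le (m g : ℕ) : ∑ i ∈ range g, (m / 2 ^ (i - 4) + 1) ≤ 32 * m + g := by
  have h1 : ∀ i, ((m / 2 ^ (i - 4) : ℕ) : ℝ) ≤ 16 * m * (1 / 2) ^ i := fun i => by
    refine Nat.cast_div_le.trans ?_
    have h2 : (2 : ℝ) ^ i ≤ 16 * 2 ^ (i - 4) := by
      rw [show (16 : ℝ) = 2 ^ 4 by norm_num, ← pow_add]
      exact pow_le_pow_right₀ one_le_two (by omega)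
    push_cast
    rw [one_div_pow, mul_one_div, div_le_div_iff₀ (by positivity) (by positivity)]
    have : (0 : ℝ) ≤ m := by positivity
    nlinarith
  have h3 : ((∑ i ∈ range g, (m / 2 ^ (i - 4) + 1) : ℕ) : ℝ) ≤ 32 * m + g := by
    rw [Nat.cast_sum]
    simp only [Nat.cast_add, Nat.cast_one, sum_add_distrib, sum_const, card_range, nsmul_eq_mul,
      mul_one]
    have h4 : ∑ i ∈ range g, ((m / 2 ^ (i - 4) : ℕ) : ℝ) ≤
        ∑ i ∈ range g, 16 * (m : ℝ) * (1 / 2) ^ i :=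
      sum_le_sum fun i _ => h1 i
    rw [← mul_sum] at h4
    have h5 := sum_geometric_two_le g
    have : (0 : ℝ) ≤ m := by positivity
    nlinarith
  exact_mod_cast h3

lemma key_ineq {k' g n : ℕ} (hk : k' ≤ 16 * (n + 1)) (hg : g ≤ 16 * (n + 1)) :
    (2 : ℝ) ^ (n + 1) ≤ LL * (1 / 2) ^ k' * (1 / 3) ^ (n + 1) * (LL ^ n * (1 / 2) ^ (32 * n + g)) := by
  have e : LL * (1 / 2) ^ k' * (1 / 3) ^ (n + 1) * (LL ^ n * (1 / 2) ^ (32 * n + g)) =
      LL ^ (n + 1) / (2 ^ k' * 3 ^ (n + 1) * 2 ^ (32 * n + g)) := by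
    simp only [one_div_pow]
    field_simp
    ring
  rw [e, le_div_iff₀ (by positivity), LL_eq, ← pow_mul]
  have h3 : (3 : ℝ) ^ (n + 1) ≤ 2 ^ (2 * (n + 1)) := by
    rw [pow_mul]
    gcongr
    norm_num
  calc (2 : ℝ) ^ (n + 1) * (2 ^ k' * 3 ^ (n + 1) * 2 ^ (32 * n + g))
      ≤ 2 ^ (n + 1) * (2 ^ k' * 2 ^ (2 * (n + 1)) * 2 ^ (32 * n + g)) := by gcongr
    _ = 2 ^ (n + 1 + (k' + 2 * (n + 1) + (32 * n + g))) := by simp only [pow_add]
    _ ≤ _ := pow_le_pow_right₀ one_le_two (by omega)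

lemma small_level_le {k n : ℕ} (h : 2 ^ (k + 1 - 4) ≤ n + 1) : k + 3 ≤ 16 * (n + 1) := by
  have h1 : k + 3 ≤ 16 * 2 ^ (k + 1 - 4) := by
    have := Nat.lt_two_pow_self (n := k + 1 - 4)
    omega
  omega

namespace Data

variable (D : Data)

open Classical in
lemma a_lower {g : ℕ} {x : ℝ} (h : ¬ D.Jp g x) :
    LL * (1 / 2) ^ ((range g).filter fun i => D.Jp i x).card ≤ D.a g x := by
  have hex : ∃ i, ¬ D.Jp i x := ⟨g, h⟩
  have h1 : Nat.find hex ≤ g := Nat.find_min' hex h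
  have h2 : Nat.find hex ≤ ((range g).filter fun i => D.Jp i x).card := by
    rw [← card_range (Nat.find hex)]
    refine card_le_card fun i hi => ?_
    have hi' := mem_range.mp hi
    exact mem_filter.mpr ⟨mem_range.mpr (by omega), not_not.mp (Nat.find_min hex hi')⟩
  have hL := LL_pos
  calc _ ≤ LL * (1 / 2) ^ Nat.find hex := by
        gcongr ?_ * ?_
        exact pow_le_pow_of_le_one (by norm_num) (by norm_num) h2
    _ = LL * (1 / 2) ^ Nat.find hex * D.b (Nat.find hex) x := by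
        rw [D.b_Jp _ _ (Nat.find_spec hex), mul_one]
    _ ≤ _ := single_le_sum (f := fun i => LL * (1 / 2) ^ i * D.b i x)
        (fun i _ => D.term_nonneg i x) (mem_range.mpr (by omega))

lemma prod_a_lower {g m : ℕ} {u : ℝ} (h : ∀ i < m, ¬ D.Jp g (u + i * D.α)) :
    LL ^ m * (1 / 2) ^ (32 * m + g) ≤ ∏ i ∈ range m, D.a g (u + i * D.α) := by
  classical
  have hL := LL_pos
  let v : ℕ → ℕ := fun i => ((range g).filter fun i' => D.Jp i' (u + i * D.α)).card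
  have h1 : ∑ i ∈ range m, v i ≤ 32 * m + g := by
    simp only [v, card_filter]
    rw [sum_comm]
    refine le_trans (sum_le_sum fun i' _ => ?_) (sum_div_pow_le m g)
    rw [← card_filter]
    refine card_gap_le (by positivity) _ (fun i hi => mem_range.mp (mem_filter.mp hi).1)
      fun i hi j hj hij => D.minret i' (u + j * D.α) (j - i) (mem_filter.mp hj).2 ?_ (by omega)
    have : u + j * D.α - (j - i : ℕ) * D.α = u + i * D.α := by
      rw [Nat.cast_sub hij.le]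
      ring
    rw [this]
    exact (mem_filter.mp hi).2
  calc _ ≤ LL ^ m * (1 / 2) ^ (∑ i ∈ range m, v i) := by
        gcongr ?_ * ?_
        exact pow_le_pow_of_le_one (by norm_num) (by norm_num) h1
    _ = ∏ i ∈ range m, LL * (1 / 2) ^ v i := by
        rw [prod_mul_distrib, prod_const, card_range, prod_pow_eq_pow_sum]
    _ ≤ _ := prod_le_prod (fun i _ => by positivity)
        fun i hi => D.a_lower (h i (mem_range.mp hi))

/-- The content written by the mixed system at time `j`. -/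
def Ym (k : ℕ) (t₀ : ℝ) (σ : ℕ → ℝ) (z : ℕ → E4) (j : ℕ) : ℂ :=
  (1 - σ j) • D.Y 0 k (t₀ + j * D.α) (z j) + σ j • D.Y 0 (k + 1) (t₀ + j * D.α) (z j)

section Orbit

variable {D} {k : ℕ} {t₀ : ℝ} {σ : ℕ → ℝ} {z : ℕ → E4}
  (hz : ∀ j : ℕ, z (j + 1) = (1 - σ j) • D.F k 0 (t₀ + j * D.α) (z j) +
    σ j • D.F (k + 1) 0 (t₀ + j * D.α) (z j))

include hz

lemma orb_common {g : ℕ} (h1 : k + 1 ≤ g) (h2 : g ≤ k + 3) (j : ℕ) :
    z (j + 1) (reg g) = D.a g (t₀ + j * D.α) • z j (reg g) +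
      (1 - D.b g (t₀ + j * D.α)) • D.Ym k t₀ σ z j := by
  rw [hz, PiLp.add_apply, PiLp.smul_apply, PiLp.smul_apply, F_apply, F_apply,
    gen_reg (by omega) h2, gen_reg h1 (by omega), Ym]
  module

lemma orb_reset {j : ℕ} (hJ : D.J (k + 4) (t₀ + j * D.α)) (i : Fin 4) :
    z (j + 1) i = D.Ym k t₀ σ z j := by
  have h1 := D.J_mono (show gen k i ≤ k + 4 by have := gen_le k i; omega) hJ
  have h2 := D.J_mono (show gen (k + 1) i ≤ k + 4 from gen_le (k + 1) i) hJ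
  rw [hz, PiLp.add_apply, PiLp.smul_apply, PiLp.smul_apply, F_apply, F_apply, D.a_J h1, D.a_J h2,
    D.b_J _ _ h1, D.b_J _ _ h2, Ym]
  simp

lemma orb_pure {g : ℕ} (h1 : k + 1 ≤ g) (h2 : g ≤ k + 3) {s : ℕ} (hJ : D.J g (t₀ + s * D.α))
    (m : ℕ) (hm : ∀ i < m, ¬ D.Jp g (t₀ + (s + 1 : ℕ) * D.α + i * D.α)) :
    z (s + m + 1) (reg g) =
      (∏ i ∈ range m, D.a g (t₀ + (s + 1 : ℕ) * D.α + i * D.α)) • D.Ym k t₀ σ z s := by
  induction m with
  | zero =>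
    rw [add_zero, orb_common hz h1 h2, D.a_J hJ, D.b_J _ _ hJ]
    simp
  | succ m ih =>
    have e : t₀ + (s + m + 1 : ℕ) * D.α = t₀ + (s + 1 : ℕ) * D.α + m * D.α := by
      push_cast
      ring
    rw [← add_assoc, orb_common hz h1 h2, ih fun i hi => hm i (by omega), e,
      D.b_Jp _ _ (hm m (by omega)), prod_range_succ, smul_smul, mul_comm]
    simp

lemma Y_form {s₀ d : ℕ} (hs₀ : D.J (k + 4) (t₀ + s₀ * D.α)) (hd : 0 < d)
    (hJ : D.Jp (k + 1) (t₀ + (s₀ + d : ℕ) * D.α))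
    (ih : ∀ d' < d, D.Jp (k + 1) (t₀ + (s₀ + d' : ℕ) * D.α) →
      ∃ c : ℝ, 2 ^ d' ≤ c ∧ D.Ym k t₀ σ z (s₀ + d') = c • sq1^[d'] (D.Ym k t₀ σ z s₀))
    {k' : ℕ} (hk1 : k ≤ k') (hk2 : k' ≤ k + 1) :
    ∃ c : ℝ, 2 ^ d ≤ c ∧
      D.Y 0 k' (t₀ + (s₀ + d : ℕ) * D.α) (z (s₀ + d)) = c • sq1^[d] (D.Ym k t₀ σ z s₀) := by
  set t := t₀ + (s₀ + d : ℕ) * D.α with ht
  have hterm : ∀ (e : Fin 2) (n : ℕ), ∃ c : ℝ, 2 ^ d ≤ c ∧
      (LL * (1 / 2) ^ k' * (1 / 3) ^ (n + 1) * D.q k' e n t) •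
        om (n + 1) (z (s₀ + d) (reg (k' + 1 + e))) (0 * ‖z (s₀ + d)‖) =
      (D.q k' e n t * c) • sq1^[d] (D.Ym k t₀ σ z s₀) := by
    intro e n
    rcases (D.q_nonneg k' e n t).eq_or_lt with hq | hq
    · exact ⟨2 ^ d, le_rfl, by simp [← hq]⟩
    obtain ⟨hp1, hp2⟩ := D.q_pure k' e n t hq
    have he := e.2
    set g := k' + 1 + e with hg
    have hg1 : k + 1 ≤ g := by omega
    have hg2 : g ≤ k + 3 := by omega
    have hdn : n + 1 ≤ d := by
      by_contra hlt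
      refine hp2 d hd (by omega) ?_
      have : t - d * D.α = t₀ + s₀ * D.α := by
        rw [ht]
        push_cast
        ring
      rw [this]
      exact D.J_sub _ _ (D.J_mono (by omega) hs₀)
    obtain ⟨d', rfl⟩ : ∃ d', d = d' + (n + 1) := ⟨d - (n + 1), by omega⟩
    have e1 : t - (n + 1 : ℕ) * D.α = t₀ + (s₀ + d' : ℕ) * D.α := by
      rw [ht]
      push_cast
      ring
    have hret := D.minret (k + 1) t (n + 1) hJ (D.Jp_mono hg1 (D.J_sub _ _ hp1)) (by omega)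
    rw [e1] at hp1
    obtain ⟨c', hc', hY⟩ := ih d' (by omega) (D.Jp_mono hg1 (D.J_sub _ _ hp1))
    have hm : ∀ i < n, ¬ D.Jp g (t₀ + (s₀ + d' + 1 : ℕ) * D.α + i * D.α) := by
      intro i hi
      have := hp2 (n - i) (by omega) (by omega)
      have e2 : t - (n - i : ℕ) * D.α = t₀ + (s₀ + d' + 1 : ℕ) * D.α + i * D.α := by
        rw [ht, Nat.cast_sub hi.le]
        push_cast
        ring
      rwa [e2] at this
    have hpure := orb_pure hz hg1 hg2 hp1 n hm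
    have hP := D.prod_a_lower hm
    set P := ∏ i ∈ range n, D.a g (t₀ + (s₀ + d' + 1 : ℕ) * D.α + i * D.α)
    have hlev := small_level_le hret
    have hkey := key_ineq (k' := k') (g := g) (n := n) (by omega) (by omega)
    have hL := LL_pos
    have hP0 : 0 ≤ P := le_trans (by positivity) hP
    have hc0 : 0 ≤ c' := le_trans (by positivity) hc'
    refine ⟨LL * (1 / 2) ^ k' * (1 / 3) ^ (n + 1) * P * c', ?_, ?_⟩
    · calc (2 : ℝ) ^ (d' + (n + 1)) = 2 ^ (n + 1) * 2 ^ d' := by rw [pow_add, mul_comm]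
        _ ≤ _ := by
          gcongr
          refine hkey.trans ?_
          gcongr
    · rw [show s₀ + (d' + (n + 1)) = s₀ + d' + n + 1 by omega, hpure, hY, zero_mul, om_zero,
        smul_smul, Complex.real_smul (x := P * c'), sq1_iter_mul _ _ (mul_nonneg hP0 hc0),
        ← Complex.real_smul, smul_smul, add_comm d' (n + 1),
        Function.iterate_add_apply sq1 (n + 1) d']
      congr 1
      ring
  choose c hc1 hc2 using hterm
  refine ⟨∑ e : Fin 2, ∑ n ∈ range (D.R k'), D.q k' e n t * c e n, ?_, ?_⟩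
  · calc (2 : ℝ) ^ d = ∑ e : Fin 2, ∑ n ∈ range (D.R k'), D.q k' e n t * 2 ^ d := by
          simp only [← sum_mul]
          rw [D.q_sum, one_mul]
      _ ≤ _ := sum_le_sum fun e _ => sum_le_sum fun n _ =>
          mul_le_mul_of_nonneg_left (hc1 e n) (D.q_nonneg _ _ _ _)
  · simp only [Y, hc2, sum_smul]

lemma orb_growth (hσ : ∀ j, 0 ≤ σ j ∧ σ j ≤ 1) {s₀ : ℕ} (hs₀ : D.J (k + 4) (t₀ + s₀ * D.α))
    (d : ℕ) (hJ : D.Jp (k + 1) (t₀ + (s₀ + d : ℕ) * D.α)) :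
    ∃ c : ℝ, 2 ^ d ≤ c ∧ D.Ym k t₀ σ z (s₀ + d) = c • sq1^[d] (D.Ym k t₀ σ z s₀) := by
  induction d using Nat.strong_induction_on with
  | _ d ih =>
    rcases Nat.eq_zero_or_pos d with rfl | hd
    · exact ⟨1, by simp, by simp⟩
    obtain ⟨c₁, h1, e1⟩ := Y_form hz hs₀ hd hJ ih (k' := k) le_rfl (by omega)
    obtain ⟨c₂, h2, e2⟩ := Y_form hz hs₀ hd hJ ih (k' := k + 1) (by omega) le_rfl
    refine ⟨(1 - σ (s₀ + d)) * c₁ + σ (s₀ + d) * c₂, ?_, ?_⟩
    · have := hσ (s₀ + d)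
      nlinarith [mul_le_mul_of_nonneg_left h1 (sub_nonneg.mpr this.2),
        mul_le_mul_of_nonneg_left h2 this.1]
    · rw [Ym, e1, e2, smul_smul, smul_smul, add_smul]

lemma orb_norm (hσ : ∀ j, 0 ≤ σ j ∧ σ j ≤ 1) (j i : ℕ) :
    ‖z (j + i)‖ ≤ (8 * LL) ^ i * ‖z j‖ := by
  induction i with
  | zero => simp
  | succ i ih =>
    rw [← add_assoc, hz]
    refine (convex_norm_le (hσ _).1 (hσ _).2 (D.F_norm _ le_rfl zero_le_one _ _)
      (D.F_norm _ le_rfl zero_le_one _ _)).trans ?_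
    have hL := LL_pos
    calc 8 * LL * ‖z (j + i)‖ ≤ 8 * LL * ((8 * LL) ^ i * ‖z j‖) := by gcongr
      _ = _ := by ring

end Orbit

lemma grow (k : ℕ) : ∃ R T : ℕ, R ≤ T ∧ ∀ (t₀ : ℝ) (σ : ℕ → ℝ) (z : ℕ → E4),
    (∀ j, 0 ≤ σ j ∧ σ j ≤ 1) →
    (∀ j : ℕ, z (j + 1) = (1 - σ j) • D.F k 0 (t₀ + j * D.α) (z j) +
      σ j • D.F (k + 1) 0 (t₀ + j * D.α) (z j)) → ∃ j ≤ T, 4 * ‖z R‖ ≤ ‖z j‖ := by
  obtain ⟨R, hR⟩ := D.maxret (k + 4)
  obtain ⟨d₀, hd₀⟩ := pow_unbounded_of_one_lt (8 * (8 * LL) ^ R) (one_lt_two (α := ℝ))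
  have hvisit : ∀ (t₀ : ℝ) (j : ℕ), R ≤ j → ∃ s, j - R ≤ s ∧ s < j ∧ D.J (k + 4) (t₀ + s * D.α) := by
    intro t₀ j hj
    obtain ⟨n, hn1, hn2, hJ⟩ := hR (t₀ + j * D.α)
    refine ⟨j - n, by omega, by omega, ?_⟩
    rw [Nat.cast_sub (by omega)]
    convert hJ using 1
    ring
  refine ⟨R, R + d₀ + R, by omega, fun t₀ σ z hσ hz => ?_⟩
  obtain ⟨s₀, -, h0, hs₀⟩ := hvisit t₀ R le_rfl
  obtain ⟨s₁, h1, h2, hs₁⟩ := hvisit t₀ (R + d₀ + R) (by omega)
  obtain ⟨d, rfl⟩ : ∃ d, s₁ = s₀ + d := ⟨s₁ - s₀, by omega⟩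
  obtain ⟨c, hc, hY⟩ := orb_growth hz hσ hs₀ d (D.J_sub _ _ (D.J_mono (by omega) hs₁))
  refine ⟨s₀ + d + 1, by omega, ?_⟩
  have hL := one_le_LL
  have a1 : ‖z (s₀ + 1)‖ ≤ 2 * ‖D.Ym k t₀ σ z s₀‖ :=
    norm_le_of_comp (norm_nonneg _) fun i => by rw [orb_reset hz hs₀]
  have a2 := orb_norm hz hσ (s₀ + 1) (R - (s₀ + 1))
  rw [show s₀ + 1 + (R - (s₀ + 1)) = R by omega] at a2
  have a3 : (8 * LL) ^ (R - (s₀ + 1)) ≤ (8 * LL) ^ R := pow_le_pow_right₀ (by linarith) (by omega)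
  have a4 := comp_le (z (s₀ + d + 1)) 0
  have hc0 : 0 ≤ c := le_trans (by positivity) hc
  rw [orb_reset hz hs₁, hY, norm_smul, norm_sq1_iter, Real.norm_of_nonneg hc0] at a4
  have a5 : (2 : ℝ) ^ d₀ ≤ 2 ^ d := pow_le_pow_right₀ one_le_two (by omega)
  calc 4 * ‖z R‖ ≤ 4 * ((8 * LL) ^ R * (2 * ‖D.Ym k t₀ σ z s₀‖)) := by
        gcongr
        refine a2.trans ?_
        gcongr
    _ = 8 * (8 * LL) ^ R * ‖D.Ym k t₀ σ z s₀‖ := by ring
    _ ≤ c * ‖D.Ym k t₀ σ z s₀‖ := by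
        gcongr
        linarith
    _ ≤ _ := a4

end Data

end Crest.Agent.R123
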