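import Crest.Agent.R123.Defs

/-!
# Row 123: the smoothed angle-doubling maps
-/

set_option autoImplicit false

noncomputable section

namespace Crest.Agent.R123

/-- Smoothed angle doubling. -/
def sm (u : ℂ) (ρ : ℝ) : ℂ := u ^ 2 / ((√(‖u‖ ^ 2 + ρ ^ 2) : ℝ) : ℂ)

lemma sm_zero (u : ℂ) : sm u 0 = sq1 u := by
  simp [sm, sq1, Real.sqrt_sq (norm_nonneg u)]

lemma norm_le_sqrt (u : ℂ) (ρ : ℝ) : ‖u‖ ≤ √(‖u‖ ^ 2 + ρ ^ 2) :=
  Real.le_sqrt_of_sq_le (by nlinarith [sq_nonneg ρ])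

lemma norm_sm_le (u : ℂ) (ρ : ℝ) : ‖sm u ρ‖ ≤ ‖u‖ := by
  unfold sm
  have h := norm_le_sqrt u ρ
  set A := √(‖u‖ ^ 2 + ρ ^ 2) with hA
  have hA0 : 0 ≤ A := Real.sqrt_nonneg _
  rw [norm_div, norm_pow, Complex.norm_real, Real.norm_of_nonneg hA0]
  rcases hA0.eq_or_lt with h0 | h0
  · rw [← h0]; simp
  · rw [div_le_iff₀ h0]
    nlinarith [norm_nonneg u]

lemma abs_sqrt_sub_le (a b c d : ℝ) :
    |√(a ^ 2 + b ^ 2) - √(c ^ 2 + d ^ 2)| ≤ |a - c| + |b - d| := by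
  have h1 : √(a ^ 2 + b ^ 2) = ‖(⟨a, b⟩ : ℂ)‖ := by
    rw [Complex.norm_eq_sqrt_sq_add_sq]
  have h2 : √(c ^ 2 + d ^ 2) = ‖(⟨c, d⟩ : ℂ)‖ := by
    rw [Complex.norm_eq_sqrt_sq_add_sq]
  rw [h1, h2]
  refine (abs_norm_sub_norm_le _ _).trans ((Complex.norm_le_abs_re_add_abs_im _).trans ?_)
  simp

lemma sm_lip_aux (u v : ℂ) (ρ ρ' : ℝ) (hBA : √(‖v‖ ^ 2 + ρ' ^ 2) ≤ √(‖u‖ ^ 2 + ρ ^ 2)) :
    ‖sm u ρ - sm v ρ'‖ ≤ 3 * ‖u - v‖ + |ρ - ρ'| := by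
  have hd := abs_sqrt_sub_le ‖u‖ ρ ‖v‖ ρ'
  have hu := norm_le_sqrt u ρ
  have hv := norm_le_sqrt v ρ'
  have huv : |‖u‖ - ‖v‖| ≤ ‖u - v‖ := abs_norm_sub_norm_le u v
  have hs := norm_sm_le u ρ
  unfold sm at hs ⊢
  set A := √(‖u‖ ^ 2 + ρ ^ 2) with hA
  set B := √(‖v‖ ^ 2 + ρ' ^ 2) with hB
  have hB0 : 0 ≤ B := Real.sqrt_nonneg _
  rcases hB0.eq_or_lt with h0 | h0
  · have hv0 : v = 0 := norm_le_zero_iff.mp (by linarith)
    subst hv0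
    simp only [sub_zero, ne_eq, OfNat.ofNat_ne_zero, not_false_eq_true, zero_pow, zero_div]
    have := abs_nonneg (ρ - ρ')
    have := norm_nonneg u
    linarith
  · have hA0 : 0 < A := lt_of_lt_of_le h0 hBA
    have hAc : (A : ℂ) ≠ 0 := by exact_mod_cast hA0.ne'
    have hBc : (B : ℂ) ≠ 0 := by exact_mod_cast h0.ne'
    have e : u ^ 2 / (A : ℂ) - v ^ 2 / (B : ℂ) =
        (u - v) * ((u + v) / (A : ℂ)) + (v / A) * (v / B) * (((B - A : ℝ)) : ℂ) := by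
      push_cast
      field_simp
      ring
    rw [e]
    have h1 : ‖(u + v) / (A : ℂ)‖ ≤ 2 := by
      rw [norm_div, Complex.norm_real, Real.norm_of_nonneg hA0.le, div_le_iff₀ hA0]
      linarith [norm_add_le u v]
    have h2 : ‖v / (A : ℂ)‖ ≤ 1 := by
      rw [norm_div, Complex.norm_real, Real.norm_of_nonneg hA0.le, div_le_iff₀ hA0]
      linarith
    have h3 : ‖v / (B : ℂ)‖ ≤ 1 := by
      rw [norm_div, Complex.norm_real, Real.norm_of_nonneg h0.le, div_le_iff₀ h0]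
      linarith
    have h4 : ‖(((B - A : ℝ)) : ℂ)‖ ≤ ‖u - v‖ + |ρ - ρ'| := by
      rw [Complex.norm_real, Real.norm_eq_abs, abs_sub_comm]
      linarith
    calc _ ≤ ‖(u - v) * ((u + v) / (A : ℂ))‖ + ‖(v / A) * (v / B) * (((B - A : ℝ)) : ℂ)‖ :=
          norm_add_le _ _
      _ ≤ ‖u - v‖ * 2 + 1 * 1 * (‖u - v‖ + |ρ - ρ'|) := by
          rw [norm_mul, norm_mul, norm_mul]
          gcongr
      _ = _ := by ring

lemma sm_lip (u v : ℂ) (ρ ρ' : ℝ) : ‖sm u ρ - sm v ρ'‖ ≤ 3 * ‖u - v‖ + |ρ - ρ'| := by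
  rcases le_total (√(‖v‖ ^ 2 + ρ' ^ 2)) (√(‖u‖ ^ 2 + ρ ^ 2)) with h | h
  · exact sm_lip_aux u v ρ ρ' h
  · rw [norm_sub_rev, norm_sub_rev u v, abs_sub_comm]
    exact sm_lip_aux v u ρ' ρ h

/-- `n`-fold smoothed angle doubling. -/
def om : ℕ → ℂ → ℝ → ℂ
  | 0, u, _ => u
  | n + 1, u, ρ => sm (om n u ρ) ρ

lemma norm_om_le (n : ℕ) (u : ℂ) (ρ : ℝ) : ‖om n u ρ‖ ≤ ‖u‖ := by
  induction n with
  | zero => simp [om]
  | succ n ih => exact (norm_sm_le _ _).trans ih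

lemma om_lip_aux (n : ℕ) (u v : ℂ) (ρ ρ' : ℝ) :
    ‖om n u ρ - om n v ρ'‖ ≤ 3 ^ n * ‖u - v‖ + (3 ^ n - 1) / 2 * |ρ - ρ'| := by
  induction n with
  | zero => simp [om]
  | succ n ih =>
    refine (sm_lip _ _ _ _).trans ?_
    rw [pow_succ]
    nlinarith [abs_nonneg (ρ - ρ')]

lemma om_lip (n : ℕ) (u v : ℂ) (ρ ρ' : ℝ) :
    ‖om n u ρ - om n v ρ'‖ ≤ 3 ^ n * (‖u - v‖ + |ρ - ρ'|) := by
  refine (om_lip_aux n u v ρ ρ').trans ?_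
  have h : (0 : ℝ) < 3 ^ n := by positivity
  nlinarith [abs_nonneg (ρ - ρ')]

lemma om_zero (n : ℕ) (u : ℂ) : om n u 0 = sq1^[n] u := by
  induction n with
  | zero => simp [om]
  | succ n ih => rw [Function.iterate_succ_apply', ← ih, ← sm_zero]; rfl

lemma sq1_mul (c : ℝ) (hc : 0 ≤ c) (u : ℂ) : sq1 (c * u) = c * sq1 u := by
  unfold sq1
  rcases hc.eq_or_lt with h | h
  · simp [← h]
  · have hcc : (c : ℂ) ≠ 0 := by exact_mod_cast h.ne'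
    rw [norm_mul, Complex.norm_real, Real.norm_of_nonneg hc]
    push_cast
    rcases eq_or_ne u 0 with rfl | hu
    · simp
    · have : ((‖u‖ : ℝ) : ℂ) ≠ 0 := by exact_mod_cast norm_ne_zero_iff.mpr hu
      field_simp

lemma sq1_iter_mul (n : ℕ) (c : ℝ) (hc : 0 ≤ c) (u : ℂ) :
    sq1^[n] (c * u) = c * sq1^[n] u := by
  induction n with
  | zero => simp
  | succ n ih => rw [Function.iterate_succ_apply', ih, sq1_mul c hc, Function.iterate_succ_apply']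

lemma norm_sq1_iter (n : ℕ) (u : ℂ) : ‖sq1^[n] u‖ = ‖u‖ := by
  induction n with
  | zero => simp
  | succ n ih => rw [Function.iterate_succ_apply', norm_sq1, ih]

lemma contDiffAt_sm {X : Type*} [NormedAddCommGroup X] [NormedSpace ℝ X] {f : X → ℂ} {g : X → ℝ}
    {x : X} (hf : ContDiffAt ℝ 1 f x) (hg : ContDiffAt ℝ 1 g x) (h0 : g x ≠ 0) :
    ContDiffAt ℝ 1 (fun y => sm (f y) (g y)) x := by
  have hpos : 0 < ‖f x‖ ^ 2 + g x ^ 2 := by positivity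
  have h1 : ContDiffAt ℝ 1 (fun y => ‖f y‖ ^ 2 + g y ^ 2) x :=
    (hf.norm_sq ℝ).add (hg.pow 2)
  have h2 : ContDiffAt ℝ 1 (fun y => (√(‖f y‖ ^ 2 + g y ^ 2))⁻¹) x :=
    (h1.sqrt hpos.ne').inv (Real.sqrt_pos.mpr hpos).ne'
  have h3 : (fun y => sm (f y) (g y)) = fun y => (√(‖f y‖ ^ 2 + g y ^ 2))⁻¹ • (f y) ^ 2 := by
    funext y
    simp [sm, div_eq_inv_mul]
  rw [h3]
  exact h2.smul (hf.pow 2)

lemma contDiffAt_om {X : Type*} [NormedAddCommGroup X] [NormedSpace ℝ X] {f : X → ℂ} {g : X → ℝ}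
    {x : X} (hf : ContDiffAt ℝ 1 f x) (hg : ContDiffAt ℝ 1 g x) (h0 : g x ≠ 0) (n : ℕ) :
    ContDiffAt ℝ 1 (fun y => om n (f y) (g y)) x := by
  induction n with
  | zero => exact hf
  | succ n ih => exact contDiffAt_sm ih hg h0

end Crest.Agent.R123
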