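import Crest.Agent.R123.CoreSm
import Crest.Agent.R123.CoreData
import Crest.Agent.R123.CoreGlue

/-!
# Row 123: the four-register systems and their Lipschitz estimates
-/

set_option autoImplicit false

noncomputable section

namespace Crest.Agent.R123

open Real Finset Filter Topology

/-- The four registers. -/
abbrev E4 : Type := EuclideanSpace ℂ (Fin 4)

/-- The big expansion constant. -/
@[irreducible] def LL : ℝ := 2 ^ 70

lemma LL_eq : LL = 2 ^ 70 := by unfold LL; rfl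

lemma LL_pos : 0 < LL := by rw [LL_eq]; positivity

lemma one_le_LL : 1 ≤ LL := by rw [LL_eq]; norm_num

/-- The register holding generation `g`. -/
def reg (g : ℕ) : Fin 4 := ⟨g % 4, Nat.mod_lt _ (by norm_num)⟩

/-- The generation held by register `i` at level `k`. -/
def gen (k : ℕ) (i : Fin 4) : ℕ := k + (i.val + 3 * k) % 4

lemma le_gen (k : ℕ) (i : Fin 4) : k ≤ gen k i := by unfold gen; omega

lemma gen_le (k : ℕ) (i : Fin 4) : gen k i ≤ k + 3 := by unfold gen; omega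

lemma gen_reg {k g : ℕ} (h1 : k ≤ g) (h2 : g ≤ k + 3) : gen k (reg g) = g := by
  unfold gen reg
  simp only
  omega

lemma norm_le_of_comp {v : E4} {B : ℝ} (hB : 0 ≤ B) (h : ∀ i, ‖v i‖ ≤ B) : ‖v‖ ≤ 2 * B := by
  rw [EuclideanSpace.norm_eq, Real.sqrt_le_iff]
  refine ⟨by positivity, ?_⟩
  calc ∑ i, ‖v i‖ ^ 2 ≤ ∑ _i : Fin 4, B ^ 2 := sum_le_sum fun i _ => by
        have := h i
        gcongr
    _ = (2 * B) ^ 2 := by simp; ring

lemma comp_le (v : E4) (i : Fin 4) : ‖v i‖ ≤ ‖v‖ := PiLp.norm_apply_le v i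

lemma periodic_lip {f : ℝ → ℝ} (hf : ContDiff ℝ 1 f) (hp : Function.Periodic f 1) :
    ∃ K, 0 ≤ K ∧ ∀ t t', |f t - f t'| ≤ K * |t - t'| := by
  have hd : Function.Periodic (deriv f) 1 := fun t => by
    rw [← deriv_comp_add_const]
    congr 1
    funext x
    exact hp x
  obtain ⟨K, hK⟩ := (hd.isBounded_of_continuous one_ne_zero (hf.continuous_deriv le_rfl)).exists_norm_le
  have hK' : ∀ t, ‖deriv f t‖ ≤ K := fun t => hK _ ⟨t, rfl⟩
  have hK0 : 0 ≤ K := (norm_nonneg _).trans (hK' 0)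
  have hl : LipschitzWith ⟨K, hK0⟩ f :=
    lipschitzWith_of_nnnorm_deriv_le (hf.differentiable one_ne_zero) fun t => hK' t
  exact ⟨K, hK0, fun t t' => hl.dist_le_mul t t'⟩

namespace Data

variable (D : Data)

/-- The linear coefficient of generation `g`. -/
def a (g : ℕ) (t : ℝ) : ℝ := ∑ i ∈ range (g + 1), LL * (1 / 2) ^ i * D.b i t

/-- The limit linear coefficient. -/
def abar (t : ℝ) : ℝ := ∑' i, LL * (1 / 2) ^ i * D.b i t

/-- The content written at level `k`. -/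
def Y (η : ℝ) (k : ℕ) (t : ℝ) (z : E4) : ℂ :=
  ∑ e : Fin 2, ∑ n ∈ range (D.R k),
    (LL * (1 / 2) ^ k * (1 / 3) ^ (n + 1) * D.q k e n t) •
      om (n + 1) (z (reg (k + 1 + e))) (η * ‖z‖)

/-- The level `k` system. -/
def F (k : ℕ) (η t : ℝ) (z : E4) : E4 :=
  WithLp.toLp 2 fun i => D.a (gen k i) t • z i + (1 - D.b (gen k i) t) • D.Y η k t z

lemma F_apply (k : ℕ) (η t : ℝ) (z : E4) (i : Fin 4) :
    D.F k η t z i = D.a (gen k i) t • z i + (1 - D.b (gen k i) t) • D.Y η k t z := rfl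

lemma term_nonneg (i : ℕ) (t : ℝ) : 0 ≤ LL * (1 / 2) ^ i * D.b i t := by
  have := LL_pos
  have := D.b_nonneg i t
  positivity

lemma term_le (i : ℕ) (t : ℝ) : LL * (1 / 2) ^ i * D.b i t ≤ LL * (1 / 2) ^ i := by
  have := LL_pos
  exact mul_le_of_le_one_right (by positivity) (D.b_le_one i t)

lemma summable_term (t : ℝ) : Summable fun i => LL * (1 / 2) ^ i * D.b i t :=
  Summable.of_nonneg_of_le (fun i => D.term_nonneg i t) (fun i => D.term_le i t)
    (summable_geometric_two.mul_left LL)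

lemma abar_cont : Continuous D.abar := by
  refine continuous_tsum (u := fun i => LL * (1 / 2) ^ i)
    (fun i => continuous_const.mul (D.b_smooth i).continuous) (summable_geometric_two.mul_left LL)
    fun i t => ?_
  rw [Real.norm_of_nonneg (D.term_nonneg i t)]
  exact D.term_le i t

lemma abar_nonneg (t : ℝ) : 0 ≤ D.abar t := tsum_nonneg fun i => D.term_nonneg i t

lemma abar_le (t : ℝ) : D.abar t ≤ 2 * LL := by
  have h := (D.summable_term t).tsum_le_tsum (fun i => D.term_le i t)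
    (summable_geometric_two.mul_left LL)
  rw [tsum_mul_left, tsum_geometric_two] at h
  unfold abar
  linarith

lemma a_nonneg (g : ℕ) (t : ℝ) : 0 ≤ D.a g t := sum_nonneg fun i _ => D.term_nonneg i t

lemma abs_a_sub_abar (g : ℕ) (t : ℝ) : |D.a g t - D.abar t| ≤ LL * (1 / 2) ^ g := by
  have h := (D.summable_term t).sum_add_tsum_nat_add (g + 1)
  have h0 : 0 ≤ ∑' i, LL * (1 / 2) ^ (i + (g + 1)) * D.b (i + (g + 1)) t :=
    tsum_nonneg fun i => D.term_nonneg _ t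
  have hs : Summable fun i : ℕ => LL * (1 / 2) ^ (g + 1) * (1 / 2 : ℝ) ^ i :=
    summable_geometric_two.mul_left _
  have h1 : ∑' i, LL * (1 / 2) ^ (i + (g + 1)) * D.b (i + (g + 1)) t ≤
      ∑' i : ℕ, LL * (1 / 2) ^ (g + 1) * (1 / 2 : ℝ) ^ i :=
    ((summable_nat_add_iff (g + 1)).mpr (D.summable_term t)).tsum_le_tsum
      (fun i => (D.term_le _ t).trans (le_of_eq (by ring))) hs
  rw [tsum_mul_left, tsum_geometric_two] at h1
  unfold a abar
  rw [← h, abs_le]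
  constructor
  · rw [pow_succ] at h1
    linarith
  · have := LL_pos
    have : 0 ≤ LL * (1 / 2 : ℝ) ^ g := by positivity
    linarith

lemma a_smooth (g : ℕ) : ContDiff ℝ 1 (D.a g) :=
  ContDiff.sum fun i _ => contDiff_const.mul (D.b_smooth i)

lemma a_per (g : ℕ) : Function.Periodic (D.a g) 1 := fun t => by
  simp only [a, D.b_per _ t]

lemma J_mono {g i : ℕ} (h : i ≤ g) {t : ℝ} (hJ : D.J g t) : D.J i t := by
  induction g, h using Nat.le_induction with
  | base => exact hJ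
  | succ g _ ih => exact ih (D.nest g t (D.J_sub _ _ hJ))

lemma Jp_mono {g i : ℕ} (h : i ≤ g) {t : ℝ} (hJ : D.Jp g t) : D.Jp i t := by
  induction g, h using Nat.le_induction with
  | base => exact hJ
  | succ g _ ih => exact ih (D.J_sub _ _ (D.nest g t hJ))

lemma a_J {g : ℕ} {t : ℝ} (hJ : D.J g t) : D.a g t = 0 :=
  sum_eq_zero fun i hi => by
    rw [D.b_J i t (D.J_mono (Nat.lt_succ_iff.mp (mem_range.mp hi)) hJ), mul_zero]

lemma wsum_le (k : ℕ) (t : ℝ) {B : ℝ} (f : Fin 2 → ℕ → ℂ) (h : ∀ e n, ‖f e n‖ ≤ 3 ^ (n + 1) * B) :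
    ‖∑ e : Fin 2, ∑ n ∈ range (D.R k),
      (LL * (1 / 2) ^ k * (1 / 3) ^ (n + 1) * D.q k e n t) • f e n‖ ≤ LL * (1 / 2) ^ k * B := by
  have hL := LL_pos
  calc _ ≤ ∑ e : Fin 2, ∑ n ∈ range (D.R k), LL * (1 / 2) ^ k * B * D.q k e n t := by
        refine norm_sum_le_of_le _ fun e _ => norm_sum_le_of_le _ fun n _ => ?_
        have hq := D.q_nonneg k e n t
        rw [norm_smul, Real.norm_of_nonneg (by positivity)]
        calc _ ≤ LL * (1 / 2) ^ k * (1 / 3) ^ (n + 1) * D.q k e n t * (3 ^ (n + 1) * B) := by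
              gcongr
              exact h e n
          _ = LL * (1 / 2) ^ k * B * D.q k e n t * ((1 / 3) ^ (n + 1) * 3 ^ (n + 1)) := by ring
          _ = _ := by rw [← mul_pow]; simp
    _ = LL * (1 / 2) ^ k * B := by
        simp only [← mul_sum]
        rw [D.q_sum, mul_one]

lemma Y_sub_le (η η' : ℝ) (k : ℕ) (t : ℝ) (z z' : E4) :
    ‖D.Y η k t z - D.Y η' k t z'‖ ≤ LL * (1 / 2) ^ k * (‖z - z'‖ + |η * ‖z‖ - η' * ‖z'‖|) := by
  unfold Y
  simp only [← sum_sub_distrib, ← smul_sub]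
  refine D.wsum_le k t _ fun e n => (om_lip _ _ _ _ _).trans ?_
  gcongr
  exact comp_le (z - z') _

lemma Y_lip {η : ℝ} (h0 : 0 ≤ η) (h1 : η ≤ 1) (k : ℕ) (t : ℝ) (z z' : E4) :
    ‖D.Y η k t z - D.Y η k t z'‖ ≤ LL * (1 / 2) ^ k * (2 * ‖z - z'‖) := by
  refine (D.Y_sub_le η η k t z z').trans ?_
  have := LL_pos
  gcongr
  rw [← mul_sub, abs_mul, abs_of_nonneg h0]
  have := mul_le_mul h1 (abs_norm_sub_norm_le z z') (abs_nonneg _) zero_le_one
  linarith

lemma Y_eta {η : ℝ} (h0 : 0 ≤ η) (k : ℕ) (t : ℝ) (z : E4) :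
    ‖D.Y η k t z - D.Y 0 k t z‖ ≤ LL * η * ‖z‖ := by
  refine (D.Y_sub_le η 0 k t z z).trans ?_
  have := LL_pos
  have h2 : (1 / 2 : ℝ) ^ k ≤ 1 := pow_le_one₀ (by norm_num) (by norm_num)
  simp only [sub_self, norm_zero, zero_mul, sub_zero, zero_add]
  rw [abs_of_nonneg (by positivity)]
  calc LL * (1 / 2) ^ k * (η * ‖z‖) ≤ LL * 1 * (η * ‖z‖) := by gcongr
    _ = _ := by ring

lemma Y_norm (η : ℝ) (k : ℕ) (t : ℝ) (z : E4) : ‖D.Y η k t z‖ ≤ LL * ‖z‖ := by
  have := LL_pos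
  have h2 : (1 / 2 : ℝ) ^ k ≤ 1 := pow_le_one₀ (by norm_num) (by norm_num)
  refine (D.wsum_le k t (B := ‖z‖) _ fun e n => ?_).trans ?_
  · refine (norm_om_le _ _ _).trans ((comp_le z _).trans ?_)
    exact le_mul_of_one_le_left (norm_nonneg _) (one_le_pow₀ (by norm_num))
  · gcongr
    exact mul_le_of_le_one_right this.le h2

lemma Y_zero (η : ℝ) (k : ℕ) (t : ℝ) : D.Y η k t 0 = 0 := by
  simpa using D.Y_norm η k t 0

lemma F_zero (k : ℕ) (η t : ℝ) : D.F k η t 0 = 0 := by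
  ext i
  simp [F_apply, D.Y_zero]

lemma F_per (k : ℕ) (η t : ℝ) (z : E4) : D.F k η (t + 1) z = D.F k η t z := by
  simp only [F, Y, D.a_per _ t, D.b_per _ t, D.q_per _ _ _ t]

lemma abs_one_sub_b (g : ℕ) (t : ℝ) : |1 - D.b g t| ≤ 1 := by
  rw [abs_le]
  constructor <;> linarith [D.b_nonneg g t, D.b_le_one g t]

lemma F_lip (k : ℕ) {η : ℝ} (h0 : 0 ≤ η) (h1 : η ≤ 1) (t : ℝ) (z z' : E4) :
    ‖D.F k η t z - D.F k η t z' - D.abar t • (z - z')‖ ≤ 6 * LL * (1 / 2) ^ k * ‖z - z'‖ := by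
  have hL := LL_pos
  refine (norm_le_of_comp (B := 3 * LL * (1 / 2) ^ k * ‖z - z'‖) (by positivity)
    fun i => ?_).trans (le_of_eq (by ring))
  have e : (D.F k η t z - D.F k η t z' - D.abar t • (z - z')) i =
      (D.a (gen k i) t - D.abar t) • (z - z') i +
        (1 - D.b (gen k i) t) • (D.Y η k t z - D.Y η k t z') := by
    simp only [PiLp.sub_apply, PiLp.smul_apply, F_apply, smul_sub, sub_smul]
    abel
  rw [e]
  have h2 : |D.a (gen k i) t - D.abar t| ≤ LL * (1 / 2) ^ k := by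
    refine (D.abs_a_sub_abar _ t).trans ?_
    gcongr ?_ * ?_
    exact pow_le_pow_of_le_one (by norm_num) (by norm_num) (le_gen k i)
  calc _ ≤ _ := norm_add_le _ _
    _ ≤ LL * (1 / 2) ^ k * ‖z - z'‖ + 1 * (LL * (1 / 2) ^ k * (2 * ‖z - z'‖)) := by
        rw [norm_smul, norm_smul, Real.norm_eq_abs, Real.norm_eq_abs]
        gcongr
        · exact comp_le _ _
        · exact D.abs_one_sub_b _ _
        · exact D.Y_lip h0 h1 k t z z'
    _ = _ := by ring

lemma F_eta (k : ℕ) {η : ℝ} (h0 : 0 ≤ η) (t : ℝ) (z : E4) :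
    ‖D.F k η t z - D.F k 0 t z‖ ≤ 2 * (LL * η * ‖z‖) := by
  have hL := LL_pos
  refine norm_le_of_comp (by positivity) fun i => ?_
  have e : (D.F k η t z - D.F k 0 t z) i =
      (1 - D.b (gen k i) t) • (D.Y η k t z - D.Y 0 k t z) := by
    simp only [PiLp.sub_apply, F_apply, smul_sub]
    abel
  rw [e, norm_smul, Real.norm_eq_abs]
  calc _ ≤ 1 * (LL * η * ‖z‖) := by
        gcongr
        · exact D.abs_one_sub_b _ _
        · exact D.Y_eta h0 k t z
    _ = _ := one_mul _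

lemma Y_tlip (k : ℕ) : ∃ M, 0 ≤ M ∧ ∀ η t t' z,
    ‖D.Y η k t z - D.Y η k t' z‖ ≤ M * |t - t'| * ‖z‖ := by
  choose K hK0 hK using fun e n => periodic_lip (D.q_smooth k e n) (D.q_per k e n)
  have hL := LL_pos
  refine ⟨∑ e : Fin 2, ∑ n ∈ range (D.R k), LL * (1 / 2) ^ k * (1 / 3) ^ (n + 1) * K e n,
    sum_nonneg fun e _ => sum_nonneg fun n _ => by have := hK0 e n; positivity,
    fun η t t' z => ?_⟩
  unfold Y
  simp only [← sum_sub_distrib, ← sub_smul, ← mul_sub, sum_mul]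
  refine norm_sum_le_of_le _ fun e _ => norm_sum_le_of_le _ fun n _ => ?_
  rw [norm_smul, Real.norm_eq_abs, abs_mul, abs_of_nonneg (by positivity), mul_assoc _ (K e n)]
  have := hK0 e n
  gcongr
  · exact hK e n t t'
  · exact (norm_om_le _ _ _).trans (comp_le z _)

lemma F_tlip (k : ℕ) : ∃ M, 0 ≤ M ∧ ∀ η t t' z,
    ‖D.F k η t z - D.F k η t' z‖ ≤ M * |t - t'| * ‖z‖ := by
  obtain ⟨MY, hY0, hY⟩ := D.Y_tlip k
  choose Ka hKa0 hKa using fun g => periodic_lip (D.a_smooth g) (D.a_per g)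
  choose Kb hKb0 hKb using fun g => periodic_lip (D.b_smooth g) (D.b_per g)
  have hL := LL_pos
  let Mi : Fin 4 → ℝ := fun i => Ka (gen k i) + MY + Kb (gen k i) * LL
  have hMi : ∀ i, 0 ≤ Mi i := fun i => by
    have := hKa0 (gen k i)
    have := hKb0 (gen k i)
    positivity
  have hS : 0 ≤ ∑ i, Mi i := sum_nonneg fun i _ => hMi i
  refine ⟨2 * ∑ i, Mi i, by positivity, fun η t t' z => ?_⟩
  refine (norm_le_of_comp (B := (∑ i, Mi i) * |t - t'| * ‖z‖) (by positivity)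
    fun i => ?_).trans (le_of_eq (by ring))
  have e : (D.F k η t z - D.F k η t' z) i =
      (D.a (gen k i) t - D.a (gen k i) t') • z i +
        (1 - D.b (gen k i) t) • (D.Y η k t z - D.Y η k t' z) +
          (D.b (gen k i) t' - D.b (gen k i) t) • D.Y η k t' z := by
    simp only [PiLp.sub_apply, F_apply, smul_sub, sub_smul]
    abel
  rw [e]
  have h1 := hKa0 (gen k i)
  have h2 := hKb0 (gen k i)
  calc _ ≤ _ := norm_add₃_le
    _ ≤ Ka (gen k i) * |t - t'| * ‖z‖ + 1 * (MY * |t - t'| * ‖z‖) +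
          Kb (gen k i) * |t - t'| * (LL * ‖z‖) := by
        rw [norm_smul, norm_smul, norm_smul, Real.norm_eq_abs, Real.norm_eq_abs, Real.norm_eq_abs]
        gcongr
        · exact hKa _ _ _
        · exact comp_le _ _
        · exact D.abs_one_sub_b _ _
        · exact hY _ _ _ _
        · rw [abs_sub_comm]
          exact hKb _ _ _
        · exact D.Y_norm _ _ _ _
    _ = Mi i * |t - t'| * ‖z‖ := by simp only [Mi]; ring
    _ ≤ _ := by
        gcongr
        exact single_le_sum (fun i _ => hMi i) (mem_univ i)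

lemma F_smooth (k : ℕ) {η : ℝ} (hη : 0 < η) (p : ℝ × E4) (hp : p.2 ≠ 0) :
    ContDiffAt ℝ 1 (fun p : ℝ × E4 => D.F k η p.1 p.2) p := by
  have hc : ∀ i, ContDiffAt ℝ 1 (fun p : ℝ × E4 => p.2 i) p := fun i =>
    (contDiffAt_piLp 2).mp contDiffAt_snd i
  have hn : ContDiffAt ℝ 1 (fun p : ℝ × E4 => η * ‖p.2‖) p :=
    contDiffAt_const.mul (contDiffAt_snd.norm ℝ hp)
  have hn0 : η * ‖p.2‖ ≠ 0 := mul_ne_zero hη.ne' (norm_ne_zero_iff.mpr hp)
  have hY : ContDiffAt ℝ 1 (fun p : ℝ × E4 => D.Y η k p.1 p.2) p := by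
    unfold Y
    refine ContDiffAt.sum fun e _ => ContDiffAt.sum fun n _ => ?_
    have h1 : ContDiffAt ℝ 1
        (fun p : ℝ × E4 => LL * (1 / 2) ^ k * (1 / 3) ^ (n + 1) * D.q k e n p.1) p :=
      contDiffAt_const.mul ((D.q_smooth k e n).contDiffAt.comp p contDiffAt_fst)
    exact h1.smul (contDiffAt_om (hc _) hn hn0 _)
  rw [contDiffAt_piLp]
  intro i
  simp only [F_apply]
  exact (((D.a_smooth _).contDiffAt.comp p contDiffAt_fst).smul (hc i)).add
    ((contDiffAt_const.sub ((D.b_smooth _).contDiffAt.comp p contDiffAt_fst)).smul hY)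

lemma F_norm (k : ℕ) {η : ℝ} (h0 : 0 ≤ η) (h1 : η ≤ 1) (t : ℝ) (z : E4) :
    ‖D.F k η t z‖ ≤ 8 * LL * ‖z‖ := by
  have h := D.F_lip k h0 h1 t z 0
  rw [D.F_zero, sub_zero, sub_zero] at h
  have h2 : (1 / 2 : ℝ) ^ k ≤ 1 := pow_le_one₀ (by norm_num) (by norm_num)
  have hL := LL_pos
  have h3 : ‖D.abar t • z‖ ≤ 2 * LL * ‖z‖ := by
    rw [norm_smul, Real.norm_of_nonneg (D.abar_nonneg t)]
    gcongr
    exact D.abar_le t
  have h4 := norm_add_le (D.F k η t z - D.abar t • z) (D.abar t • z)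
  rw [sub_add_cancel] at h4
  have h5 : 6 * LL * (1 / 2) ^ k * ‖z‖ ≤ 6 * LL * 1 * ‖z‖ := by gcongr
  linarith

/-- The macroscopic level. -/
lemma F_zero_level (η t : ℝ) (z : E4) (i : Fin 4) :
    D.F 0 η t z i = (LL / 3) • sm (z 1) (η * ‖z‖) := by
  have hJ : D.J (gen 0 i) t := D.triv _ _ (by simpa using gen_le 0 i)
  have hq : ∀ n, 1 ≤ n → D.q 0 0 n t = 0 := fun n hn => by
    by_contra h
    exact (D.q_pure 0 0 n t (lt_of_le_of_ne (D.q_nonneg _ _ _ _) (Ne.symm h))).2 1 le_rfl hn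
      (D.J_sub _ _ (D.triv _ _ (by simp)))
  have hs := D.q_sum 0 t
  rw [Fin.sum_univ_two] at hs
  simp only [D.q_zero, sum_const_zero, add_zero] at hs
  have hR : 0 ∈ range (D.R 0) := by
    by_contra h
    rw [show D.R 0 = 0 by simpa using h] at hs
    simp at hs
  rw [sum_eq_single_of_mem 0 hR (fun n _ hn => hq n (by omega))] at hs
  rw [F_apply, D.a_J hJ, D.b_J _ _ hJ, Y, Fin.sum_univ_two,
    sum_eq_single_of_mem 0 hR (fun n _ hn => by rw [hq n (by omega)]; simp), hs]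
  simp only [D.q_zero, mul_zero, zero_smul, sum_const_zero, add_zero, zero_add, sub_zero, one_smul,
    pow_zero, mul_one, pow_one]
  congr 1
  ring

end Data

end Crest.Agent.R123
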