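import Mathlib

/-!
# Row 123 (S0163): common definitions

The manifold is `M = Circle × (S² × S⁶)`.  See `Crest/Agent/R123/Blueprint.lean` for the plan.
-/

set_option autoImplicit false

noncomputable section

namespace Crest.Agent.R123

open Metric

/-- Ambient space of the two-sphere: points `(ζ, h)`. -/
abbrev E2 : Type := WithLp 2 (ℂ × ℝ)

/-- The three extra complex registers. -/
abbrev V3 : Type := EuclideanSpace ℂ (Fin 3)

/-- Ambient space of the six-sphere: points `(η, k)`. -/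
abbrev E6 : Type := WithLp 2 (V3 × ℝ)

instance factE2 : Fact (Module.finrank ℝ E2 = 2 + 1) := ⟨by
  rw [(WithLp.linearEquiv 2 ℝ (ℂ × ℝ)).finrank_eq]
  simp⟩

instance factE6 : Fact (Module.finrank ℝ E6 = 6 + 1) := ⟨by
  rw [(WithLp.linearEquiv 2 ℝ (V3 × ℝ)).finrank_eq, Module.finrank_prod,
    (WithLp.linearEquiv 2 ℝ (Fin 3 → ℂ)).finrank_eq]
  simp [Module.finrank_pi_fintype]⟩

/-- The unit two-sphere. -/
abbrev S2 : Type := sphere (0 : E2) 1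

/-- The unit six-sphere. -/
abbrev S6 : Type := sphere (0 : E6) 1

/-- The manifold of the example. -/
abbrev M : Type := Circle × (S2 × S6)

/-- Angle doubling that keeps the modulus. -/
def sq1 (u : ℂ) : ℂ := u ^ 2 / (‖u‖ : ℂ)

lemma norm_sq1 (u : ℂ) : ‖sq1 u‖ = ‖u‖ := by
  unfold sq1
  rcases eq_or_ne u 0 with rfl | hu
  · simp
  · have : ‖u‖ ≠ 0 := norm_ne_zero_iff.mpr hu
    rw [norm_div, norm_pow, Complex.norm_real, norm_norm]
    field_simp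

lemma continuous_sq1 : Continuous sq1 := by
  rw [continuous_iff_continuousAt]
  intro u
  rcases eq_or_ne u 0 with rfl | hu
  · rw [ContinuousAt, show sq1 0 = 0 by simp [sq1], tendsto_zero_iff_norm_tendsto_zero]
    simp only [norm_sq1]
    exact tendsto_norm_zero
  · have h : ((‖u‖ : ℝ) : ℂ) ≠ 0 := by exact_mod_cast norm_ne_zero_iff.mpr hu
    unfold sq1
    exact ContinuousAt.div (by fun_prop) (by fun_prop) h

lemma normSq_S2 (x : S2) : ‖(x : E2).fst‖ ^ 2 + (x : E2).snd ^ 2 = 1 := by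
  have h : ‖(x : E2)‖ = 1 := by simp
  have h2 := WithLp.prod_norm_sq_eq_of_L2 (x : E2)
  rw [h, Real.norm_eq_abs, sq_abs] at h2
  linarith

lemma normSq_S6 (y : S6) : ‖(y : E6).fst‖ ^ 2 + (y : E6).snd ^ 2 = 1 := by
  have h : ‖(y : E6)‖ = 1 := by simp
  have h2 := WithLp.prod_norm_sq_eq_of_L2 (y : E6)
  rw [h, Real.norm_eq_abs, sq_abs] at h2
  linarith

lemma mem_S2 (ζ : ℂ) (h : ℝ) (hh : ‖ζ‖ ^ 2 + h ^ 2 = 1) :
    (WithLp.toLp 2 (ζ, h) : E2) ∈ sphere (0 : E2) 1 := by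
  have h2 := WithLp.prod_norm_sq_eq_of_L2 (WithLp.toLp 2 (ζ, h) : E2)
  simp only [WithLp.toLp_fst, WithLp.toLp_snd, Real.norm_eq_abs, sq_abs] at h2
  rw [mem_sphere_zero_iff_norm]
  have h3 : 0 ≤ ‖(WithLp.toLp 2 (ζ, h) : E2)‖ := norm_nonneg _
  nlinarith

/-- The suspension of the angle-doubling map of the circle: `(ζ, h) ↦ (ζ² / ‖ζ‖, h)`. -/
def dbl : C(S2, S2) where
  toFun x := ⟨WithLp.toLp 2 (sq1 (x : E2).fst, (x : E2).snd),
    mem_S2 _ _ (by rw [norm_sq1]; exact normSq_S2 x)⟩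
  continuous_toFun := by
    refine Continuous.subtype_mk ?_ _
    have := continuous_sq1
    fun_prop

@[simp] lemma dbl_fst (x : S2) : ((dbl x : S2) : E2).fst = sq1 (x : E2).fst := rfl

@[simp] lemma dbl_snd (x : S2) : ((dbl x : S2) : E2).snd = (x : E2).snd := rfl

/-- The statement delivered by the local (fibrewise) construction. -/
def CoreSpec (α : ℝ) (Ψ : ℝ × (ℂ × V3) → ℂ × V3) (r₁ : ℝ) : Prop :=
  0 < r₁ ∧ r₁ ≤ 1 / 4 ∧ ContDiff ℝ 1 Ψ ∧ (∀ t w, Ψ (t + 1, w) = Ψ (t, w)) ∧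
  (∀ t w, ‖w‖ ≤ r₁ → ‖Ψ (t, w)‖ ≤ 1 / 4) ∧
  (∀ t w, r₁ ≤ ‖w‖ → ∃ c : ℝ, 0 < c ∧ Ψ (t, w) = (c • w.1 ^ 2, 0) ∧ (w.2 = 0 → 8 ≤ c * ‖w.1‖)) ∧
  ∀ ε : ℝ, 0 < ε → ∃ N : ℕ, ∀ (t₀ : ℝ) (w : ℕ → ℂ × V3) (n : ℕ), (∀ j ≤ n, ‖w j‖ ≤ 1 / 2) →
    (∀ j < n, w (j + 1) = Ψ (t₀ + j * α, w j)) → ∀ j, N ≤ j → j + N ≤ n → ‖w j‖ < ε

/-- All but boundedly many points of every orbit segment have their fibre component near `p₀`
(before a switching time) or near `p₁` (after it). -/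
def TwoPointSpec {B X : Type} [PseudoMetricSpace X] (T : B × X → B × X) (p₀ p₁ : X) : Prop :=
  ∀ ε : ℝ, 0 < ε → ∃ N : ℕ, ∀ (z : B × X) (n : ℕ), ∃ (m : ℕ) (s : Finset ℕ), s.card ≤ N ∧
    ∀ k < n, k ∉ s → (k < m → dist (T^[k] z).2 p₀ < ε) ∧ (m ≤ k → dist (T^[k] z).2 p₁ < ε)

/-- The model with corners of the product manifold `M`. -/
abbrev IM := (modelWithCornersSelf ℝ (EuclideanSpace ℝ (Fin 1))).prod
  ((modelWithCornersSelf ℝ (EuclideanSpace ℝ (Fin 2))).prod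
    (modelWithCornersSelf ℝ (EuclideanSpace ℝ (Fin 6))))

end Crest.Agent.R123
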