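import Crest.Agent.R123.Defs

/-!
# Row 123: zero entropy from polynomially many orbit codes
-/

set_option autoImplicit false

noncomputable section

namespace Crest.Agent.R123

open Filter Dynamics

lemma exists_finite_net (Z : Type) [MetricSpace Z] [CompactSpace Z] {ε : ℝ} (hε : 0 < ε) :
    ∃ (A : Finset Z) (ν : Z → Z), ∀ z, ν z ∈ A ∧ dist z (ν z) < ε := by
  obtain ⟨t, -, ht, hcov⟩ :=
    finite_cover_balls_of_compact (isCompact_univ (X := Z)) hε
  have h : ∀ z : Z, ∃ a, a ∈ ht.toFinset ∧ dist z a < ε := by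
    intro z
    have := hcov (Set.mem_univ z)
    simp only [Set.mem_iUnion, Metric.mem_ball] at this
    obtain ⟨a, ha, hz⟩ := this
    exact ⟨a, by simpa using ha, hz⟩
  choose ν hν using h
  exact ⟨ht.toFinset, ν, hν⟩

lemma coverMincard_le_of_code {Z κ : Type} (T : Z → Z) (U : SetRel Z Z) (n : ℕ)
    (code : Z → κ) (C : Finset κ) (hC : ∀ z, code z ∈ C)
    (h : ∀ z z', code z = code z' → (z, z') ∈ dynEntourage T U n) :
    coverMincard T Set.univ U n ≤ C.card := by
  classical
  rcases isEmpty_or_nonempty Z with hZ | hZ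
  · rw [Set.univ_eq_empty_iff.mpr hZ, coverMincard_empty]
    exact bot_le
  have hcov : IsDynCoverOf T Set.univ U n (C.image (Function.invFun code) : Finset Z) := by
    intro z _
    refine ⟨Function.invFun code (code z), ?_, ?_⟩
    · exact Finset.mem_coe.mpr (Finset.mem_image_of_mem _ (hC z))
    · exact h _ _ (Function.invFun_eq ⟨z, rfl⟩).symm
  refine hcov.coverMincard_le_card.trans ?_
  exact_mod_cast Finset.card_image_le

lemma exists_enum (s : Finset ℕ) (N n : ℕ) (hs : s.card ≤ N) :
    ∃ e : Fin N → ℕ, (∀ i, e i ≤ n) ∧ ∀ k ∈ s, k < n → ∃ i, e i = k := by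
  refine ⟨fun i => min (s.toList.getD i n) n, fun i => min_le_right _ _, ?_⟩
  intro k hk hkn
  obtain ⟨j, hj, hjk⟩ := List.getElem_of_mem (Finset.mem_toList.mpr hk)
  have hjN : j < N := lt_of_lt_of_le (by simpa using hj) hs
  refine ⟨⟨j, hjN⟩, ?_⟩
  simp only [List.getD_eq_getElem _ _ hj, hjk]
  exact min_eq_left hkn.le

lemma expGrowthSup_poly_le (u : ℕ → ENNReal) (C d : ℕ)
    (h : ∀ n, u n ≤ ((C * (n + 1) ^ d : ℕ) : ENNReal)) : ExpGrowth.expGrowthSup u ≤ 0 := by
  rw [ExpGrowth.expGrowthSup_le_iff]
  intro b hb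
  obtain ⟨c, hc0, hcb⟩ := EReal.lt_iff_exists_real_btwn.mp hb
  have hc : 0 < c := by exact_mod_cast hc0
  have h1 : Tendsto (fun x : ℝ => Real.exp (c * x) / x ^ d) atTop atTop := by
    have := tendsto_exp_mul_div_rpow_atTop (d : ℝ) c hc
    simpa [Real.rpow_natCast] using this
  have h2 : Tendsto (fun n : ℕ => ((n : ℝ) + 1)) atTop atTop :=
    tendsto_atTop_add_const_right _ _ tendsto_natCast_atTop_atTop
  have h3 := (h1.comp h2).eventually_ge_atTop (C * Real.exp c)
  filter_upwards [h3] with n hn
  refine (h n).trans ?_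
  have hpos : (0 : ℝ) < ((n : ℝ) + 1) ^ d := by positivity
  simp only [Function.comp] at hn
  rw [le_div_iff₀ hpos, mul_add, mul_one, Real.exp_add] at hn
  have h4 : (C : ℝ) * ((n : ℝ) + 1) ^ d ≤ Real.exp (c * n) := by
    have he := Real.exp_pos c
    nlinarith
  calc ((C * (n + 1) ^ d : ℕ) : ENNReal) = ENNReal.ofReal ((C : ℝ) * ((n : ℝ) + 1) ^ d) := by
        rw [← ENNReal.ofReal_natCast]; push_cast; rfl
    _ ≤ ENNReal.ofReal (Real.exp (c * n)) := ENNReal.ofReal_le_ofReal h4
    _ = EReal.exp ((c * n : ℝ) : EReal) := (EReal.exp_coe _).symm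
    _ ≤ EReal.exp (b * n) := by
        apply EReal.exp_monotone
        rw [EReal.coe_mul]
        have : ((n : ℝ) : EReal) = (n : EReal) := rfl
        rw [this]
        exact mul_le_mul_of_nonneg_right hcb.le (by exact_mod_cast Nat.zero_le n)

theorem entropy_zero {B X : Type} [MetricSpace B] [CompactSpace B] [Nonempty B]
    [MetricSpace X] [CompactSpace X] (R : B → B) (hR : Isometry R)
    (T : B × X → B × X) (hT : ∀ p, (T p).1 = R p.1) (p₀ p₁ : X) (h : TwoPointSpec T p₀ p₁) :
    Dynamics.coverEntropy T Set.univ = 0 := by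
  classical
  have hne : (Set.univ : Set (B × X)).Nonempty := ⟨(Classical.arbitrary B, p₀), trivial⟩
  refine le_antisymm ?_ (coverEntropy_nonneg T hne)
  refine iSup₂_le fun U hU => ?_
  obtain ⟨δ, hδ, hδU⟩ := Metric.mem_uniformity_dist.mp hU
  have hε : 0 < δ / 2 := by positivity
  obtain ⟨N, hN⟩ := h (δ / 2) hε
  obtain ⟨AB, νB, hνB⟩ := exists_finite_net B hε
  obtain ⟨AX, νX, hνX⟩ := exists_finite_net X hε
  have hfst : ∀ (k : ℕ) (z z' : B × X), dist (T^[k] z).1 (T^[k] z').1 = dist z.1 z'.1 := by
    intro k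
    induction k with
    | zero => intro z z'; rfl
    | succ k ih =>
      intro z z'
      rw [Function.iterate_succ_apply', Function.iterate_succ_apply', hT, hT, hR.dist_eq, ih]
  refine expGrowthSup_poly_le _ (AB.card * AX.card ^ N) (N + 1) fun n => ?_
  choose m s hs hms using fun z => hN z n
  choose e he hes using fun z => exists_enum (s z) N n (hs z)
  have key := coverMincard_le_of_code T U n
    (fun z => (νB z.1, min (m z) n, fun i : Fin N => (e z i, νX (T^[e z i] z).2)))
    (AB ×ˢ Finset.range (n + 1) ×ˢ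
      Fintype.piFinset fun _ : Fin N => Finset.range (n + 1) ×ˢ AX)
    (by
      intro z
      simp only [Finset.mem_product, Finset.mem_range, Fintype.mem_piFinset]
      exact ⟨(hνB _).1, Nat.lt_succ_of_le (min_le_right _ _),
        fun i => ⟨Nat.lt_succ_of_le (he z i), (hνX _).1⟩⟩)
    (by
      intro z z' hc
      simp only [Prod.mk.injEq] at hc
      obtain ⟨h1, h2, h3⟩ := hc
      have h3' : ∀ i, e z i = e z' i ∧ νX (T^[e z i] z).2 = νX (T^[e z' i] z').2 := by
        intro i
        have := congrFun h3 i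
        simpa only [Prod.mk.injEq] using this
      rw [mem_dynEntourage]
      intro k hk
      apply hδU
      rw [Prod.dist_eq, max_lt_iff]
      constructor
      · rw [hfst]
        have a1 := (hνB z.1).2
        have a2 := (hνB z'.1).2
        rw [← h1] at a2
        linarith [dist_triangle_right z.1 z'.1 (νB z.1)]
      · by_cases hk' : ∃ i, e z i = k
        · obtain ⟨i, hi⟩ := hk'
          obtain ⟨b1, b2⟩ := h3' i
          rw [← b1, hi] at b2
          have a1 := (hνX (T^[k] z).2).2
          have a2 := (hνX (T^[k] z').2).2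
          rw [← b2] at a2
          linarith [dist_triangle_right (T^[k] z).2 (T^[k] z').2 (νX (T^[k] z).2)]
        · have n1 : k ∉ s z := fun hks => hk' (hes z k hks hk)
          have n2 : k ∉ s z' := fun hks => by
            obtain ⟨i, hi⟩ := hes z' k hks hk
            exact hk' ⟨i, (h3' i).1.trans hi⟩
          obtain ⟨c1, c2⟩ := hms z k hk n1
          obtain ⟨d1, d2⟩ := hms z' k hk n2
          by_cases hkm : k < m z
          · have hkm' : k < m z' := by omega
            linarith [dist_triangle_right (T^[k] z).2 (T^[k] z').2 p₀, c1 hkm, d1 hkm']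
          · have hkm' : m z' ≤ k := by omega
            linarith [dist_triangle_right (T^[k] z).2 (T^[k] z').2 p₁, c2 (not_lt.mp hkm),
              d2 hkm'])
  have hcard : (AB ×ˢ Finset.range (n + 1) ×ˢ
      Fintype.piFinset fun _ : Fin N => Finset.range (n + 1) ×ˢ AX).card =
      AB.card * AX.card ^ N * (n + 1) ^ (N + 1) := by
    simp only [Finset.card_product, Finset.card_range, Fintype.card_piFinset, Finset.prod_const,
      Finset.card_univ, Fintype.card_fin, mul_pow]
    ring
  rw [hcard] at key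
  have := ENat.toENNReal_mono key
  simpa using this

end Crest.Agent.R123
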