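import Crest.Agent.R123.Global2

/-!
# Row 123: the global map, dynamics and homotopy class
-/

set_option autoImplicit false

noncomputable section

open scoped Manifold ContDiff

namespace Crest.Agent.R123

open Metric

variable {α : ℝ} {Ψ : ℝ × (ℂ × V3) → ℂ × V3} {r₁ : ℝ}

lemma mem_S6 (η : V3) (k : ℝ) (hh : ‖η‖ ^ 2 + k ^ 2 = 1) :
    (WithLp.toLp 2 (η, k) : E6) ∈ sphere (0 : E6) 1 := by
  have h2 := WithLp.prod_norm_sq_eq_of_L2 (WithLp.toLp 2 (η, k) : E6)
  simp only [WithLp.toLp_fst, WithLp.toLp_snd, Real.norm_eq_abs, sq_abs] at h2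
  rw [mem_sphere_zero_iff_norm]
  have h3 : 0 ≤ ‖(WithLp.toLp 2 (η, k) : E6)‖ := norm_nonneg _
  nlinarith

/-- North pole of the two-sphere. -/
def north2 : S2 := ⟨WithLp.toLp 2 (0, 1), mem_S2 _ _ (by simp)⟩

/-- South pole of the two-sphere. -/
def south2 : S2 := ⟨WithLp.toLp 2 (0, -1), mem_S2 _ _ (by simp)⟩

/-- North pole of the six-sphere. -/
def north6 : S6 := ⟨WithLp.toLp 2 (0, 1), mem_S6 _ _ (by simp)⟩

lemma distSq_north2 (p : M) : dist p.2.1 north2 ^ 2 = ‖cz p‖ ^ 2 + (chh p - 1) ^ 2 := by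
  rw [Subtype.dist_eq, dist_eq_norm, WithLp.prod_norm_sq_eq_of_L2, Real.norm_eq_abs, sq_abs]
  simp [north2]

lemma distSq_south2 (p : M) : dist p.2.1 south2 ^ 2 = ‖cz p‖ ^ 2 + (chh p + 1) ^ 2 := by
  rw [Subtype.dist_eq, dist_eq_norm, WithLp.prod_norm_sq_eq_of_L2, Real.norm_eq_abs, sq_abs]
  simp [south2]

lemma distSq_north6 (p : M) : dist p.2.2 north6 ^ 2 = ‖ce p‖ ^ 2 + (ck p - 1) ^ 2 := by
  rw [Subtype.dist_eq, dist_eq_norm, WithLp.prod_norm_sq_eq_of_L2, Real.norm_eq_abs, sq_abs]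
  simp [north6]

lemma InN.dist_lt {p : M} (h : InN p) {e : ℝ} (he : ‖gW (gCrd p)‖ < e) :
    dist p.2 (north2, north6) < 2 * e := by
  obtain ⟨a1, a2⟩ := h.norm_lt he
  obtain ⟨b1, b2⟩ := h.heights
  have hS2 : ‖cz p‖ ^ 2 + chh p ^ 2 = 1 := normSq_S2 p.2.1
  have hS6 : ‖ce p‖ ^ 2 + ck p ^ 2 = 1 := normSq_S6 p.2.2
  have c1 : chh p ≤ 1 := S2_snd_le p.2.1
  have c2 : ck p ≤ 1 := S6_snd_le p.2.2
  have hz0 := norm_nonneg (cz p)
  have he0 := norm_nonneg (ce p)
  have e0 : 0 < e := by linarith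
  rw [Prod.dist_eq, max_lt_iff]
  constructor
  · refine lt_of_pow_lt_pow_left₀ 2 (by positivity) ?_
    rw [distSq_north2]
    nlinarith
  · refine lt_of_pow_lt_pow_left₀ 2 (by positivity) ?_
    rw [distSq_north6]
    nlinarith

lemma InA.dist_lt {p : M} (h : InA r₁ p) {e : ℝ} (he : 0 < e) (hh : chh p < -1 + e ^ 2 / 2) :
    dist p.2 (south2, north6) < e := by
  have hS2 : ‖cz p‖ ^ 2 + chh p ^ 2 = 1 := normSq_S2 p.2.1
  rw [Prod.dist_eq, max_lt_iff]
  constructor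
  · refine lt_of_pow_lt_pow_left₀ 2 he.le ?_
    rw [distSq_south2]
    nlinarith
  · refine lt_of_pow_lt_pow_left₀ 2 he.le ?_
    rw [distSq_north6, h.1, h.2.1]
    simpa using pow_pos he 2

lemma escape (hc : CoreSpec α Ψ r₁) {e : ℝ} (he : 0 < e) :
    ∃ N : ℕ, ∀ p, InA r₁ p → ∀ j, N ≤ j →
      InA r₁ ((gF hc)^[j] p) ∧ chh ((gF hc)^[j] p) < -1 + e := by
  have hF : Continuous (gF hc) := (contMDiff_gF hc).continuous
  have hch : Continuous chh := by unfold chh; fun_prop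
  have hcz : Continuous cz := by unfold cz; fun_prop
  have hce : Continuous ce := by unfold ce; fun_prop
  have hck : Continuous ck := by unfold ck; fun_prop
  have hK : IsClosed {p : M | InA r₁ p ∧ -1 + e ≤ chh p} := by
    refine IsClosed.inter (IsClosed.inter (isClosed_eq hce continuous_const)
      (IsClosed.inter (isClosed_eq hck continuous_const)
        (isClosed_le (continuous_const.mul hch) hcz.norm))) (isClosed_le continuous_const hch)
  obtain ⟨δ, hδ0, hδ⟩ := hK.isCompact.exists_forall_le' (f := fun p => chh p - chh (gF hc p))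
    (a := 0) (hch.sub (hch.comp hF)).continuousOn
    (fun p hp => sub_pos.2 ((hp.1.height hc).2 (by linarith [hp.2])))
  have key : ∀ p, InA r₁ p → ∀ j : ℕ, InA r₁ ((gF hc)^[j] p) ∧
      (chh ((gF hc)^[j] p) < -1 + e ∨ chh ((gF hc)^[j] p) ≤ 1 - j * δ) := by
    intro p hp j
    induction j with
    | zero => exact ⟨hp, Or.inr (by simpa using S2_snd_le p.2.1)⟩
    | succ j ih =>
      rw [Function.iterate_succ_apply']
      obtain ⟨h1, h2⟩ := ih
      refine ⟨h1.map hc, ?_⟩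
      rcases lt_or_ge (chh ((gF hc)^[j] p)) (-1 + e) with h3 | h3
      · exact Or.inl ((h1.height hc).1.trans_lt h3)
      · right
        have h4 := hδ _ ⟨h1, h3⟩
        have h5 : chh ((gF hc)^[j] p) ≤ 1 - j * δ := h2.resolve_left (not_lt.2 h3)
        push_cast
        linarith
  obtain ⟨N, hN⟩ := exists_nat_gt (2 / δ)
  refine ⟨N, fun p hp j hj => ⟨(key p hp j).1, (key p hp j).2.resolve_right fun h => ?_⟩⟩
  have h1 : -1 ≤ chh ((gF hc)^[j] p) := S2_snd_ge _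
  have h2 : (N : ℝ) ≤ j := by exact_mod_cast hj
  rw [div_lt_iff₀ hδ0] at hN
  nlinarith

lemma arg_iterate (hc : CoreSpec α Ψ r₁) (z : M) (j : ℕ) :
    ((Complex.arg (((gF hc)^[j] z).1 : ℂ) : ℝ) : Real.Angle)
      = ((Complex.arg (z.1 : ℂ) + j * (2 * Real.pi * α) : ℝ) : Real.Angle) := by
  induction j with
  | zero => simp
  | succ j ih =>
    rw [Function.iterate_succ_apply']
    have e : (gF hc ((gF hc)^[j] z)).1 = Circle.exp (2 * Real.pi * α) * ((gF hc)^[j] z).1 := rfl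
    rw [e, Circle.coe_mul, Complex.arg_mul_coe_angle (Circle.coe_ne_zero _) (Circle.coe_ne_zero _),
      ih, Circle.coe_exp, Complex.arg_exp_mul_I, Real.Angle.coe_toIocMod, ← Real.Angle.coe_add]
    congr 1
    push_cast
    ring

lemma inner_small (hc : CoreSpec α Ψ r₁) {e : ℝ} (he : 0 < e) :
    ∃ N : ℕ, ∀ (z : M) (n : ℕ), (∀ j ≤ n, InN ((gF hc)^[j] z)) →
      ∀ j, N ≤ j → j + N ≤ n → ‖gW (gCrd ((gF hc)^[j] z))‖ < e := by
  obtain ⟨N, hN⟩ := hc.2.2.2.2.2.2 e he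
  refine ⟨N, fun z n hz => hN (Complex.arg (z.1 : ℂ) / (2 * Real.pi))
    (fun j => gW (gCrd ((gF hc)^[j] z))) n (fun j hj => (hz j hj).norm_gW) fun j hj => ?_⟩
  have h1 := hz j hj.le
  have h2 := hz (j + 1) hj
  rw [Function.iterate_succ_apply'] at h2
  rw [Function.iterate_succ_apply', gF_gW hc h1 h2, gPsi,
    gPsi_angle hc.2.2.2.1 (arg_iterate hc z j)]
  congr 2
  have : Real.pi ≠ 0 := Real.pi_ne_zero
  field_simp

lemma twoPoint_gF (hc : CoreSpec α Ψ r₁) :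
    TwoPointSpec (gF hc) (north2, north6) (south2, north6) := by
  classical
  intro ε hε
  obtain ⟨N₀, h₀⟩ := inner_small hc (e := ε / 2) (by positivity)
  obtain ⟨N₁, h₁⟩ := escape hc (e := ε ^ 2 / 2) (by positivity)
  refine ⟨2 * N₀ + N₁ + 2, fun z n => ?_⟩
  have hex : ∃ k, InA r₁ ((gF hc)^[k] z) ∨ n ≤ k := ⟨n, Or.inr le_rfl⟩
  set m := Nat.find hex with hm
  have hP : InA r₁ ((gF hc)^[m] z) ∨ n ≤ m := Nat.find_spec hex
  have hlt : ∀ k < m, ¬InA r₁ ((gF hc)^[k] z) := fun k hk h => Nat.find_min hex hk (Or.inl h)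
  refine ⟨m, Finset.range (N₀ + 1) ∪ Finset.Ico (m - N₀ - 1) (m + N₁), ?_, fun k hk hs => ?_⟩
  · refine (Finset.card_union_le _ _).trans ?_
    rw [Finset.card_range, Nat.card_Ico]
    omega
  · simp only [Finset.mem_union, Finset.mem_range, Finset.mem_Ico, not_or, not_and, not_lt] at hs
    constructor
    · intro hkm
      have hN : ∀ j ≤ m - 2, InN ((gF hc)^[j] (gF hc z)) := by
        intro j hj
        have h3 := hlt (j + 1) (by omega)
        rw [← Function.iterate_succ_apply]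
        rw [Function.iterate_succ_apply'] at h3 ⊢
        exact (gF_mem hc _).resolve_right h3
      obtain ⟨j, rfl⟩ : ∃ j, k = j + 1 := ⟨k - 1, by omega⟩
      have h4 := h₀ (gF hc z) (m - 2) hN j (by omega) (by omega)
      have h5 := (hN j (by omega)).dist_lt h4
      rw [Function.iterate_succ_apply]
      linarith
    · intro hmk
      have hA : InA r₁ ((gF hc)^[m] z) := hP.resolve_right (by omega)
      obtain ⟨j, rfl⟩ : ∃ j, k = j + m := ⟨k - m, by omega⟩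
      rw [Function.iterate_add_apply]
      obtain ⟨a1, a2⟩ := h₁ _ hA j (by omega)
      exact a1.dist_lt hε a2

/-- The embedded two-sphere. -/
def gI : C(S2, M) := ⟨fun x => (1, x, north6), by fun_prop⟩

lemma gB_homotopy_ne (p : M) (s : ℝ) : (1 - s) • gB Ψ p + s • (north6 : E6) ≠ 0 := fun h => by
  have : (1 - s) * 1 + s * 1 = 0 := congrArg WithLp.snd h
  linarith

lemma gNrm_congr {E : Type*} [NormedAddCommGroup E] [NormedSpace ℝ E] {v w : E} (h : v = w)
    (hv : v ≠ 0) (hw : w ≠ 0) : gNrm v hv = gNrm w hw := by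
  subst h; rfl

lemma gNrm_eq {E : Type*} [NormedAddCommGroup E] [NormedSpace ℝ E] {v : E}
    (x : sphere (0 : E) 1) (h : v = x) (hv : v ≠ 0) : gNrm v hv = x := by
  subst h
  apply Subtype.ext
  simp [gNrm]

lemma homotopic_gF (hc : CoreSpec α Ψ r₁) :
    ((⟨gF hc, (contMDiff_gF hc).continuous⟩ : C(M, M)).comp gI).Homotopic (gI.comp dbl) := by
  have hA : Continuous (gA Ψ) := (contMDiff_gA hc.2.2.1 hc.2.2.2.1).continuous
  have hB : Continuous (gB Ψ) := (contMDiff_gB hc.2.2.1 hc.2.2.2.1).continuous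
  have c0 : Continuous fun q : unitInterval × S2 => (dbl q.2 : E2) :=
    continuous_subtype_val.comp (dbl.continuous.comp continuous_snd)
  have c0' : Continuous fun q : unitInterval × S2 => gA Ψ (gI q.2) :=
    hA.comp (gI.continuous.comp continuous_snd)
  have c1 : Continuous fun q : unitInterval × S2 =>
      (1 - (q.1 : ℝ)) • gA Ψ (gI q.2) + (q.1 : ℝ) • (dbl (gI q.2).2.1 : E2) :=
    (Continuous.smul (f := fun q : unitInterval × S2 => 1 - (q.1 : ℝ)) (by fun_prop) c0').add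
      (Continuous.smul (f := fun q : unitInterval × S2 => (q.1 : ℝ)) (by fun_prop) c0)
  have c2 : Continuous fun q : unitInterval × S2 =>
      (1 - (q.1 : ℝ)) • gB Ψ (gI q.2) + (q.1 : ℝ) • (north6 : E6) := by fun_prop
  refine ⟨⟨⟨fun q => (Circle.exp (2 * Real.pi * α * (1 - (q.1 : ℝ))),
    gNrm _ (gA_homotopy_ne hc (gI q.2) q.1 q.1.2.1 q.1.2.2),
    gNrm _ (gB_homotopy_ne (Ψ := Ψ) (gI q.2) q.1)), ?_⟩, fun x => ?_, fun x => ?_⟩⟩
  · exact Continuous.prodMk (by fun_prop)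
      ((continuous_gNrm c1 _).prodMk (continuous_gNrm c2 _))
  · refine Prod.ext ?_ (Prod.ext ?_ ?_)
    · simp [gF, gI]
    · exact gNrm_congr (by simp) (gA_homotopy_ne hc (gI x) 0 le_rfl zero_le_one) (gA_ne hc (gI x))
    · exact gNrm_congr (by simp) (gB_homotopy_ne (gI x) 0) (gB_ne (gI x))
  · refine Prod.ext ?_ (Prod.ext ?_ ?_)
    · simp [gI]
    · exact gNrm_eq (dbl x) (by simp [gI]) (gA_homotopy_ne hc (gI x) 1 zero_le_one le_rfl)
    · exact gNrm_eq north6 (by simp) (gB_homotopy_ne (gI x) 1)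

theorem global {α : ℝ} {Ψ : ℝ × (ℂ × V3) → ℂ × V3} {r₁ : ℝ} (h : CoreSpec α Ψ r₁) :
    ∃ (F : C(M, M)) (w : Circle) (p₀ p₁ : S2 × S6) (i : C(S2, M)),
      ContMDiff IM IM 1 F ∧ (∀ p, (F p).1 = w * p.1) ∧ TwoPointSpec F p₀ p₁ ∧
      (∀ x, (i x).2.1 = x) ∧ (F.comp i).Homotopic (i.comp dbl) :=
  ⟨⟨gF h, (contMDiff_gF h).continuous⟩, Circle.exp (2 * Real.pi * α), (north2, north6),
    (south2, north6), gI, contMDiff_gF h, fun _ => rfl, twoPoint_gF h, fun _ => rfl,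
    homotopic_gF h⟩

end Crest.Agent.R123
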