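import Crest.Agent.R123.Defs

/-!
# Row 123: the global map, definitions and smoothness
-/

set_option autoImplicit false

noncomputable section

open scoped Manifold ContDiff

namespace Crest.Agent.R123

open Metric

local notation "ST" => Real.smoothTransition

/-- A smooth positive function equal to `1 / h` for `h ≥ 1 / 2`. -/
def gRho (h : ℝ) : ℝ := (h + 2 * ST (1 - 2 * h))⁻¹

/-- The cut-off function. -/
def gChi (h k : ℝ) : ℝ := ST (4 * h - 2) * ST (4 * k - 2)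

/-- The unnormalised height. -/
def gH (h : ℝ) : ℝ := 1 - 34 * ST (6 - 8 * h)

/-- The periodic map as a function of a point of the circle. -/
def gPsi (Ψ : ℝ × (ℂ × V3) → ℂ × V3) (τ : ℂ) (w : ℂ × V3) : ℂ × V3 :=
  Ψ (Complex.arg τ / (2 * Real.pi), w)

/-- Ambient coordinates. -/
abbrev GQ : Type := ℂ × (ℂ × ℝ) × (V3 × ℝ)

/-- Cut-off gnomonic coordinates. -/
def gW (q : GQ) : ℂ × V3 := (gRho q.2.1.2 • q.2.1.1, gRho q.2.2.2 • q.2.2.1)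

/-- The unnormalised first fibre coordinate. -/
def gU (Ψ : ℝ × (ℂ × V3) → ℂ × V3) (q : GQ) : ℂ :=
  gChi q.2.1.2 q.2.2.2 • (gPsi Ψ q.1 (gW q)).1
    + (1 - gChi q.2.1.2 q.2.2.2) • ((32 : ℝ) • q.2.1.1 ^ 2)

/-- The unnormalised second fibre coordinate. -/
def gV (Ψ : ℝ × (ℂ × V3) → ℂ × V3) (q : GQ) : V3 :=
  gChi q.2.1.2 q.2.2.2 • (gPsi Ψ q.1 (gW q)).2

/-- Coordinates of a point of `M`. -/
def gCrd (p : M) : GQ :=
  ((p.1 : ℂ), ((p.2.1 : E2).fst, (p.2.1 : E2).snd), ((p.2.2 : E6).fst, (p.2.2 : E6).snd))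

lemma gRho_den_pos {h : ℝ} (hh : -1 ≤ h) : 0 < h + 2 * ST (1 - 2 * h) := by
  rcases le_or_gt h 0 with h0 | h0
  · rw [Real.smoothTransition.one_of_one_le (by linarith)]; linarith
  · have := Real.smoothTransition.nonneg (1 - 2 * h); linarith

lemma gRho_eq {h : ℝ} (hh : 1 / 2 ≤ h) : gRho h = h⁻¹ := by
  unfold gRho
  rw [Real.smoothTransition.zero_of_nonpos (by linarith)]; simp

lemma gChi_nonneg (h k : ℝ) : 0 ≤ gChi h k :=
  mul_nonneg (Real.smoothTransition.nonneg _) (Real.smoothTransition.nonneg _)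

lemma gChi_le_one (h k : ℝ) : gChi h k ≤ 1 :=
  mul_le_one₀ (Real.smoothTransition.le_one _) (Real.smoothTransition.nonneg _)
    (Real.smoothTransition.le_one _)

lemma gChi_eq_one {h k : ℝ} (hh : 3 / 4 ≤ h) (hk : 3 / 4 ≤ k) : gChi h k = 1 := by
  unfold gChi
  rw [Real.smoothTransition.one_of_one_le (by linarith),
    Real.smoothTransition.one_of_one_le (by linarith), one_mul]

lemma gChi_eq_zero {h k : ℝ} (hh : h ≤ 1 / 2 ∨ k ≤ 1 / 2) : gChi h k = 0 := by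
  unfold gChi
  rcases hh with hh | hh
  · rw [Real.smoothTransition.zero_of_nonpos (x := 4 * h - 2) (by linarith), zero_mul]
  · rw [Real.smoothTransition.zero_of_nonpos (x := 4 * k - 2) (by linarith), mul_zero]

lemma gH_eq_one {h : ℝ} (hh : 3 / 4 ≤ h) : gH h = 1 := by
  unfold gH
  rw [Real.smoothTransition.zero_of_nonpos (by linarith)]; simp

lemma gH_eq_neg {h : ℝ} (hh : h ≤ 5 / 8) : gH h = -33 := by
  unfold gH
  rw [Real.smoothTransition.one_of_one_le (by linarith)]; norm_num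

lemma gH_le_one (h : ℝ) : gH h ≤ 1 := by
  unfold gH
  have := Real.smoothTransition.nonneg (6 - 8 * h); linarith

lemma gPsi_angle {Ψ : ℝ × (ℂ × V3) → ℂ × V3} (hper : ∀ t w, Ψ (t + 1, w) = Ψ (t, w))
    {a b : ℝ} (hab : (a : Real.Angle) = b) (w : ℂ × V3) :
    Ψ (a / (2 * Real.pi), w) = Ψ (b / (2 * Real.pi), w) := by
  obtain ⟨k, hk⟩ := Real.Angle.angle_eq_iff_two_pi_dvd_sub.1 hab
  have hp : Function.Periodic (fun t => Ψ (t, w)) 1 := fun t => hper t w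
  have h1 := hp.int_mul k (b / (2 * Real.pi))
  have e : a / (2 * Real.pi) = b / (2 * Real.pi) + k * 1 := by
    have : Real.pi ≠ 0 := Real.pi_ne_zero
    field_simp
    linarith
  rw [e]; exact h1

lemma contDiffAt_gPsi {Ψ : ℝ × (ℂ × V3) → ℂ × V3} (hΨ : ContDiff ℝ 1 Ψ)
    (hper : ∀ t w, Ψ (t + 1, w) = Ψ (t, w)) (z : ℂ × (ℂ × V3)) (hz : z.1 ≠ 0) :
    ContDiffAt ℝ 1 (fun z : ℂ × (ℂ × V3) => gPsi Ψ z.1 z.2) z := by
  obtain ⟨τ₀, w₀⟩ := z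
  have hz' : τ₀ ≠ 0 := hz
  have hev : (fun z : ℂ × (ℂ × V3) => gPsi Ψ z.1 z.2) =ᶠ[nhds (τ₀, w₀)]
      fun z => Ψ ((Complex.arg τ₀ + (Complex.log (z.1 / τ₀)).im) / (2 * Real.pi), z.2) := by
    have h1 : ∀ᶠ z : ℂ × (ℂ × V3) in nhds (τ₀, w₀), z.1 ≠ 0 :=
      continuous_fst.continuousAt.eventually_ne hz'
    filter_upwards [h1] with z hz
    unfold gPsi
    refine gPsi_angle hper ?_ _
    rw [Complex.log_im, Real.Angle.coe_add, Complex.arg_div_coe_angle hz hz']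
    abel
  refine ContDiffAt.congr_of_eventuallyEq ?_ hev
  have hlog : ContDiffAt ℝ 1 (fun z : ℂ × (ℂ × V3) => Complex.log (z.1 / τ₀)) (τ₀, w₀) := by
    have h1 : ContDiffAt ℝ 1 Complex.log ((τ₀, w₀).1 / τ₀) := by
      refine (Complex.contDiffAt_log ?_).restrict_scalars ℝ
      simp [div_self hz']
    exact ContDiffAt.comp (g := Complex.log) (f := fun z : ℂ × (ℂ × V3) => z.1 / τ₀) (τ₀, w₀) h1
      (by fun_prop)
  have him : ContDiffAt ℝ 1 (fun z : ℂ × (ℂ × V3) => (Complex.log (z.1 / τ₀)).im) (τ₀, w₀) :=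
    Complex.imCLM.contDiff.contDiffAt.comp (τ₀, w₀) hlog
  exact hΨ.contDiffAt.comp (τ₀, w₀) (((contDiffAt_const.add him).div_const _).prodMk contDiffAt_snd)

lemma contDiffAt_gRho {h : ℝ} (hh : -1 ≤ h) : ContDiffAt ℝ 1 gRho h := by
  unfold gRho
  refine ContDiffAt.inv ?_ (gRho_den_pos hh).ne'
  have : ContDiff ℝ 1 Real.smoothTransition := Real.smoothTransition.contDiff (n := 1)
  fun_prop

lemma contDiff_gChi : ContDiff ℝ 1 fun q : GQ => gChi q.2.1.2 q.2.2.2 := by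
  unfold gChi
  have : ContDiff ℝ 1 Real.smoothTransition := Real.smoothTransition.contDiff (n := 1)
  fun_prop

lemma contDiff_gH : ContDiff ℝ 1 gH := by
  unfold gH
  have : ContDiff ℝ 1 Real.smoothTransition := Real.smoothTransition.contDiff (n := 1)
  fun_prop

lemma contDiffAt_gW (q : GQ) (h1 : -1 ≤ q.2.1.2) (h2 : -1 ≤ q.2.2.2) : ContDiffAt ℝ 1 gW q := by
  unfold gW
  have a1 : ContDiffAt ℝ 1 (fun q : GQ => gRho q.2.1.2) q :=
    ContDiffAt.comp (g := gRho) (f := fun q : GQ => q.2.1.2) q (contDiffAt_gRho h1) (by fun_prop)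
  have a2 : ContDiffAt ℝ 1 (fun q : GQ => gRho q.2.2.2) q :=
    ContDiffAt.comp (g := gRho) (f := fun q : GQ => q.2.2.2) q (contDiffAt_gRho h2) (by fun_prop)
  exact (a1.smul (by fun_prop)).prodMk (a2.smul (by fun_prop))

lemma contDiffAt_gPsiW {Ψ : ℝ × (ℂ × V3) → ℂ × V3} (hΨ : ContDiff ℝ 1 Ψ)
    (hper : ∀ t w, Ψ (t + 1, w) = Ψ (t, w)) (q : GQ) (h0 : q.1 ≠ 0) (h1 : -1 ≤ q.2.1.2)
    (h2 : -1 ≤ q.2.2.2) : ContDiffAt ℝ 1 (fun q : GQ => gPsi Ψ q.1 (gW q)) q :=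
  ContDiffAt.comp (g := fun z : ℂ × (ℂ × V3) => gPsi Ψ z.1 z.2) (f := fun q : GQ => (q.1, gW q)) q
    (contDiffAt_gPsi hΨ hper (q.1, gW q) h0) (contDiffAt_fst.prodMk (contDiffAt_gW q h1 h2))

lemma contDiffAt_gU {Ψ : ℝ × (ℂ × V3) → ℂ × V3} (hΨ : ContDiff ℝ 1 Ψ)
    (hper : ∀ t w, Ψ (t + 1, w) = Ψ (t, w)) (q : GQ) (h0 : q.1 ≠ 0) (h1 : -1 ≤ q.2.1.2)
    (h2 : -1 ≤ q.2.2.2) : ContDiffAt ℝ 1 (gU Ψ) q := by
  unfold gU
  have a1 := contDiffAt_gPsiW hΨ hper q h0 h1 h2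
  have a2 := contDiff_gChi.contDiffAt (x := q)
  exact (a2.smul a1.fst).add ((contDiffAt_const.sub a2).smul (by fun_prop))

lemma contDiffAt_gV {Ψ : ℝ × (ℂ × V3) → ℂ × V3} (hΨ : ContDiff ℝ 1 Ψ)
    (hper : ∀ t w, Ψ (t + 1, w) = Ψ (t, w)) (q : GQ) (h0 : q.1 ≠ 0) (h1 : -1 ≤ q.2.1.2)
    (h2 : -1 ≤ q.2.2.2) : ContDiffAt ℝ 1 (gV Ψ) q := by
  unfold gV
  have a1 := contDiffAt_gPsiW hΨ hper q h0 h1 h2
  have a2 := contDiff_gChi.contDiffAt (x := q)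
  exact a2.smul a1.snd

lemma contMDiff_gCrd : ContMDiff IM 𝓘(ℝ, GQ) 1 gCrd := by
  have h1 : ContMDiff IM 𝓘(ℝ, ℂ) 1 fun p : M => (p.1 : ℂ) := by
    have : Fact (Module.finrank ℝ ℂ = 1 + 1) := finrank_real_complex_fact'
    exact (contMDiff_coe_sphere (E := ℂ) (n := 1)).comp contMDiff_fst
  have h2 : ContMDiff IM 𝓘(ℝ, E2) 1 fun p : M => (p.2.1 : E2) :=
    (contMDiff_coe_sphere (E := E2) (n := 2)).comp (contMDiff_fst.comp contMDiff_snd)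
  have h3 : ContMDiff IM 𝓘(ℝ, E6) 1 fun p : M => (p.2.2 : E6) :=
    (contMDiff_coe_sphere (E := E6) (n := 6)).comp (contMDiff_snd.comp contMDiff_snd)
  have h2' : ContMDiff IM 𝓘(ℝ, ℂ × ℝ) 1 fun p : M => ((p.2.1 : E2).fst, (p.2.1 : E2).snd) :=
    (WithLp.prodContinuousLinearEquiv 2 ℝ ℂ ℝ).contDiff.contMDiff.comp h2
  have h3' : ContMDiff IM 𝓘(ℝ, V3 × ℝ) 1 fun p : M => ((p.2.2 : E6).fst, (p.2.2 : E6).snd) :=
    (WithLp.prodContinuousLinearEquiv 2 ℝ V3 ℝ).contDiff.contMDiff.comp h3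
  exact h1.prodMk_space (h2'.prodMk_space h3')

lemma S2_snd_ge (x : S2) : -1 ≤ (x : E2).snd := by
  have := normSq_S2 x
  nlinarith [sq_nonneg ‖(x : E2).fst‖]

lemma S2_snd_le (x : S2) : (x : E2).snd ≤ 1 := by
  have := normSq_S2 x
  nlinarith [sq_nonneg ‖(x : E2).fst‖]

lemma S6_snd_ge (x : S6) : -1 ≤ (x : E6).snd := by
  have := normSq_S6 x
  nlinarith [sq_nonneg ‖(x : E6).fst‖]

lemma S6_snd_le (x : S6) : (x : E6).snd ≤ 1 := by
  have := normSq_S6 x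
  nlinarith [sq_nonneg ‖(x : E6).fst‖]

/-- The unnormalised point over the two-sphere. -/
def gA (Ψ : ℝ × (ℂ × V3) → ℂ × V3) (p : M) : E2 :=
  WithLp.toLp 2 (gU Ψ (gCrd p), gH (p.2.1 : E2).snd)

/-- The unnormalised point over the six-sphere. -/
def gB (Ψ : ℝ × (ℂ × V3) → ℂ × V3) (p : M) : E6 := WithLp.toLp 2 (gV Ψ (gCrd p), (1 : ℝ))

lemma contMDiff_gA {Ψ : ℝ × (ℂ × V3) → ℂ × V3} (hΨ : ContDiff ℝ 1 Ψ)
    (hper : ∀ t w, Ψ (t + 1, w) = Ψ (t, w)) : ContMDiff IM 𝓘(ℝ, E2) 1 (gA Ψ) := by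
  intro p
  have h1 : ContDiffAt ℝ 1 (fun q : GQ => (WithLp.toLp 2 (gU Ψ q, gH q.2.1.2) : E2)) (gCrd p) :=
    (WithLp.prodContinuousLinearEquiv 2 ℝ ℂ ℝ).symm.contDiff.contDiffAt.comp (gCrd p)
      ((contDiffAt_gU hΨ hper (gCrd p) (Circle.coe_ne_zero p.1) (S2_snd_ge p.2.1)
        (S6_snd_ge p.2.2)).prodMk (contDiff_gH.contDiffAt.comp (gCrd p) (by fun_prop)))
  exact h1.contMDiffAt.comp p (contMDiff_gCrd p)

lemma contMDiff_gB {Ψ : ℝ × (ℂ × V3) → ℂ × V3} (hΨ : ContDiff ℝ 1 Ψ)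
    (hper : ∀ t w, Ψ (t + 1, w) = Ψ (t, w)) : ContMDiff IM 𝓘(ℝ, E6) 1 (gB Ψ) := by
  intro p
  have h1 : ContDiffAt ℝ 1 (fun q : GQ => (WithLp.toLp 2 (gV Ψ q, (1 : ℝ)) : E6)) (gCrd p) :=
    (WithLp.prodContinuousLinearEquiv 2 ℝ V3 ℝ).symm.contDiff.contDiffAt.comp (gCrd p)
      ((contDiffAt_gV hΨ hper (gCrd p) (Circle.coe_ne_zero p.1) (S2_snd_ge p.2.1)
        (S6_snd_ge p.2.2)).prodMk contDiffAt_const)
  exact h1.contMDiffAt.comp p (contMDiff_gCrd p)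

/-- Normalisation of a non-zero vector. -/
def gNrm {E : Type*} [NormedAddCommGroup E] [NormedSpace ℝ E] (v : E) (hv : v ≠ 0) :
    sphere (0 : E) 1 :=
  ⟨‖v‖⁻¹ • v, by
    rw [mem_sphere_zero_iff_norm, norm_smul, norm_inv, norm_norm,
      inv_mul_cancel₀ (norm_ne_zero_iff.2 hv)]⟩

lemma contMDiff_gNrm {E : Type*} [NormedAddCommGroup E] [InnerProductSpace ℝ E] {n : ℕ}
    [Fact (Module.finrank ℝ E = n + 1)] {f : M → E} (hf : ContMDiff IM 𝓘(ℝ, E) 1 f)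
    (h0 : ∀ p, f p ≠ 0) : ContMDiff IM (𝓡 n) 1 fun p => gNrm (f p) (h0 p) := by
  have h1 : ContMDiff IM 𝓘(ℝ, E) 1 fun p => ‖f p‖⁻¹ • f p := by
    intro p
    have h2 : ContDiffAt ℝ 1 (fun v : E => ‖v‖⁻¹ • v) (f p) :=
      ((contDiffAt_norm ℝ (h0 p)).inv (norm_ne_zero_iff.2 (h0 p))).smul contDiffAt_id
    exact h2.contMDiffAt.comp p (hf p)
  exact h1.codRestrict_sphere fun p => (gNrm (f p) (h0 p)).2

lemma continuous_gNrm {X E : Type*} [TopologicalSpace X] [NormedAddCommGroup E] [NormedSpace ℝ E]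
    {f : X → E} (hf : Continuous f) (h0 : ∀ p, f p ≠ 0) :
    Continuous fun p => gNrm (f p) (h0 p) :=
  Continuous.subtype_mk ((hf.norm.inv₀ fun p => norm_ne_zero_iff.2 (h0 p)).smul hf) _

end Crest.Agent.R123
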