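import Crest.Agent.R123.Global1

/-!
# Row 123: the global map, pointwise properties
-/

set_option autoImplicit false

noncomputable section

open scoped Manifold ContDiff

namespace Crest.Agent.R123

open Metric

variable {α : ℝ} {Ψ : ℝ × (ℂ × V3) → ℂ × V3} {r₁ : ℝ}

/-- First coordinate on the two-sphere. -/
abbrev cz (p : M) : ℂ := (p.2.1 : E2).fst
/-- Height on the two-sphere. -/
abbrev chh (p : M) : ℝ := (p.2.1 : E2).snd
/-- First coordinate on the six-sphere. -/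
abbrev ce (p : M) : V3 := (p.2.2 : E6).fst
/-- Height on the six-sphere. -/
abbrev ck (p : M) : ℝ := (p.2.2 : E6).snd

lemma gW_eq (p : M) (hh : 1 / 2 ≤ chh p) (hk : 1 / 2 ≤ ck p) :
    gW (gCrd p) = ((chh p)⁻¹ • cz p, (ck p)⁻¹ • ce p) := by
  simp only [gW, gCrd]
  rw [gRho_eq hh, gRho_eq hk]

lemma gU_of_chi_zero (p : M) (h : chh p ≤ 1 / 2 ∨ ck p ≤ 1 / 2) :
    gU Ψ (gCrd p) = (32 : ℝ) • cz p ^ 2 ∧ gV Ψ (gCrd p) = 0 := by
  have h0 : gChi (gCrd p).2.1.2 (gCrd p).2.2.2 = 0 := gChi_eq_zero h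
  constructor
  · unfold gU; rw [h0]; simp [gCrd]
  · unfold gV; rw [h0]; simp

lemma gU_of_chi_one (p : M) (hh : 3 / 4 ≤ chh p) (hk : 3 / 4 ≤ ck p) :
    gU Ψ (gCrd p) = (gPsi Ψ p.1 (gW (gCrd p))).1 ∧
      gV Ψ (gCrd p) = (gPsi Ψ p.1 (gW (gCrd p))).2 := by
  have h0 : gChi (gCrd p).2.1.2 (gCrd p).2.2.2 = 1 := gChi_eq_one hh hk
  constructor
  · unfold gU; rw [h0]; simp [gCrd]
  · unfold gV; rw [h0]; simp [gCrd]

lemma g_outer (hc : CoreSpec α Ψ r₁) (p : M)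
    (hout : chh p < 3 / 4 ∨ ck p < 3 / 4 ∨ r₁ ≤ ‖gW (gCrd p)‖) :
    ∃ c : ℝ, 0 < c ∧ gU Ψ (gCrd p) = c • cz p ^ 2 ∧ gV Ψ (gCrd p) = 0 ∧
      (ce p = 0 → ck p = 1 → 1 / 2 ≤ chh p → 8 ≤ c * ‖cz p‖ * chh p) := by
  obtain ⟨hr0, hr1, -, -, -, hout', -⟩ := hc
  have hS2 : ‖cz p‖ ^ 2 + chh p ^ 2 = 1 := normSq_S2 p.2.1
  have hS6 : ‖ce p‖ ^ 2 + ck p ^ 2 = 1 := normSq_S6 p.2.2
  have hz0 := norm_nonneg (cz p)
  have he0 := norm_nonneg (ce p)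
  have h32 : 1 / 2 ≤ chh p → chh p < 3 / 4 → 8 ≤ 32 * ‖cz p‖ * chh p := by
    intro h1 h2
    have : 1 / 2 ≤ ‖cz p‖ := by nlinarith
    nlinarith
  by_cases h0 : chh p ≤ 1 / 2 ∨ ck p ≤ 1 / 2
  · obtain ⟨h1, h2⟩ := gU_of_chi_zero (Ψ := Ψ) p h0
    refine ⟨32, by norm_num, h1, h2, fun _ hk hh => h32 hh ?_⟩
    rcases h0 with h0 | h0 <;> linarith
  · push Not at h0
    obtain ⟨hh, hk⟩ := h0
    have hh0 : 0 < chh p := by linarith
    have hk0 : 0 < ck p := by linarith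
    have hW := gW_eq p hh.le hk.le
    have hn1 : ‖(chh p)⁻¹ • cz p‖ = (chh p)⁻¹ * ‖cz p‖ := by
      rw [norm_smul, Real.norm_eq_abs, abs_of_pos (inv_pos.2 hh0)]
    have hn2 : ‖(ck p)⁻¹ • ce p‖ = (ck p)⁻¹ * ‖ce p‖ := by
      rw [norm_smul, Real.norm_eq_abs, abs_of_pos (inv_pos.2 hk0)]
    have hr : r₁ ≤ ‖gW (gCrd p)‖ := by
      rcases hout with h | h | h
      · refine le_trans ?_ (norm_fst_le _)
        rw [hW]
        change r₁ ≤ ‖(chh p)⁻¹ • cz p‖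
        rw [hn1, le_inv_mul_iff₀ hh0]
        have : 1 / 2 ≤ ‖cz p‖ := by nlinarith
        nlinarith
      · refine le_trans ?_ (norm_snd_le _)
        rw [hW]
        change r₁ ≤ ‖(ck p)⁻¹ • ce p‖
        rw [hn2, le_inv_mul_iff₀ hk0]
        have : 1 / 2 ≤ ‖ce p‖ := by nlinarith
        nlinarith
      · exact h
    obtain ⟨c, hc0, hΨ, hc8⟩ := hout' (Complex.arg (p.1 : ℂ) / (2 * Real.pi)) _ hr
    have hΨ' : gPsi Ψ (gCrd p).1 (gW (gCrd p)) = (c • (gW (gCrd p)).1 ^ 2, 0) := hΨ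
    set χ := gChi (gCrd p).2.1.2 (gCrd p).2.2.2 with hχ
    have hχ0 : 0 ≤ χ := gChi_nonneg _ _
    have hχ1 : χ ≤ 1 := gChi_le_one _ _
    have hc1 : 0 < c * (chh p)⁻¹ ^ 2 := by positivity
    refine ⟨χ * (c * (chh p)⁻¹ ^ 2) + (1 - χ) * 32, ?_, ?_, ?_, ?_⟩
    · rcases eq_or_lt_of_le hχ0 with h | h
      · rw [← h]; norm_num
      · have := mul_pos h hc1
        nlinarith
    · unfold gU
      rw [← hχ, hΨ', hW]
      simp only [gCrd, smul_pow, smul_smul, add_smul]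
    · unfold gV
      rw [hΨ']; simp
    · intro he hk1 hh1
      have h8 : 8 ≤ c * ((chh p)⁻¹ * ‖cz p‖) := by
        have := hc8 (by rw [hW, he]; simp)
        rw [hW] at this
        rwa [← hn1]
      have h8' : 8 ≤ c * (chh p)⁻¹ ^ 2 * ‖cz p‖ * chh p := by
        have e : c * (chh p)⁻¹ ^ 2 * ‖cz p‖ * chh p = c * ((chh p)⁻¹ * ‖cz p‖) := by
          field_simp
        rw [e]; exact h8
      rcases lt_or_ge (chh p) (3 / 4) with h34 | h34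
      · have := h32 hh1 h34
        have e : (χ * (c * (chh p)⁻¹ ^ 2) + (1 - χ) * 32) * ‖cz p‖ * chh p
            = χ * (c * (chh p)⁻¹ ^ 2 * ‖cz p‖ * chh p) + (1 - χ) * (32 * ‖cz p‖ * chh p) := by ring
        rw [e]
        nlinarith
      · have h1 : χ = 1 := gChi_eq_one h34 (by change 3 / 4 ≤ ck p; linarith)
        rw [h1]
        linarith

lemma gA_homotopy_ne (hc : CoreSpec α Ψ r₁) (p : M) (s : ℝ) (hs0 : 0 ≤ s) (hs1 : s ≤ 1) :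
    (1 - s) • gA Ψ p + s • (dbl p.2.1 : E2) ≠ 0 := by
  intro h
  have h1 : (1 - s) • gU Ψ (gCrd p) + s • sq1 (cz p) = 0 := congrArg WithLp.fst h
  have h2 : (1 - s) * gH (chh p) + s * chh p = 0 := congrArg WithLp.snd h
  have hS2 : ‖cz p‖ ^ 2 + chh p ^ 2 = 1 := normSq_S2 p.2.1
  rcases le_or_gt (3 / 4) (chh p) with h34 | h34
  · rw [gH_eq_one h34] at h2
    nlinarith
  · obtain ⟨c, hc0, hU, -, -⟩ := g_outer hc p (Or.inl h34)
    by_cases hz : cz p = 0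
    · rw [hz, norm_zero] at hS2
      have hh : chh p = -1 := by nlinarith
      rw [gH_eq_neg (by linarith), hh] at h2
      nlinarith
    · have hn : 0 < ‖cz p‖ := norm_pos_iff.2 hz
      have e : (1 - s) • gU Ψ (gCrd p) + s • sq1 (cz p)
          = ((1 - s) * c + s * ‖cz p‖⁻¹) • cz p ^ 2 := by
        rw [hU, sq1, smul_smul, add_smul, ← smul_smul s, div_eq_inv_mul]
        simp
      rw [e, smul_eq_zero] at h1
      rcases h1 with h1 | h1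
      · have a1 : 0 < ‖cz p‖⁻¹ := inv_pos.2 hn
        rcases eq_or_lt_of_le hs0 with h | h
        · rw [← h] at h1; linarith
        · have := mul_pos h a1
          have := mul_nonneg (sub_nonneg.2 hs1) hc0.le
          linarith
      · exact hz (pow_eq_zero_iff two_ne_zero |>.1 h1)

lemma gA_ne (hc : CoreSpec α Ψ r₁) (p : M) : gA Ψ p ≠ 0 := by
  simpa using gA_homotopy_ne hc p 0 le_rfl zero_le_one

lemma gB_ne (p : M) : gB Ψ p ≠ 0 := fun h => by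
  have : (1 : ℝ) = 0 := congrArg WithLp.snd h
  norm_num at this

/-- The global map. -/
def gF (hc : CoreSpec α Ψ r₁) (p : M) : M :=
  (Circle.exp (2 * Real.pi * α) * p.1, gNrm (gA Ψ p) (gA_ne hc p), gNrm (gB Ψ p) (gB_ne p))

lemma contMDiff_gF (hc : CoreSpec α Ψ r₁) : ContMDiff IM IM 1 (gF hc) := by
  have h1 : ContMDiff IM (𝓡 1) 1 fun p : M => Circle.exp (2 * Real.pi * α) * p.1 :=
    contMDiff_const.mul contMDiff_fst
  exact h1.prodMk ((contMDiff_gNrm (contMDiff_gA hc.2.2.1 hc.2.2.2.1) (gA_ne hc)).prodMk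
    (contMDiff_gNrm (contMDiff_gB hc.2.2.1 hc.2.2.2.1) gB_ne))

lemma cz_gF (hc : CoreSpec α Ψ r₁) (p : M) : cz (gF hc p) = ‖gA Ψ p‖⁻¹ • gU Ψ (gCrd p) := rfl
lemma ch_gF (hc : CoreSpec α Ψ r₁) (p : M) : chh (gF hc p) = ‖gA Ψ p‖⁻¹ * gH (chh p) := rfl
lemma ce_gF (hc : CoreSpec α Ψ r₁) (p : M) : ce (gF hc p) = ‖gB Ψ p‖⁻¹ • gV Ψ (gCrd p) := rfl
lemma ck_gF (hc : CoreSpec α Ψ r₁) (p : M) : ck (gF hc p) = ‖gB Ψ p‖⁻¹ * 1 := rfl

lemma normSq_gA (p : M) : ‖gA Ψ p‖ ^ 2 = ‖gU Ψ (gCrd p)‖ ^ 2 + gH (chh p) ^ 2 := by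
  rw [WithLp.prod_norm_sq_eq_of_L2, Real.norm_eq_abs, sq_abs]; rfl

lemma norm_gB_of_zero (p : M) (h : gV Ψ (gCrd p) = 0) : ‖gB Ψ p‖ = 1 := by
  have h1 : ‖gB Ψ p‖ ^ 2 = ‖gV Ψ (gCrd p)‖ ^ 2 + ‖(1 : ℝ)‖ ^ 2 :=
    WithLp.prod_norm_sq_eq_of_L2 (gB Ψ p)
  rw [h, norm_zero, norm_one] at h1
  have := norm_nonneg (gB Ψ p)
  nlinarith

/-- The neighbourhood of the source. -/
def InN (p : M) : Prop := 0 < chh p ∧ 0 < ck p ∧ ‖cz p‖ ≤ chh p / 2 ∧ ‖ce p‖ ≤ ck p / 2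

/-- The absorbing region. -/
def InA (r₁ : ℝ) (p : M) : Prop := ce p = 0 ∧ ck p = 1 ∧ r₁ * chh p ≤ ‖cz p‖

lemma InN.heights {p : M} (h : InN p) : 3 / 4 ≤ chh p ∧ 3 / 4 ≤ ck p := by
  obtain ⟨h1, h2, h3, h4⟩ := h
  have hS2 : ‖cz p‖ ^ 2 + chh p ^ 2 = 1 := normSq_S2 p.2.1
  have hS6 : ‖ce p‖ ^ 2 + ck p ^ 2 = 1 := normSq_S6 p.2.2
  have hz0 := norm_nonneg (cz p)
  have he0 := norm_nonneg (ce p)
  constructor <;> nlinarith

lemma InN.norm_gW {p : M} (h : InN p) : ‖gW (gCrd p)‖ ≤ 1 / 2 := by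
  obtain ⟨a1, a2⟩ := h.heights
  obtain ⟨h1, h2, h3, h4⟩ := h
  rw [gW_eq p (by linarith) (by linarith), Prod.norm_def, norm_smul, norm_smul, Real.norm_eq_abs,
    Real.norm_eq_abs, abs_of_pos (inv_pos.2 h1), abs_of_pos (inv_pos.2 h2)]
  refine max_le ?_ ?_
  · rw [inv_mul_le_iff₀ h1]; linarith
  · rw [inv_mul_le_iff₀ h2]; linarith

lemma InN.norm_lt {p : M} (h : InN p) {e : ℝ} (he : ‖gW (gCrd p)‖ < e) :
    ‖cz p‖ < e ∧ ‖ce p‖ < e := by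
  obtain ⟨a1, a2⟩ := h.heights
  obtain ⟨h1, h2, h3, h4⟩ := h
  rw [gW_eq p (by linarith) (by linarith), Prod.norm_def, norm_smul, norm_smul, Real.norm_eq_abs,
    Real.norm_eq_abs, abs_of_pos (inv_pos.2 h1), abs_of_pos (inv_pos.2 h2), max_lt_iff,
    inv_mul_lt_iff₀ h1, inv_mul_lt_iff₀ h2] at he
  have b1 : chh p ≤ 1 := S2_snd_le p.2.1
  have b2 : ck p ≤ 1 := S6_snd_le p.2.2
  have hz0 := norm_nonneg (cz p)
  have he0 : 0 < e := by nlinarith [he.1]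
  constructor <;> nlinarith [he.1, he.2]

lemma gF_gW (hc : CoreSpec α Ψ r₁) {p : M} (h : InN p) (h' : InN (gF hc p)) :
    gW (gCrd (gF hc p)) = gPsi Ψ p.1 (gW (gCrd p)) := by
  obtain ⟨a1, a2⟩ := h.heights
  obtain ⟨b1, b2⟩ := h'.heights
  obtain ⟨hU, hV⟩ := gU_of_chi_one (Ψ := Ψ) p a1 a2
  have n1 : ‖gA Ψ p‖ ≠ 0 := norm_ne_zero_iff.2 (gA_ne hc p)
  have n2 : ‖gB Ψ p‖ ≠ 0 := norm_ne_zero_iff.2 (gB_ne p)
  rw [gW_eq _ (by linarith) (by linarith), cz_gF, ch_gF, ce_gF, ck_gF, gH_eq_one a1, hU, hV]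
  simp [smul_smul, n1, n2]

lemma gF_mem (hc : CoreSpec α Ψ r₁) (p : M) : InN (gF hc p) ∨ InA r₁ (gF hc p) := by
  have n1 : 0 < ‖gA Ψ p‖⁻¹ := inv_pos.2 (norm_pos_iff.2 (gA_ne hc p))
  have n2 : 0 < ‖gB Ψ p‖⁻¹ := inv_pos.2 (norm_pos_iff.2 (gB_ne p))
  by_cases hout : chh p < 3 / 4 ∨ ck p < 3 / 4 ∨ r₁ ≤ ‖gW (gCrd p)‖
  · obtain ⟨c, -, -, hV, -⟩ := g_outer hc p hout
    have he : ce (gF hc p) = 0 := by rw [ce_gF, hV, smul_zero]
    have hk : ck (gF hc p) = 1 := by rw [ck_gF, norm_gB_of_zero p hV]; simp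
    by_cases hA : r₁ * chh (gF hc p) ≤ ‖cz (gF hc p)‖
    · exact Or.inr ⟨he, hk, hA⟩
    · left
      push Not at hA
      have hz0 := norm_nonneg (cz (gF hc p))
      have hr0 := hc.1
      have hr1 := hc.2.1
      have hh : 0 < chh (gF hc p) := by
        by_contra h
        push Not at h
        nlinarith
      refine ⟨hh, by linarith, by nlinarith, ?_⟩
      rw [he, hk]; simp
  · push Not at hout
    obtain ⟨a1, a2, a3⟩ := hout
    obtain ⟨hU, hV⟩ := gU_of_chi_one (Ψ := Ψ) p a1 a2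
    have hb : ‖gPsi Ψ p.1 (gW (gCrd p))‖ ≤ 1 / 4 := hc.2.2.2.2.1 _ _ a3.le
    have b1 := (norm_fst_le _).trans hb
    have b2 := (norm_snd_le _).trans hb
    left
    refine ⟨?_, ?_, ?_, ?_⟩
    · rw [ch_gF, gH_eq_one a1]; linarith
    · rw [ck_gF]; linarith
    · rw [cz_gF, ch_gF, gH_eq_one a1, norm_smul, Real.norm_eq_abs, abs_of_pos n1, hU]
      nlinarith
    · rw [ce_gF, ck_gF, norm_smul, Real.norm_eq_abs, abs_of_pos n2, hV]
      nlinarith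

lemma InA.outer (hc : CoreSpec α Ψ r₁) {p : M} (h : InA r₁ p) :
    chh p < 3 / 4 ∨ ck p < 3 / 4 ∨ r₁ ≤ ‖gW (gCrd p)‖ := by
  rcases lt_or_ge (chh p) (3 / 4) with h1 | h1
  · exact Or.inl h1
  · right; right
    have hh0 : 0 < chh p := by linarith
    refine le_trans ?_ (norm_fst_le _)
    rw [gW_eq p (by linarith) (by rw [h.2.1]; norm_num)]
    change r₁ ≤ ‖(chh p)⁻¹ • cz p‖
    rw [norm_smul, Real.norm_eq_abs, abs_of_pos (inv_pos.2 hh0), le_inv_mul_iff₀ hh0]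
    linarith [h.2.2]

lemma InA.norm_gU (hc : CoreSpec α Ψ r₁) {p : M} (h : InA r₁ p) (hh : 1 / 2 ≤ chh p) :
    8 * ‖cz p‖ ≤ ‖gU Ψ (gCrd p)‖ * chh p := by
  obtain ⟨c, hc0, hU, -, h8⟩ := g_outer hc p (h.outer hc)
  have := h8 h.1 h.2.1 hh
  rw [hU, norm_smul, Real.norm_eq_abs, abs_of_pos hc0, norm_pow]
  nlinarith [norm_nonneg (cz p)]

lemma InA.map (hc : CoreSpec α Ψ r₁) {p : M} (h : InA r₁ p) : InA r₁ (gF hc p) := by
  have n1 : 0 < ‖gA Ψ p‖⁻¹ := inv_pos.2 (norm_pos_iff.2 (gA_ne hc p))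
  obtain ⟨c, -, -, hV, -⟩ := g_outer hc p (h.outer hc)
  refine ⟨by rw [ce_gF, hV, smul_zero], by rw [ck_gF, norm_gB_of_zero p hV]; simp, ?_⟩
  rw [cz_gF, ch_gF, norm_smul, Real.norm_eq_abs, abs_of_pos n1, mul_left_comm]
  refine mul_le_mul_of_nonneg_left ?_ n1.le
  have hr0 := hc.1
  have hU0 := norm_nonneg (gU Ψ (gCrd p))
  rcases le_or_gt (chh p) (5 / 8) with h1 | h1
  · rw [gH_eq_neg h1]; nlinarith
  · have a1 := h.norm_gU hc (by linarith)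
    have a2 := h.2.2
    have a3 := gH_le_one (chh p)
    have a4 : 8 * r₁ ≤ ‖gU Ψ (gCrd p)‖ := by
      have : 8 * r₁ * chh p ≤ ‖gU Ψ (gCrd p)‖ * chh p := by nlinarith
      exact le_of_mul_le_mul_right this (by linarith)
    nlinarith

lemma InA.height (hc : CoreSpec α Ψ r₁) {p : M} (h : InA r₁ p) :
    chh (gF hc p) ≤ chh p ∧ (-1 < chh p → chh (gF hc p) < chh p) := by
  have n0 : 0 < ‖gA Ψ p‖ := norm_pos_iff.2 (gA_ne hc p)
  have hn := normSq_gA (Ψ := Ψ) p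
  have hS2 : ‖cz p‖ ^ 2 + chh p ^ 2 = 1 := normSq_S2 p.2.1
  have hr0 := hc.1
  have hA := h.2.2
  have hz0 := norm_nonneg (cz p)
  have hge : -1 ≤ chh p := S2_snd_ge p.2.1
  rw [ch_gF, inv_mul_le_iff₀ n0, inv_mul_lt_iff₀ n0]
  set n := ‖gA Ψ p‖
  set u := ‖gU Ψ (gCrd p)‖ with hu
  rcases lt_or_ge (chh p) 0 with h0 | h0
  · obtain ⟨hU, -⟩ := gU_of_chi_zero (Ψ := Ψ) p (Or.inl (by linarith))
    have hu' : u = 32 * ‖cz p‖ ^ 2 := by
      rw [hu, hU, norm_smul, norm_pow]; norm_num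
    rw [gH_eq_neg (by linarith)] at hn ⊢
    set s := ‖cz p‖ ^ 2 with hs
    have hs0 : 0 ≤ s := by positivity
    have e : (n * chh p) ^ 2 = 33 ^ 2 - s * (33 ^ 2 - 32 ^ 2 * s * (1 - s)) := by
      rw [mul_pow, hn, hu', show chh p ^ 2 = 1 - s by linarith]; ring
    have hpos : 0 < 33 ^ 2 - 32 ^ 2 * s * (1 - s) := by nlinarith [sq_nonneg (2 * s - 1)]
    constructor
    · have : (n * chh p) ^ 2 ≤ 33 ^ 2 := by rw [e]; nlinarith
      nlinarith [abs_le_of_sq_le_sq' this (by norm_num)]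
    · intro h1
      have hs1 : 0 < s := by nlinarith
      have : (n * chh p) ^ 2 < 33 ^ 2 := by rw [e]; nlinarith
      nlinarith [abs_lt_of_sq_lt_sq' this (by norm_num)]
  · have key : gH (chh p) < n * chh p := by
      rcases le_or_gt (chh p) (5 / 8) with h1 | h1
      · rw [gH_eq_neg h1]; nlinarith
      · have a1 := h.norm_gU hc (by linarith)
        have a3 := gH_le_one (chh p)
        have hz : 0 < ‖cz p‖ := by nlinarith
        rcases le_or_gt (gH (chh p)) 0 with h2 | h2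
        · nlinarith
        · have a4 : (8 * ‖cz p‖) ^ 2 ≤ (u * chh p) ^ 2 := pow_le_pow_left₀ (by positivity) a1 2
          have a5 : gH (chh p) ^ 2 ≤ 1 := by nlinarith
          have a6 : gH (chh p) ^ 2 < (n * chh p) ^ 2 := by
            rw [mul_pow n, hn]
            have : gH (chh p) ^ 2 = gH (chh p) ^ 2 * (‖cz p‖ ^ 2 + chh p ^ 2) := by rw [hS2, mul_one]
            nlinarith [sq_pos_of_pos hz]
          exact lt_of_pow_lt_pow_left₀ 2 (by positivity) a6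
    exact ⟨key.le, fun _ => key⟩

end Crest.Agent.R123
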