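import Crest.Agent.R123.HomologyBundle

/-!
# Row 123: the suspension of angle doubling has eigenvalue two on second singular homology
-/

set_option autoImplicit false

noncomputable section

namespace Crest.Agent.R123

open CategoryTheory AlgebraicTopology Limits Complex
open scoped ComplexConjugate

/-- `exp (2 π i θ)`. -/
def ee (θ : ℝ) : ℂ := exp (2 * Real.pi * I * θ)

lemma continuous_ee : Continuous ee := by unfold ee; fun_prop

lemma norm_ee (θ : ℝ) : ‖ee θ‖ = 1 := by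
  have : (2 * Real.pi * I * θ : ℂ) = ((2 * Real.pi * θ : ℝ) : ℂ) * I := by push_cast; ring
  rw [ee, this, norm_exp_ofReal_mul_I]

lemma ee_mul_conj (θ : ℝ) : ee θ * conj (ee θ) = 1 := by
  rw [Complex.mul_conj, Complex.normSq_eq_norm_sq, norm_ee]; simp

lemma ee_add_one (θ : ℝ) : ee (θ + 1) = ee θ := by
  have : (2 * Real.pi * I * ((θ + 1 : ℝ) : ℂ)) = 2 * Real.pi * I * θ + 2 * Real.pi * I := by
    push_cast; ring
  rw [ee, this, exp_add, exp_two_pi_mul_I, mul_one, ee]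

lemma ee_two_mul (θ : ℝ) : ee (2 * θ) = ee θ ^ 2 := by
  rw [ee, ee, ← exp_nat_mul]; congr 1; push_cast; ring

lemma abs_cs (u : ℝ) : |Real.cos u| ^ 2 + |Real.sin u| ^ 2 = 1 := by
  rw [sq_abs, sq_abs, Real.cos_sq_add_sin_sq]

/-- Polar parametrisation of the sphere by the plane. -/
def qq : C(ℝ × ℝ, S2) where
  toFun p := ⟨WithLp.toLp 2 (((2 * |Real.cos p.1| * |Real.sin p.1| : ℝ) : ℂ) * ee p.2,
      |Real.cos p.1| ^ 2 - |Real.sin p.1| ^ 2), mem_S2 _ _ (by
      rw [norm_mul, norm_ee, mul_one, Complex.norm_real, Real.norm_eq_abs, sq_abs]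
      have := abs_cs p.1
      nlinarith)⟩
  continuous_toFun := by
    refine Continuous.subtype_mk ?_ _
    have := continuous_ee
    fun_prop

lemma qq_fst (p : ℝ × ℝ) :
    ((qq p : S2) : E2).fst = ((2 * |Real.cos p.1| * |Real.sin p.1| : ℝ) : ℂ) * ee p.2 := rfl

lemma qq_snd (p : ℝ × ℝ) :
    ((qq p : S2) : E2).snd = |Real.cos p.1| ^ 2 - |Real.sin p.1| ^ 2 := rfl

lemma S2_ext {x y : S2} (h1 : (x : E2).fst = (y : E2).fst) (h2 : (x : E2).snd = (y : E2).snd) :
    x = y := by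
  apply Subtype.ext
  apply (WithLp.ofLp_injective 2)
  exact Prod.ext h1 h2

/-- A lift of the polar parametrisation to the total space. -/
def qt : C(ℝ × ℝ, EE) where
  toFun p := ⟨(qq p, (((|Real.cos p.1| : ℝ) : ℂ), ((|Real.sin p.1| : ℝ) : ℂ) * ee p.2)), by
    have h : ((|Real.cos p.1| : ℝ) : ℂ) ^ 2 + ((|Real.sin p.1| : ℝ) : ℂ) ^ 2 = 1 := by
      exact_mod_cast abs_cs p.1
    have h2 := ee_mul_conj p.2
    refine ⟨⟨?_, ?_⟩, fun h0 => ?_⟩
    · simp only [qq_fst, qq_snd]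
      push_cast
      linear_combination (-((|Real.sin p.1| : ℝ) : ℂ) * ee p.2) * h
    · simp only [qq_fst, qq_snd, map_mul, conj_ofReal]
      push_cast
      linear_combination (-((|Real.cos p.1| : ℝ) : ℂ)) * h -
        (2 * ((|Real.cos p.1| : ℝ) : ℂ) * ((|Real.sin p.1| : ℝ) : ℂ) ^ 2) * h2
    · have a1 : ((|Real.cos p.1| : ℝ) : ℂ) = 0 := congrArg Prod.fst h0
      have a2 : ((|Real.sin p.1| : ℝ) : ℂ) * ee p.2 = 0 := congrArg Prod.snd h0
      have a3 : ((|Real.sin p.1| : ℝ) : ℂ) = 0 := by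
        linear_combination conj (ee p.2) * a2 - ((|Real.sin p.1| : ℝ) : ℂ) * h2
      rw [a1, a3] at h
      norm_num at h⟩
  continuous_toFun := by
    refine Continuous.subtype_mk ?_ _
    have := continuous_ee
    fun_prop

lemma pr_qt : pr.comp qt = qq := rfl

lemma vec_qt (p : ℝ × ℝ) :
    vec (qt p) = (((|Real.cos p.1| : ℝ) : ℂ), ((|Real.sin p.1| : ℝ) : ℂ) * ee p.2) := rfl

lemma qq_per (u θ : ℝ) : qq (u, θ + 1) = qq (u, θ) :=
  S2_ext (by simp only [qq_fst, ee_add_one]) rfl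

lemma qt_per (u θ : ℝ) : qt (u, θ + 1) = qt (u, θ) := by
  apply Subtype.ext
  refine Prod.ext (qq_per u θ) ?_
  change vec (qt _) = vec (qt _)
  simp only [vec_qt, ee_add_one]

lemma qq_zero (θ : ℝ) : qq (0, θ) = qq (0, 0) :=
  S2_ext (by simp [qq_fst]) rfl

lemma qt_zero (θ : ℝ) : qt (0, θ) = qt (0, 0) := by
  apply Subtype.ext
  refine Prod.ext (qq_zero θ) ?_
  change vec (qt _) = vec (qt _)
  simp [vec_qt]

lemma qq_top (θ : ℝ) : qq (Real.pi / 2, θ) = qq (Real.pi / 2, 0) :=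
  S2_ext (by simp [qq_fst]) rfl

lemma dbl_qq (u θ : ℝ) : dbl (qq (u, θ)) = qq (u, 2 * θ) := by
  refine S2_ext ?_ rfl
  have hr : (0 : ℝ) ≤ 2 * |Real.cos u| * |Real.sin u| := by positivity
  rw [dbl_fst, qq_fst, qq_fst, ee_two_mul, sq1, norm_mul, norm_ee, mul_one, Complex.norm_real,
    Real.norm_eq_abs]
  simp only []
  generalize 2 * |Real.cos u| * |Real.sin u| = r at hr ⊢
  rw [abs_of_nonneg hr]
  by_cases h : (r : ℂ) = 0
  · simp only [h]; simp
  · field_simp

section aff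

variable {X : Type} [TopologicalSpace X]

lemma aff_fst {n : ℕ} (v : Fin (n + 1) → ℝ × ℝ) (t : Dn n) :
    (aff v t).1 = ∑ i, t i * (v i).1 := by
  simp [aff, Prod.fst_sum]

lemma aff_snd {n : ℕ} (v : Fin (n + 1) → ℝ × ℝ) (t : Dn n) :
    (aff v t).2 = ∑ i, t i * (v i).2 := by
  simp [aff, Prod.snd_sum]

lemma comp_aff_per (f : C(ℝ × ℝ, X)) (hf : ∀ u θ, f (u, θ + 1) = f (u, θ)) {n : ℕ}
    (v w : Fin (n + 1) → ℝ × ℝ) (h : ∀ i, w i = ((v i).1, (v i).2 + 1)) :
    f.comp (aff w) = f.comp (aff v) := by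
  ext1 t
  have : aff w t = ((aff v t).1, (aff v t).2 + 1) := by
    refine Prod.ext ?_ ?_
    · simp only [aff_fst, h]
    · simp only [aff_snd, h, mul_add, Finset.sum_add_distrib, mul_one, stdSimplex.sum_eq_one]
  simp only [ContinuousMap.comp_apply, this, hf]

lemma comp_aff_const (f : C(ℝ × ℝ, X)) (c : ℝ) (hf : ∀ θ, f (c, θ) = f (c, 0)) {n : ℕ}
    (v : Fin (n + 1) → ℝ × ℝ) (h : ∀ i, (v i).1 = c) :
    f.comp (aff v) = ContinuousMap.const _ (f (c, 0)) := by
  ext1 t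
  have : aff v t = (c, (aff v t).2) := by
    refine Prod.ext ?_ rfl
    simp only [aff_fst, h, ← Finset.sum_mul, stdSimplex.sum_eq_one, one_mul]
  rw [ContinuousMap.comp_apply, this, hf]; rfl

lemma dbl_comp_aff {n : ℕ} (v w : Fin (n + 1) → ℝ × ℝ) (h : ∀ i, w i = ((v i).1, 2 * (v i).2)) :
    dbl.comp (qq.comp (aff v)) = qq.comp (aff w) := by
  ext1 t
  have : aff w t = ((aff v t).1, 2 * (aff v t).2) := by
    refine Prod.ext ?_ ?_
    · simp only [aff_fst, h]
    · simp only [aff_snd, h, Finset.mul_sum]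
      exact Finset.sum_congr rfl fun i _ => by ring
  simp only [ContinuousMap.comp_apply, this, ← dbl_qq]

lemma chd2 (f : C(ℝ × ℝ, X)) (a b c : ℝ × ℝ) :
    ch (n := 2) (f.comp (aff ![a, b, c])) ≫ (KK X).d 2 1 =
      ch (n := 1) (f.comp (aff ![b, c])) - ch (n := 1) (f.comp (aff ![a, c])) +
        ch (n := 1) (f.comp (aff ![a, b])) := by
  rw [ch_d, Fin.sum_univ_three]
  simp only [ContinuousMap.comp_assoc, aff_face]
  have e0 : (fun j : Fin 2 => ![a, b, c] ((0 : Fin 3).succAbove j)) = ![b, c] := by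
    funext j; fin_cases j <;> rfl
  have e1 : (fun j : Fin 2 => ![a, b, c] ((1 : Fin 3).succAbove j)) = ![a, c] := by
    funext j; fin_cases j <;> rfl
  have e2 : (fun j : Fin 2 => ![a, b, c] ((2 : Fin 3).succAbove j)) = ![a, b] := by
    funext j; fin_cases j <;> rfl
  rw [e0, e1, e2]
  simp [sub_eq_add_neg]

lemma chd3 (f : C(ℝ × ℝ, X)) (a b c d : ℝ × ℝ) :
    ch (n := 3) (f.comp (aff ![a, b, c, d])) ≫ (KK X).d 3 2 =
      ch (n := 2) (f.comp (aff ![b, c, d])) - ch (n := 2) (f.comp (aff ![a, c, d])) +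
        ch (n := 2) (f.comp (aff ![a, b, d])) - ch (n := 2) (f.comp (aff ![a, b, c])) := by
  rw [ch_d, Fin.sum_univ_four]
  simp only [ContinuousMap.comp_assoc, aff_face]
  have e0 : (fun j : Fin 3 => ![a, b, c, d] ((0 : Fin 4).succAbove j)) = ![b, c, d] := by
    funext j; fin_cases j <;> rfl
  have e1 : (fun j : Fin 3 => ![a, b, c, d] ((1 : Fin 4).succAbove j)) = ![a, c, d] := by
    funext j; fin_cases j <;> rfl
  have e2 : (fun j : Fin 3 => ![a, b, c, d] ((2 : Fin 4).succAbove j)) = ![a, b, d] := by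
    funext j; fin_cases j <;> rfl
  have e3 : (fun j : Fin 3 => ![a, b, c, d] ((3 : Fin 4).succAbove j)) = ![a, b, c] := by
    funext j; fin_cases j <;> rfl
  rw [e0, e1, e2, e3]
  simp [sub_eq_add_neg, pow_succ]

end aff

/-- Points over the north pole. -/
abbrev pA (k : ℝ) : ℝ × ℝ := (0, k)
/-- Points over the south pole. -/
abbrev pB (k : ℝ) : ℝ × ℝ := (Real.pi / 2, k)

/-- The fundamental chain along a map of the plane. -/
def zz {X : Type} [TopologicalSpace X] (f : C(ℝ × ℝ, X)) : RR ⟶ (KK X).X 2 :=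
  ch (n := 2) (f.comp (aff ![pA 0, pB 0, pB 1])) - ch (n := 2) (f.comp (aff ![pA 0, pA 1, pB 1])) -
    ch (n := 2) (f.comp (aff ![pB 0, pB 0, pB 0])) + ch (n := 2) (f.comp (aff ![pA 0, pA 0, pA 0]))

lemma zz_qt_d : zz qt ≫ (KK EE).d 2 1 =
    ch (n := 1) (qt.comp (aff ![pB 0, pB 1])) - ch (n := 1) (qt.comp (aff ![pB 0, pB 0])) := by
  simp only [zz, Preadditive.add_comp, Preadditive.sub_comp, chd2]
  have h1 : qt.comp (aff ![pA 1, pB 1]) = qt.comp (aff ![pA 0, pB 0]) :=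
    comp_aff_per qt qt_per _ _ (fun i => by fin_cases i <;> simp)
  have h2 : qt.comp (aff ![pA 0, pA 1]) = qt.comp (aff ![pA 0, pA 0]) := by
    rw [comp_aff_const qt 0 qt_zero _ (fun i => by fin_cases i <;> simp),
      comp_aff_const qt 0 qt_zero _ (fun i => by fin_cases i <;> simp)]
  rw [h1, h2]
  abel

lemma zz_map : zz qt ≫ (KKmap pr).f 2 = zz qq := by
  simp only [zz, Preadditive.add_comp, Preadditive.sub_comp, ch_map, ← ContinuousMap.comp_assoc,
    pr_qt]

lemma top_edge : qq.comp (aff ![pB 0, pB 1]) = qq.comp (aff ![pB 0, pB 0]) := by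
  rw [comp_aff_const qq _ qq_top _ (fun i => by fin_cases i <;> simp),
    comp_aff_const qq _ qq_top _ (fun i => by fin_cases i <;> simp)]

lemma zz_qq_d : zz qq ≫ (KK S2).d 2 1 = 0 := by
  rw [← zz_map, Category.assoc, (KKmap pr).comm 2 1, ← Category.assoc, zz_qt_d,
    Preadditive.sub_comp, ch_map, ch_map, ← ContinuousMap.comp_assoc, ← ContinuousMap.comp_assoc,
    pr_qt, top_edge, sub_self]

lemma psi_top : psi (qt.comp (aff ![pB 0, pB 0])) - psi (qt.comp (aff ![pB 0, pB 1])) =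
    2 * Real.pi := by
  have hc : Continuous (aff (n := 1) ![pB 0, pB 1]) := (aff (n := 1) ![pB 0, pB 1]).continuous
  let ℓ : C(Dn 1, ℂ) := ⟨fun t => 2 * Real.pi * I * ((aff (n := 1) ![pB 0, pB 1] t).2 : ℝ),
    continuous_const.mul (continuous_ofReal.comp hc.snd)⟩
  rw [psi_sub (by rw [← ContinuousMap.comp_assoc, ← ContinuousMap.comp_assoc, pr_qt, top_edge]) ℓ]
  · simp [ℓ, aff_snd]
  · intro a
    have h1 : (aff ![pB 0, pB 1] a).1 = Real.pi / 2 := by
      rw [aff_fst, Fin.sum_univ_two]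
      have := stdSimplex.add_eq_one a
      simp only [Matrix.cons_val_zero, Matrix.cons_val_one]
      linear_combination (Real.pi / 2) * this
    have h2 : (aff ![pB 0, pB 0] a).1 = Real.pi / 2 := by
      rw [aff_fst, Fin.sum_univ_two]
      have := stdSimplex.add_eq_one a
      simp only [Matrix.cons_val_zero, Matrix.cons_val_one]
      linear_combination (Real.pi / 2) * this
    have h3 : (aff ![pB 0, pB 0] a).2 = 0 := by
      rw [aff_snd, Fin.sum_univ_two]
      simp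
    simp only [ContinuousMap.comp_apply, vec_qt, h1, h2, h3, ℓ, ContinuousMap.coe_mk]
    simp [ee]

lemma zz_dbl : zz qq ≫ (KKmap dbl).f 2 - (2 : ℝ) • zz qq =
    (ch (n := 3) (qq.comp (aff ![pA 0, pB 0, pB 1, pB 2])) -
      ch (n := 3) (qq.comp (aff ![pA 0, pA 1, pB 1, pB 2])) +
      ch (n := 3) (qq.comp (aff ![pA 0, pA 1, pA 2, pB 2]))) ≫ (KK S2).d 3 2 := by
  simp only [zz, Preadditive.add_comp, Preadditive.sub_comp, chd3, ch_map]
  rw [dbl_comp_aff _ ![pA 0, pB 0, pB 2] (fun i => by fin_cases i <;> simp),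
    dbl_comp_aff _ ![pA 0, pA 2, pB 2] (fun i => by fin_cases i <;> simp),
    dbl_comp_aff _ ![pB 0, pB 0, pB 0] (fun i => by fin_cases i <;> simp),
    dbl_comp_aff _ ![pA 0, pA 0, pA 0] (fun i => by fin_cases i <;> simp)]
  have h1 : qq.comp (aff ![pA 1, pB 1, pB 2]) = qq.comp (aff ![pA 0, pB 0, pB 1]) :=
    comp_aff_per qq qq_per _ _ (fun i => by fin_cases i <;> simp [one_add_one_eq_two])
  have h2 : qq.comp (aff ![pA 1, pA 2, pB 2]) = qq.comp (aff ![pA 0, pA 1, pB 1]) :=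
    comp_aff_per qq qq_per _ _ (fun i => by fin_cases i <;> simp [one_add_one_eq_two])
  have h3 : qq.comp (aff ![pB 0, pB 1, pB 2]) = qq.comp (aff ![pB 0, pB 0, pB 0]) := by
    rw [comp_aff_const qq _ qq_top _ (fun i => by fin_cases i <;> simp),
      comp_aff_const qq _ qq_top _ (fun i => by fin_cases i <;> simp)]
  have h4 : qq.comp (aff ![pA 0, pA 1, pA 2]) = qq.comp (aff ![pA 0, pA 0, pA 0]) := by
    rw [comp_aff_const qq _ qq_zero _ (fun i => by fin_cases i <;> simp),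
      comp_aff_const qq _ qq_zero _ (fun i => by fin_cases i <;> simp)]
  rw [h1, h2, h3, h4, two_smul]
  abel

lemma exists_eigen_dbl : ∃ c : RR ⟶ (KK S2).homology 2, c ≠ 0 ∧
    c ≫ HomologicalComplex.homologyMap (KKmap dbl) 2 = (2 : ℝ) • c := by
  obtain ⟨Φ, Ψ, h1, h2, h3⟩ := exists_cocycle
  refine exists_eigenclass (KKmap dbl) (zz qq) zz_qq_d _ zz_dbl Φ h1 ?_
  rw [← zz_map, Category.assoc, h2, ← Category.assoc, zz_qt_d, Preadditive.sub_comp, h3, h3,
    ← sub_smul]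
  intro h
  have h4 := congrArg (fun t : RR ⟶ RR => t.hom (1 : ℝ)) h
  have h5 := psi_top
  simp only [ModuleCat.hom_smul, ModuleCat.hom_id, LinearMap.smul_apply, LinearMap.id_coe, id_eq,
    smul_eq_mul, mul_one, ModuleCat.hom_zero, LinearMap.zero_apply] at h4
  linarith [Real.pi_pos]

theorem hasEigenvalue_two {Y : Type} [TopologicalSpace Y] (f : C(Y, Y)) (i : C(S2, Y))
    (π : C(Y, S2)) (hπ : ∀ x, π (i x) = x) (hf : (f.comp i).Homotopic (i.comp dbl)) :
    Module.End.HasEigenvalue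
      (((AlgebraicTopology.singularHomologyFunctor (ModuleCat.{0} ℝ) 2).obj
        (ModuleCat.of ℝ ℝ)).map (TopCat.ofHom f)).hom (2 : ℝ) := by
  obtain ⟨c, hc0, hc⟩ := exists_eigen_dbl
  obtain ⟨H⟩ := hf
  let F := (AlgebraicTopology.singularHomologyFunctor (ModuleCat.{0} ℝ) 2).obj RR
  have hH : F.map (TopCat.ofHom (f.comp i)) = F.map (TopCat.ofHom (i.comp dbl)) :=
    TopCat.Homotopy.congr_homologyMap_singularChainComplexFunctor
      (f := TopCat.ofHom (f.comp i)) (g := TopCat.ofHom (i.comp dbl)) H RR 2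
  let c' : RR ⟶ F.obj (TopCat.of S2) := c
  have hc' : c' ≫ F.map (TopCat.ofHom dbl) = (2 : ℝ) • c' := hc
  have hc0' : c' ≠ 0 := hc0
  have hid : TopCat.ofHom i ≫ TopCat.ofHom π = 𝟙 (TopCat.of S2) := by
    ext1 x; exact hπ x
  let x : RR ⟶ F.obj (TopCat.of Y) := c' ≫ F.map (TopCat.ofHom i)
  have hx : x ≫ F.map (TopCat.ofHom f) = (2 : ℝ) • x := by
    have e1 : TopCat.ofHom i ≫ TopCat.ofHom f = TopCat.ofHom (f.comp i) := rfl
    have e2 : TopCat.ofHom dbl ≫ TopCat.ofHom i = TopCat.ofHom (i.comp dbl) := rfl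
    simp only [x]
    rw [Category.assoc, ← F.map_comp, e1, hH, ← e2, F.map_comp, ← Category.assoc, hc',
      Linear.smul_comp]
  have hx0 : x ≠ 0 := by
    intro h
    apply hc0'
    have := congrArg (fun t => t ≫ F.map (TopCat.ofHom π)) h
    simp only [x] at this
    rwa [Category.assoc, ← F.map_comp, hid, F.map_id, Category.comp_id, zero_comp] at this
  refine Module.End.hasEigenvalue_of_hasEigenvector (x := x.hom (1 : ℝ)) ⟨?_, fun h => hx0 ?_⟩
  · rw [Module.End.mem_eigenspace_iff]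
    exact congrArg (fun t : RR ⟶ F.obj (TopCat.of Y) => t.hom (1 : ℝ)) hx
  · ext1
    exact LinearMap.ext_ring h

end Crest.Agent.R123
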