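import Mathlib

/-!
# Row 123: a small concrete API for real singular chains
-/

set_option autoImplicit false

noncomputable section

namespace Crest.Agent.R123

open CategoryTheory AlgebraicTopology Limits

/-- The topological standard simplex. -/
abbrev Dn (n : ℕ) : Type := stdSimplex ℝ (Fin (n + 1))

/-- The coefficient module. -/
abbrev RR : ModuleCat.{0} ℝ := ModuleCat.of ℝ ℝ

/-- The real singular chain complex. -/
abbrev KK (X : Type) [TopologicalSpace X] : ChainComplex (ModuleCat.{0} ℝ) ℕ :=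
  ((singularChainComplexFunctor (ModuleCat.{0} ℝ)).obj RR).obj (TopCat.of X)

/-- The induced chain map. -/
abbrev KKmap {X Y : Type} [TopologicalSpace X] [TopologicalSpace Y] (f : C(X, Y)) :
    KK X ⟶ KK Y :=
  ((singularChainComplexFunctor (ModuleCat.{0} ℝ)).obj RR).map (TopCat.ofHom f)

/-- Face inclusion. -/
def face {n : ℕ} (i : Fin (n + 2)) : C(Dn n, Dn (n + 1)) :=
  ⟨stdSimplex.map i.succAbove, stdSimplex.continuous_map _⟩

variable {X Y : Type} [TopologicalSpace X] [TopologicalSpace Y]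

/-- The chain given by a singular simplex. -/
def ch {n : ℕ} (σ : C(Dn n, X)) : RR ⟶ (KK X).X n :=
  (TopCat.toSSet.obj (TopCat.of X)).ιChainComplex (R := RR)
    (((TopCat.of X).toSSetObjEquiv (Opposite.op (SimplexCategory.mk n))).symm σ)

lemma ch_d {n : ℕ} (σ : C(Dn (n + 1), X)) :
    ch σ ≫ (KK X).d (n + 1) n = ∑ i : Fin (n + 2), (-1 : ℤ) ^ i.val • ch (σ.comp (face i)) :=
  SSet.ιChainComplex_d (TopCat.toSSet.obj (TopCat.of X)) RR _

lemma ch_map {n : ℕ} (σ : C(Dn n, X)) (f : C(X, Y)) :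
    ch σ ≫ (KKmap f).f n = ch (f.comp σ) :=
  SSet.ι_chainComplexMap_f (TopCat.toSSet.obj (TopCat.of X)) (TopCat.toSSet.obj (TopCat.of Y))
    (TopCat.toSSet.map (TopCat.ofHom f)) RR _

lemma ch_ext {n : ℕ} {T : ModuleCat.{0} ℝ} {f g : (KK X).X n ⟶ T}
    (h : ∀ σ : C(Dn n, X), ch σ ≫ f = ch σ ≫ g) : f = g := by
  refine SSet.chainComplex_hom_ext (X := TopCat.toSSet.obj (TopCat.of X)) (R := RR) fun x => ?_
  have := h (((TopCat.of X).toSSetObjEquiv (Opposite.op (SimplexCategory.mk n))) x)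
  simp only [ch, Equiv.symm_apply_apply] at this
  exact this

lemma exists_cochain {n : ℕ} (φ : C(Dn n, X) → ℝ) :
    ∃ Φ : (KK X).X n ⟶ RR, ∀ σ, ch σ ≫ Φ = φ σ • 𝟙 RR := by
  refine ⟨Cofan.IsColimit.desc
    ((TopCat.toSSet.obj (TopCat.of X)).isColimitChainComplexXCofan RR n)
    (fun x => φ (((TopCat.of X).toSSetObjEquiv (Opposite.op (SimplexCategory.mk n))) x) • 𝟙 RR),
    fun σ => ?_⟩
  have := Cofan.IsColimit.fac
    ((TopCat.toSSet.obj (TopCat.of X)).isColimitChainComplexXCofan RR n)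
    (fun x => φ (((TopCat.of X).toSSetObjEquiv (Opposite.op (SimplexCategory.mk n))) x) • 𝟙 RR)
    (((TopCat.of X).toSSetObjEquiv (Opposite.op (SimplexCategory.mk n))).symm σ)
  simp only [Equiv.apply_symm_apply] at this
  exact this

/-- A cycle detected by a cocycle and doubled up to a boundary gives an eigenclass. -/
lemma exists_eigenclass {K : ChainComplex (ModuleCat.{0} ℝ) ℕ} (g : K ⟶ K)
    (z : RR ⟶ K.X 2) (hz : z ≫ K.d 2 1 = 0) (b : RR ⟶ K.X 3)
    (hb : z ≫ g.f 2 - (2 : ℝ) • z = b ≫ K.d 3 2) (Φ : K.X 2 ⟶ RR) (hΦ : K.d 3 2 ≫ Φ = 0)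
    (hzΦ : z ≫ Φ ≠ 0) :
    ∃ c : RR ⟶ K.homology 2, c ≠ 0 ∧ c ≫ HomologicalComplex.homologyMap g 2 = (2 : ℝ) • c := by
  have h1 : (ComplexShape.down ℕ).next 2 = 1 := by simp
  have h3 : (ComplexShape.down ℕ).prev 2 = 3 := by simp
  refine ⟨K.liftCycles z 1 h1 hz ≫ K.homologyπ 2, fun h => hzΦ ?_, ?_⟩
  · have := congrArg (fun t => t ≫ K.homologyι 2 ≫ K.descOpcycles Φ 3 h3 hΦ) h
    simpa [HomologicalComplex.homology_π_ι_assoc] using this
  · rw [Category.assoc, HomologicalComplex.homologyπ_naturality, ← Category.assoc,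
      HomologicalComplex.liftCycles_comp_cyclesMap, ← sub_eq_zero, ← Linear.smul_comp,
      ← Preadditive.sub_comp]
    have h0 := K.liftCycles_homologyπ_eq_zero_of_boundary (z ≫ g.f 2 - (2 : ℝ) • z) 1 h1 b hb
    rw [← h0]
    congr 1
    rw [← cancel_mono (K.iCycles 2)]
    simp [Preadditive.sub_comp, Linear.smul_comp]

/-- Affine simplex in the plane with the given vertices. -/
def aff {n : ℕ} (v : Fin (n + 1) → ℝ × ℝ) : C(Dn n, ℝ × ℝ) where
  toFun t := ∑ i, t i • v i
  continuous_toFun := by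
    refine continuous_finsetSum _ fun i _ => ?_
    have h : Continuous fun t : Dn n => t i := (continuous_apply i).comp continuous_subtype_val
    exact h.smul continuous_const

lemma aff_face {n : ℕ} (v : Fin (n + 2) → ℝ × ℝ) (i : Fin (n + 2)) :
    (aff v).comp (face i) = aff (fun j => v (i.succAbove j)) := by
  ext1 t
  simp only [aff, face, ContinuousMap.comp_apply, ContinuousMap.coe_mk, stdSimplex.map_coe,
    FunOnFinite.linearMap_apply_apply, Finset.sum_smul]
  rw [← Finset.sum_fiberwise Finset.univ i.succAbove (fun j => t j • v (i.succAbove j))]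
  refine Finset.sum_congr rfl fun k _ => Finset.sum_congr rfl fun j hj => ?_
  rw [(Finset.mem_filter.mp hj).2]

end Crest.Agent.R123
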