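import Crest.Agent.R123.Defs
import Crest.Agent.R123.HomologyChain

/-!
# Row 123: the tautological line bundle on the two-sphere gives a singular 2-cocycle
-/

set_option autoImplicit false

noncomputable section

namespace Crest.Agent.R123

open CategoryTheory AlgebraicTopology Limits Complex
open scoped ComplexConjugate

/-- `v` lies on the complex line attached to the point `x` of the sphere. -/
def inL (x : S2) (v : ℂ × ℂ) : Prop :=
  (1 + ((x : E2).snd : ℂ)) * v.2 = (x : E2).fst * v.1 ∧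
    (1 - ((x : E2).snd : ℂ)) * v.1 = conj (x : E2).fst * v.2

/-- Nonzero vectors of the tautological line bundle. -/
abbrev EE : Type := {p : S2 × (ℂ × ℂ) // inL p.1 p.2 ∧ p.2 ≠ 0}

/-- Bundle projection. -/
def pr : C(EE, S2) := ⟨fun p => p.1.1, by fun_prop⟩

/-- The vector part. -/
def vec (p : EE) : ℂ × ℂ := p.1.2

lemma continuous_vec : Continuous vec := by unfold vec; fun_prop

lemma vec_ne (p : EE) : vec p ≠ 0 := p.2.2

lemma vec_inL (p : EE) : inL (pr p) (vec p) := p.2.1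

lemma normSq_S2' (x : S2) :
    (x : E2).fst * conj (x : E2).fst + ((x : E2).snd : ℂ) ^ 2 = 1 := by
  have h := normSq_S2 x
  rw [Complex.mul_conj, Complex.normSq_eq_norm_sq]
  exact_mod_cast h

/-- Twice the orthogonal projection onto the line attached to `x`. -/
def PP (x : S2) (v : ℂ × ℂ) : ℂ × ℂ :=
  ((1 + ((x : E2).snd : ℂ)) * v.1 + conj (x : E2).fst * v.2,
    (x : E2).fst * v.1 + (1 - ((x : E2).snd : ℂ)) * v.2)

lemma inL_PP (x : S2) (v : ℂ × ℂ) : inL x (PP x v) := by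
  have h := normSq_S2' x
  constructor
  · simp only [PP]; linear_combination (-v.2) * h
  · simp only [PP]; linear_combination (-v.1) * h

lemma PP_ne {x y : S2} {v : ℂ × ℂ} (hv : inL x v) (h0 : v ≠ 0) (hxy : dist x y < 1) :
    PP y v ≠ 0 := by
  intro hP
  obtain ⟨h1, h2⟩ := hv
  have h3 : (1 + ((y : E2).snd : ℂ)) * v.1 + conj (y : E2).fst * v.2 = 0 := congrArg Prod.fst hP
  have h4 : (y : E2).fst * v.1 + (1 - ((y : E2).snd : ℂ)) * v.2 = 0 := congrArg Prod.snd hP
  set δ : ℝ := (x : E2).snd + (y : E2).snd with hδ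
  set η : ℂ := (x : E2).fst + (y : E2).fst with hη
  have e1 : (δ : ℂ) * v.2 = η * v.1 := by
    rw [hδ, hη]; push_cast; linear_combination h1 - h4
  have e2 : -(δ : ℂ) * v.1 = conj η * v.2 := by
    rw [hδ, hη, map_add]; push_cast; linear_combination h2 - h3
  have hN : ((δ ^ 2 + normSq η : ℝ) : ℂ) = 0 := by
    by_contra hN
    apply h0
    have hc : ((δ ^ 2 + normSq η : ℝ) : ℂ) = (δ : ℂ) ^ 2 + η * conj η := by
      rw [Complex.mul_conj]; push_cast; ring
    have a1 : ((δ ^ 2 + normSq η : ℝ) : ℂ) * v.1 = 0 := by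
      rw [hc]; linear_combination (-(δ : ℂ)) * e2 - conj η * e1
    have a2 : ((δ ^ 2 + normSq η : ℝ) : ℂ) * v.2 = 0 := by
      rw [hc]; linear_combination (δ : ℂ) * e1 - η * e2
    exact Prod.ext ((mul_eq_zero.mp a1).resolve_left hN) ((mul_eq_zero.mp a2).resolve_left hN)
  have hN' : δ ^ 2 + normSq η = 0 := by exact_mod_cast hN
  have hη0 : η = 0 := by
    have := normSq_nonneg η
    exact normSq_eq_zero.mp (by nlinarith [sq_nonneg δ])
  have hδ0 : δ = 0 := by
    have := normSq_nonneg η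
    exact pow_eq_zero_iff (n := 2) (by norm_num) |>.mp (by nlinarith [sq_nonneg δ])
  have hsum : (x : E2) + (y : E2) = 0 := by
    apply (WithLp.ofLp_injective 2)
    exact Prod.ext hη0 hδ0
  have hy : (y : E2) = -(x : E2) := by rw [eq_neg_iff_add_eq_zero, add_comm]; exact hsum
  have hd : dist x y = 2 := by
    rw [Subtype.dist_eq, hy, dist_eq_norm, sub_neg_eq_add, ← two_smul ℝ, norm_smul]
    simp
  linarith

lemma exists_mem_fibre (x : S2) : ∃ p : EE, pr p = x := by
  by_cases h : PP x (1, 0) = 0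
  · have h' : PP x (0, 1) ≠ 0 := by
      intro h'
      have h3 := congrArg Prod.fst h
      have h4 := congrArg Prod.snd h'
      simp only [PP, Prod.fst_zero, Prod.snd_zero] at h3 h4
      have : (2 : ℂ) = 0 := by linear_combination h3 + h4
      norm_num at this
    exact ⟨⟨(x, PP x (0, 1)), inL_PP _ _, h'⟩, rfl⟩
  · exact ⟨⟨(x, PP x (1, 0)), inL_PP _ _, h⟩, rfl⟩

/-- Contraction of the simplex towards the vertex `0`. -/
def contr {n : ℕ} (s : ℝ) (hs : s ∈ Set.Icc (0 : ℝ) 1) : C(Dn n, Dn n) where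
  toFun a := ⟨(1 - s) • (stdSimplex.vertex (S := ℝ) (0 : Fin (n + 1))).1 + s • a.1,
    convex_stdSimplex ℝ _ (stdSimplex.vertex (S := ℝ) (0 : Fin (n + 1))).2 a.2
      (by linarith [hs.2]) hs.1 (by ring)⟩
  continuous_toFun := by
    refine Continuous.subtype_mk ?_ _
    fun_prop

lemma dist_contr {n : ℕ} (s t : ℝ) (hs : s ∈ Set.Icc (0 : ℝ) 1) (ht : t ∈ Set.Icc (0 : ℝ) 1)
    (a : Dn n) : dist (contr s hs a) (contr t ht a) ≤ |s - t| := by
  have hd : dist a.1 (stdSimplex.vertex (S := ℝ) (0 : Fin (n + 1))).1 ≤ 1 :=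
    (Metric.dist_le_diam_of_mem (bounded_stdSimplex _) a.2
      (stdSimplex.vertex (S := ℝ) (0 : Fin (n + 1))).2).trans diam_stdSimplex_le
  rw [Subtype.dist_eq, dist_eq_norm]
  rw [dist_eq_norm] at hd
  have : (contr s hs a).1 - (contr t ht a).1 =
      (s - t) • (a.1 - (stdSimplex.vertex (S := ℝ) (0 : Fin (n + 1))).1) := by
    change ((1 - s) • _ + s • a.1) - ((1 - t) • _ + t • a.1) = _
    module
  rw [this, norm_smul, Real.norm_eq_abs]
  exact mul_le_of_le_one_right (abs_nonneg _) hd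

lemma exists_lift {n : ℕ} (σ : C(Dn n, S2)) : ∃ τ : C(Dn n, EE), pr.comp τ = σ := by
  have huc : UniformContinuous σ := CompactSpace.uniformContinuous_of_continuous σ.continuous
  obtain ⟨δ, hδ, hσ⟩ := Metric.uniformContinuous_iff.mp huc 1 one_pos
  obtain ⟨N, hN⟩ := exists_nat_one_div_lt hδ
  have hN0 : (0 : ℝ) < (N : ℝ) + 1 := by positivity
  have key : ∀ j : ℕ, ∀ hj : (j : ℝ) / (N + 1) ∈ Set.Icc (0 : ℝ) 1,
      ∃ τ : C(Dn n, EE), pr.comp τ = σ.comp (contr _ hj) := by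
    intro j
    induction j with
    | zero =>
      intro hj
      obtain ⟨p, hp⟩ := exists_mem_fibre (σ (stdSimplex.vertex (S := ℝ) (0 : Fin (n + 1))))
      refine ⟨ContinuousMap.const _ p, ?_⟩
      ext1 a
      simp only [ContinuousMap.comp_apply, ContinuousMap.const_apply, hp]
      congr 1
      apply Subtype.ext
      change _ = (1 - _) • _ + _ • a.1
      simp
    | succ j ih =>
      intro hj
      have hj' : (j : ℝ) / (N + 1) ∈ Set.Icc (0 : ℝ) 1 := by
        refine ⟨by positivity, le_trans ?_ hj.2⟩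
        gcongr
        simp
      obtain ⟨τ, hτ⟩ := ih hj'
      have hτ' : ∀ a, pr (τ a) = σ (contr _ hj' a) := fun a => congrArg (fun f => f a) hτ
      have hd : ∀ a, dist (σ (contr _ hj' a)) (σ (contr _ hj a)) < 1 := by
        intro a
        apply hσ
        refine (dist_contr _ _ _ _ a).trans_lt ?_
        have : (j : ℝ) / (N + 1) - ((j + 1 : ℕ) : ℝ) / (N + 1) = -(1 / (N + 1)) := by
          push_cast; ring
        rw [this, abs_neg, abs_of_pos (by positivity)]
        exact hN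
      refine ⟨⟨fun a => ⟨(σ (contr _ hj a), PP (σ (contr _ hj a)) (vec (τ a))), inL_PP _ _,
        PP_ne (by rw [← hτ']; exact vec_inL _) (vec_ne _) (hd a)⟩, ?_⟩, ?_⟩
      · refine Continuous.subtype_mk ?_ _
        have := continuous_vec
        unfold PP
        fun_prop
      · ext1 a; rfl
  have h1 : ((N + 1 : ℕ) : ℝ) / (N + 1) = 1 := by push_cast; field_simp
  obtain ⟨τ, hτ⟩ := key (N + 1) (by rw [h1]; simp)
  refine ⟨τ, hτ.trans ?_⟩
  ext1 a
  simp only [ContinuousMap.comp_apply]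
  congr 1
  apply Subtype.ext
  change (1 - _) • _ + _ • a.1 = _
  rw [h1]; simp

instance (n : ℕ) : ContractibleSpace (Dn n) :=
  (convex_stdSimplex ℝ _).contractibleSpace ⟨_, single_mem_stdSimplex ℝ (0 : Fin (n + 1))⟩

instance (n : ℕ) : LocallyPathConnectedSpace (Dn n) :=
  (convex_stdSimplex ℝ _).locallyPathConnectedSpace

lemma exists_log {n : ℕ} (τ τ' : C(Dn n, EE)) (h : pr.comp τ = pr.comp τ') :
    ∃ ℓ : C(Dn n, ℂ), ∀ a, vec (τ' a) = exp (ℓ a) • vec (τ a) := by
  have hN : ∀ p : EE, conj (vec p).1 * (vec p).1 + conj (vec p).2 * (vec p).2 ≠ 0 := by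
    intro p hp
    apply vec_ne p
    rw [← normSq_eq_conj_mul_self, ← normSq_eq_conj_mul_self] at hp
    have hp' : normSq (vec p).1 + normSq (vec p).2 = 0 := by exact_mod_cast hp
    have h1 := normSq_nonneg (vec p).1
    have h2 := normSq_nonneg (vec p).2
    exact Prod.ext (normSq_eq_zero.mp (by linarith)) (normSq_eq_zero.mp (by linarith))
  let lam : Dn n → ℂ := fun a =>
    (conj (vec (τ a)).1 * (vec (τ' a)).1 + conj (vec (τ a)).2 * (vec (τ' a)).2) /
      (conj (vec (τ a)).1 * (vec (τ a)).1 + conj (vec (τ a)).2 * (vec (τ a)).2)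
  have hlam : ∀ a, vec (τ' a) = lam a • vec (τ a) := by
    intro a
    have hx : pr (τ a) = pr (τ' a) := congrArg (fun f => f a) h
    obtain ⟨a1, a2⟩ := vec_inL (τ a)
    obtain ⟨b1, b2⟩ := vec_inL (τ' a)
    rw [← hx] at b1 b2
    have hdet : (vec (τ a)).1 * (vec (τ' a)).2 = (vec (τ a)).2 * (vec (τ' a)).1 := by
      linear_combination (1 / 2 : ℂ) * ((vec (τ a)).1 * b1 - (vec (τ' a)).1 * a1 +
        (vec (τ' a)).2 * a2 - (vec (τ a)).2 * b2)
    have hN' := hN (τ a)
    refine Prod.ext ?_ ?_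
    · simp only [lam, Prod.smul_fst, smul_eq_mul]
      field_simp
      linear_combination (-conj (vec (τ a)).2) * hdet
    · simp only [lam, Prod.smul_snd, smul_eq_mul]
      field_simp
      linear_combination (conj (vec (τ a)).1) * hdet
  have hne : ∀ a, lam a ≠ 0 := by
    intro a ha
    apply vec_ne (τ' a)
    rw [hlam a, ha, zero_smul]
  have hcont : Continuous lam := by
    have := continuous_vec
    refine Continuous.div (by fun_prop) (by fun_prop) fun a => hN (τ a)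
  let f : C(Dn n, {z : ℂ // z ≠ 0}) := ⟨fun a => ⟨lam a, hne a⟩, hcont.subtype_mk _⟩
  let a₀ : Dn n := stdSimplex.vertex (S := ℝ) (0 : Fin (n + 1))
  obtain ⟨ℓ, ⟨-, hℓ⟩, -⟩ := Complex.isCoveringMap_exp.existsUnique_continuousMap_lifts f a₀
    (log (lam a₀)) (Subtype.ext (exp_log (hne a₀)))
  refine ⟨ℓ, fun a => ?_⟩
  have : exp (ℓ a) = lam a := congrArg Subtype.val (congrFun hℓ a)
  rw [this]; exact hlam a

/-- First and second vertex of an edge. -/
abbrev v0 : Dn 1 := stdSimplex.vertex (S := ℝ) (0 : Fin 2)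
/-- First and second vertex of an edge. -/
abbrev v1 : Dn 1 := stdSimplex.vertex (S := ℝ) (1 : Fin 2)

open Classical in
/-- Variation of the argument of the ratio of two sections along an edge. -/
def WW (e e' : C(Dn 1, EE)) : ℝ :=
  if h : ∃ ℓ : C(Dn 1, ℂ), ∀ a, vec (e' a) = exp (ℓ a) • vec (e a) then
    (h.choose v1 - h.choose v0).im else 0

lemma WW_eq {e e' : C(Dn 1, EE)} (ℓ : C(Dn 1, ℂ)) (h : ∀ a, vec (e' a) = exp (ℓ a) • vec (e a)) :
    WW e e' = (ℓ v1 - ℓ v0).im := by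
  have hex : ∃ ℓ : C(Dn 1, ℂ), ∀ a, vec (e' a) = exp (ℓ a) • vec (e a) := ⟨ℓ, h⟩
  rw [WW, dif_pos hex]
  have h0 := hex.choose_spec
  set ℓ₀ := hex.choose
  have hexp : ∀ a, exp (ℓ a - ℓ₀ a) = 1 := by
    intro a
    have h1 : (exp (ℓ a) - exp (ℓ₀ a)) • vec (e a) = 0 := by
      rw [sub_smul, ← h, ← h0, sub_self]
    have h2 := (smul_eq_zero.mp h1).resolve_right (vec_ne _)
    rw [exp_sub, sub_eq_zero.mp h2, div_self (exp_ne_zero _)]
  have := Complex.isCoveringMap_exp.const_of_comp (g := fun a : Dn 1 => ℓ a - ℓ₀ a)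
    (by fun_prop) (fun a a' => Subtype.ext (by simp only [hexp])) v1 v0
  congr 1
  linear_combination -this

/-- A chosen lift of each singular simplex. -/
def sec {n : ℕ} (σ : C(Dn n, S2)) : C(Dn n, EE) := (exists_lift σ).choose

lemma pr_sec {n : ℕ} (σ : C(Dn n, S2)) : pr.comp (sec σ) = σ := (exists_lift σ).choose_spec

/-- The connection 1-cochain on the total space. -/
def psi (e : C(Dn 1, EE)) : ℝ := WW e (sec (pr.comp e))

lemma psi_sub {e e' : C(Dn 1, EE)} (hp : pr.comp e = pr.comp e') (ℓ : C(Dn 1, ℂ))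
    (h : ∀ a, vec (e' a) = exp (ℓ a) • vec (e a)) : psi e - psi e' = (ℓ v1 - ℓ v0).im := by
  obtain ⟨ℓ₁, h₁⟩ := exists_log e' (sec (pr.comp e')) (pr_sec _).symm
  have h₂ : ∀ a, vec (sec (pr.comp e') a) = exp ((ℓ₁ + ℓ) a) • vec (e a) := by
    intro a
    rw [h₁, h, smul_smul, ← exp_add]; rfl
  rw [psi, psi, hp, WW_eq ℓ₁ h₁, WW_eq (ℓ₁ + ℓ) h₂]
  simp only [ContinuousMap.add_apply, sub_im, add_im]
  ring

/-- The curvature 2-cochain on the sphere. -/
def phi (σ : C(Dn 2, S2)) : ℝ := ∑ j : Fin 3, (-1 : ℝ) ^ j.val * psi ((sec σ).comp (face j))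

lemma phi_eq (τ : C(Dn 2, EE)) :
    phi (pr.comp τ) = ∑ j : Fin 3, (-1 : ℝ) ^ j.val * psi (τ.comp (face j)) := by
  obtain ⟨ℓ, hℓ⟩ := exists_log τ (sec (pr.comp τ)) (pr_sec _).symm
  have key : ∀ j : Fin 3, psi (τ.comp (face j)) - psi ((sec (pr.comp τ)).comp (face j)) =
      (ℓ (stdSimplex.vertex (j.succAbove 1)) - ℓ (stdSimplex.vertex (j.succAbove 0))).im := by
    intro j
    rw [psi_sub (e := τ.comp (face j)) (e' := (sec (pr.comp τ)).comp (face j))
      (by rw [← ContinuousMap.comp_assoc, ← ContinuousMap.comp_assoc, pr_sec])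
      (ℓ.comp (face j)) (fun a => hℓ _)]
    simp only [ContinuousMap.comp_apply, face, ContinuousMap.coe_mk, stdSimplex.map_vertex]
  have k0 := key 0
  have k1 := key 1
  have k2 := key 2
  have e1 : (0 : Fin 3).succAbove 1 = 2 := by decide
  have e2 : (0 : Fin 3).succAbove 0 = 1 := by decide
  have e3 : (1 : Fin 3).succAbove 1 = 2 := by decide
  have e4 : (1 : Fin 3).succAbove 0 = 0 := by decide
  have e5 : (2 : Fin 3).succAbove 1 = 1 := by decide
  have e6 : (2 : Fin 3).succAbove 0 = 0 := by decide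
  rw [e1, e2] at k0
  rw [e3, e4] at k1
  rw [e5, e6] at k2
  simp only [sub_im] at k0 k1 k2
  simp only [phi, Fin.sum_univ_three, Fin.val_zero, Fin.val_one, Fin.val_two]
  linarith

/-- The cocycle and its primitive on the total space. -/
lemma exists_cocycle : ∃ (Φ : (KK S2).X 2 ⟶ RR) (Ψ : (KK EE).X 1 ⟶ RR),
    (KK S2).d 3 2 ≫ Φ = 0 ∧ (KKmap pr).f 2 ≫ Φ = (KK EE).d 2 1 ≫ Ψ ∧
      ∀ e, ch e ≫ Ψ = psi e • 𝟙 RR := by
  obtain ⟨Φ, hΦ⟩ := exists_cochain phi
  obtain ⟨Ψ, hΨ⟩ := exists_cochain psi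
  have h2 : (KKmap pr).f 2 ≫ Φ = (KK EE).d 2 1 ≫ Ψ := by
    refine ch_ext fun τ => ?_
    rw [← Category.assoc, ch_map, hΦ, phi_eq, ← Category.assoc, ch_d, Preadditive.sum_comp,
      Finset.sum_smul]
    refine Finset.sum_congr rfl fun j _ => ?_
    rw [Preadditive.zsmul_comp, hΨ, mul_smul, ← Int.cast_smul_eq_zsmul ℝ]
    push_cast; rfl
  refine ⟨Φ, Ψ, ch_ext fun σ => ?_, h2, hΨ⟩
  rw [← pr_sec σ, ← ch_map, Category.assoc, ← Category.assoc ((KKmap pr).f 3),
    (KKmap pr).comm 3 2, Category.assoc, h2, (KK EE).d_comp_d_assoc]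
  simp

end Crest.Agent.R123
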