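import Crest.Agent.R123.Defs

/-!
# Row 123 (S0163): skeleton (NOT imported by the final proof)

Each sorried theorem below is one task; its author states it verbatim (same name, namespace
`Crest.Agent.R123`, without the `Skel.` prefix) in a new file importing only
`Crest.Agent.R123.Defs` (and own helper files).

* `core`            -> `R123/Core*.lean`      (helper35)
* `global`          -> `R123/Global*.lean`
* `entropy_zero`    -> `R123/Entropy*.lean`
* `hasEigenvalue_two` -> `R123/Homology*.lean`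
* `transport`       -> `R123/Transport.lean`
-/

set_option autoImplicit false

noncomputable section

open scoped Manifold ContDiff

namespace Crest.Agent.R123.Skel

open Crest.Agent.R123

theorem core : ∃ (α : ℝ) (Ψ : ℝ × (ℂ × V3) → ℂ × V3) (r₁ : ℝ), CoreSpec α Ψ r₁ := by
  sorry

theorem global {α : ℝ} {Ψ : ℝ × (ℂ × V3) → ℂ × V3} {r₁ : ℝ} (h : CoreSpec α Ψ r₁) :
    ∃ (F : C(M, M)) (w : Circle) (p₀ p₁ : S2 × S6) (i : C(S2, M)),
      ContMDiff IM IM 1 F ∧ (∀ p, (F p).1 = w * p.1) ∧ TwoPointSpec F p₀ p₁ ∧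
      (∀ x, (i x).2.1 = x) ∧ (F.comp i).Homotopic (i.comp dbl) := by
  sorry

theorem entropy_zero {B X : Type} [MetricSpace B] [CompactSpace B] [Nonempty B]
    [MetricSpace X] [CompactSpace X] (R : B → B) (hR : Isometry R)
    (T : B × X → B × X) (hT : ∀ p, (T p).1 = R p.1) (p₀ p₁ : X) (h : TwoPointSpec T p₀ p₁) :
    Dynamics.coverEntropy T Set.univ = 0 := by
  sorry

theorem hasEigenvalue_two {Y : Type} [TopologicalSpace Y] (f : C(Y, Y)) (i : C(S2, Y))
    (π : C(Y, S2)) (hπ : ∀ x, π (i x) = x) (hf : (f.comp i).Homotopic (i.comp dbl)) :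
    Module.End.HasEigenvalue
      (((AlgebraicTopology.singularHomologyFunctor (ModuleCat.{0} ℝ) 2).obj
        (ModuleCat.of ℝ ℝ)).map (TopCat.ofHom f)).hom (2 : ℝ) := by
  sorry

theorem transport {E H : Type} [NormedAddCommGroup E] [NormedSpace ℝ E] [FiniteDimensional ℝ E]
    [TopologicalSpace H] (I : ModelWithCorners ℝ E H) [I.Boundaryless]
    (Y : Type) [TopologicalSpace Y] [ChartedSpace H Y] [IsManifold I ∞ Y]
    (n : ℕ) (hn : Module.finrank ℝ E = n) (f : Y → Y) (hf : ContMDiff I I 1 f) :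
    ∃ (_ : ChartedSpace (EuclideanSpace ℝ (Fin n)) Y)
      (_ : IsManifold (modelWithCornersSelf ℝ (EuclideanSpace ℝ (Fin n))) ∞ Y),
      ContMDiff (modelWithCornersSelf ℝ (EuclideanSpace ℝ (Fin n)))
        (modelWithCornersSelf ℝ (EuclideanSpace ℝ (Fin n))) 1 f := by
  sorry

theorem final :
    ∃ (n : ℕ) (M : Type) (_ : MetricSpace M) (_ : CompactSpace M) (_ : Nonempty M)
      (_ : ChartedSpace (EuclideanSpace ℝ (Fin n)) M)
      (_ : IsManifold (modelWithCornersSelf ℝ (EuclideanSpace ℝ (Fin n))) ∞ M)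
      (f : C(M, M)),
      ContMDiff (modelWithCornersSelf ℝ (EuclideanSpace ℝ (Fin n)))
          (modelWithCornersSelf ℝ (EuclideanSpace ℝ (Fin n))) 1 ⇑f ∧
        Dynamics.coverEntropy ⇑f Set.univ = 0 ∧
        Module.End.HasEigenvalue
          (((AlgebraicTopology.singularHomologyFunctor (ModuleCat.{0} ℝ) 2).obj
              (ModuleCat.of ℝ ℝ)).map (TopCat.ofHom f)).hom (2 : ℝ) := by
  obtain ⟨α, Ψ, r₁, hcore⟩ := core
  obtain ⟨F, w, p₀, p₁, i, hF, hskew, htwo, hi, hhom⟩ := global hcore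
  obtain ⟨cs, hm, hF'⟩ := transport IM M 9 (by simp) F hF
  refine ⟨9, M, inferInstance, inferInstance, ⟨(1, p₀)⟩, cs, hm, F, hF', ?_, ?_⟩
  · refine entropy_zero (fun τ : Circle => w * τ) ?_ F hskew p₀ p₁ htwo
    refine Isometry.of_dist_eq fun a b => ?_
    change dist ((w * a : Circle) : ℂ) ((w * b : Circle) : ℂ) = dist (a : ℂ) (b : ℂ)
    rw [Circle.coe_mul, Circle.coe_mul, dist_eq_norm, dist_eq_norm, ← mul_sub, norm_mul,
      Circle.norm_coe, one_mul]
  · exact hasEigenvalue_two F i ⟨fun p => p.2.1, by fun_prop⟩ hi hhom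

end Crest.Agent.R123.Skel
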