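import Crest.Agent.R123.Defs

/-!
# Row 123: changing the model of a boundaryless manifold to Euclidean space
-/

set_option autoImplicit false

noncomputable section

open scoped Manifold ContDiff

namespace Crest.Agent.R123

/-- The charts of `Y` composed with a homeomorphism of the model space. -/
@[reducible] def rechart {H F : Type} [TopologicalSpace H] [TopologicalSpace F] (φ : H ≃ₜ F)
    (Y : Type) [TopologicalSpace Y] [ChartedSpace H Y] : ChartedSpace F Y where
  atlas := (fun e => e.transHomeomorph φ) '' atlas H Y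
  chartAt x := (chartAt H x).transHomeomorph φ
  mem_chart_source x := mem_chart_source H x
  chart_mem_atlas x := ⟨chartAt H x, chart_mem_atlas H x, rfl⟩

theorem transport_aux {F H : Type} [NormedAddCommGroup F] [NormedSpace ℝ F]
    [TopologicalSpace H] (J : ModelWithCorners ℝ F H) [J.Boundaryless]
    (Y : Type) [TopologicalSpace Y] [ChartedSpace H Y] [IsManifold J ∞ Y]
    (f : Y → Y) (hf : ContMDiff J J 1 f) :
    ∃ (_ : ChartedSpace F Y) (_ : IsManifold (modelWithCornersSelf ℝ F) ∞ Y),
      ContMDiff (modelWithCornersSelf ℝ F) (modelWithCornersSelf ℝ F) 1 f := by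
  let cs : ChartedSpace F Y := rechart J.toHomeomorph Y
  have hm : IsManifold (modelWithCornersSelf ℝ F) ∞ Y := by
    refine isManifold_of_contDiffOn _ _ _ fun e₁ e₂ h₁ h₂ => ?_
    obtain ⟨c₁, hc₁, rfl⟩ := h₁
    obtain ⟨c₂, hc₂, rfl⟩ := h₂
    have h := ((contDiffGroupoid ∞ J).compatible hc₁ hc₂).1
    have hr : Set.range J = Set.univ := J.range_eq_univ
    simp only [contDiffPregroupoid, hr, Set.inter_univ] at h
    simp only [modelWithCornersSelf_coe, modelWithCornersSelf_coe_symm, Set.range_id,
      Set.inter_univ, Set.preimage_id_eq, id_eq, Function.comp_id, Function.id_comp]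
    exact h
  refine ⟨cs, hm, fun x => ?_⟩
  have h := hf x
  rw [contMDiffAt_iff] at h ⊢
  refine ⟨h.1, ?_⟩
  have h2 := h.2
  have hr : Set.range J = Set.univ := J.range_eq_univ
  rw [hr] at h2
  simp only [modelWithCornersSelf_coe, Set.range_id]
  exact h2

theorem transport {E H : Type} [NormedAddCommGroup E] [NormedSpace ℝ E] [FiniteDimensional ℝ E]
    [TopologicalSpace H] (I : ModelWithCorners ℝ E H) [I.Boundaryless]
    (Y : Type) [TopologicalSpace Y] [ChartedSpace H Y] [IsManifold I ∞ Y]
    (n : ℕ) (hn : Module.finrank ℝ E = n) (f : Y → Y) (hf : ContMDiff I I 1 f) :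
    ∃ (_ : ChartedSpace (EuclideanSpace ℝ (Fin n)) Y)
      (_ : IsManifold (modelWithCornersSelf ℝ (EuclideanSpace ℝ (Fin n))) ∞ Y),
      ContMDiff (modelWithCornersSelf ℝ (EuclideanSpace ℝ (Fin n)))
        (modelWithCornersSelf ℝ (EuclideanSpace ℝ (Fin n))) 1 f := by
  let e : E ≃L[ℝ] EuclideanSpace ℝ (Fin n) :=
    ContinuousLinearEquiv.ofFinrankEq (by simp [hn])
  have : (I.transContinuousLinearEquiv e).Boundaryless := ⟨by
    rw [ModelWithCorners.transContinuousLinearEquiv_range, I.range_eq_univ, Set.image_univ]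
    exact e.surjective.range_eq⟩
  have : IsManifold I 1 Y := IsManifold.of_le (n := ∞) (by exact_mod_cast le_top)
  refine transport_aux (I.transContinuousLinearEquiv e) Y f ?_
  simpa using hf

end Crest.Agent.R123
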